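import Vale.Agent.P098.CkGd
import Vale.Agent.P098.CkOk
import Vale.Agent.P098.Sh.A11
import Vale.Agent.P098.Sh.A25
import Vale.Agent.P098.Sh.A27
import Vale.Agent.P098.Sh.A28
import Vale.Agent.P098.Sh.A29
import Vale.Agent.P098.Sh.A36
import Vale.Agent.P098.Sh.A38

namespace Vale.Agent.P098.Ck

theorem r1 :
    Ok Gd mult 0 128 0 64 0 128 140 198 512 808 ∧
    Ok Gd mult 0 128 0 64 0 128 198 256 216 808 :=
  have c0 : (band (go 16 Gd mult S198_256_364_512 (Tr.lf 8598620292 90786376 0) 0 128 0 32 0 128)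
  (go 16 Gd mult S198_227_660_808 (Tr.lf 8598595716 90663368 0) 0 128 0 32 0 128)) = true := by decide +kernel
  have c1 : (band (go 16 Gd mult S140_198_512_660 (Tr.lf 8599667844 90926023 0) 0 128 0 64 0 64)
  (go 16 Gd mult S140_198_660_808 (Tr.lf 8599667844 90794951 0) 0 128 0 64 0 64)) = true := by decide +kernel
  have c2 : (band (go 16 Gd mult S198_227_216_364 (Tr.lf 12893570184 82139593 0) 0 128 0 32 0 64)
  (band (go 16 Gd mult S198_256_512_660 (Tr.lf 8598619268 86600391 0) 0 128 0 32 0 64)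
  (go 16 Gd mult S198_256_512_660 (Tr.lf 8684610 103914564 0) 0 128 32 64 0 128))) = true := by decide +kernel
  have c3 : (go 16 Gd mult S227_256_216_364 (Tr.lf 12893570184 82131529 0) 0 128 0 32 0 64) = true := by decide +kernel
  have c4 : (go 16 Gd mult S227_256_660_808 (Tr.lf 8598603908 86600136 0) 0 128 0 32 0 128) = true := by decide +kernel
  have c5 : (band (go 16 Gd mult S198_256_660_808 (Tr.lf 8685634 108112836 0) 0 128 32 64 0 128)
  (band (go 16 Gd mult S198_256_364_512 (Tr.lf 8684609 108112964 0) 0 128 32 64 0 128)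
  (go 16 Gd mult S198_256_216_364 (Tr.lf 8684578 108235972 0) 0 128 32 64 0 128))) = true := by decide +kernel
  have c6 : (band (go 16 Gd mult S140_198_512_660 (Tr.lf 9601666 104041796 0) 0 128 0 64 64 128)
  (go 16 Gd mult S140_198_660_808 (Tr.lf 9601666 103918788 0) 0 128 0 64 64 128)) = true := by decide +kernel
  have c7 : (band (go 16 Gd mult S198_256_512_660 (Tr.lf 4303635012 99322566 0) 0 128 0 32 64 128)
  (band (go 16 Gd mult S198_227_216_364 (Tr.lf 4840366658 107707206 0) 0 128 0 32 64 128)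
  (go 16 Gd mult S227_256_216_364 (Tr.lf 4303495746 99318598 0) 0 128 0 32 64 128))) = true := by decide +kernel
  (And.intro (Ok.s4 660 (Ok.s2 64 (Ok.lf S140_198_512_660_ok (bl c1))
  (Ok.lf S140_198_512_660_ok (bl c6)))
  (Ok.s2 64 (Ok.lf S140_198_660_808_ok (br c1))
  (Ok.lf S140_198_660_808_ok (br c6))))
  (Ok.s4 512 (Ok.s4 364 (Ok.s1 32 (Ok.s3 227 (Ok.s2 64 (Ok.lf S198_227_216_364_ok (bl c2))
  (Ok.lf S198_227_216_364_ok (bl (br c7))))
  (Ok.s2 64 (Ok.lf S227_256_216_364_ok c3)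
  (Ok.lf S227_256_216_364_ok (br (br c7)))))
  (Ok.lf S198_256_216_364_ok (br (br c5))))
  (Ok.s1 32 (Ok.lf S198_256_364_512_ok (bl c0))
  (Ok.lf S198_256_364_512_ok (bl (br c5)))))
  (Ok.s4 660 (Ok.s1 32 (Ok.s2 64 (Ok.lf S198_256_512_660_ok (bl (br c2)))
  (Ok.lf S198_256_512_660_ok (bl c7)))
  (Ok.lf S198_256_512_660_ok (br (br c2))))
  (Ok.s1 32 (Ok.s3 227 (Ok.lf S198_227_660_808_ok (br c0))
  (Ok.lf S227_256_660_808_ok c4))
  (Ok.lf S198_256_660_808_ok (bl c5))))))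

end Vale.Agent.P098.Ck
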