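import Vale.Agent.P098.CkGd
import Vale.Agent.P098.CkOk
import Vale.Agent.P098.Sh.A10
import Vale.Agent.P098.Sh.A11
import Vale.Agent.P098.Sh.A18
import Vale.Agent.P098.Sh.A19
import Vale.Agent.P098.Sh.A25
import Vale.Agent.P098.Sh.A26
import Vale.Agent.P098.Sh.A27
import Vale.Agent.P098.Sh.A36
import Vale.Agent.P098.Sh.A37
import Vale.Agent.P098.Sh.A38
import Vale.Agent.P098.Sh.A9

namespace Vale.Agent.P098.Ck

theorem r206 :
    Ok Gd mult 128 256 64 128 0 128 140 198 364 512 ∧
    Ok Gd mult 128 256 64 128 0 128 140 198 512 808 ∧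
    Ok Gd mult 128 256 64 128 0 128 198 256 216 808 :=
  have c0 : (band (go 16 Gd mult S140_169_364_512 (Tr.lf 12886231176 82520649 0) 128 256 64 128 0 128)
  (go 16 Gd mult S198_227_216_364 (Tr.lf 8590215236 103770823 0) 128 256 64 128 0 128)) = true := by decide +kernel
  have c1 : (band (go 16 Gd mult S169_198_364_512 (Tr.lf 12886231176 86588105 0) 128 256 64 128 0 128)
  (go 16 Gd mult S227_256_216_364 (Tr.lf 8590215236 103770823 0) 128 256 64 128 0 128)) = true := by decide +kernel
  have c2 : (go 16 Gd mult S140_169_512_660 (Tr.lf 12886231176 82520649 0) 128 256 64 128 0 128) = true := by decide +kernel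
  have c3 : (go 16 Gd mult S169_198_512_660 (Tr.lf 12885182600 90786121 0) 128 256 64 128 0 128) = true := by decide +kernel
  have c4 : (go 16 Gd mult S198_227_364_512 (Tr.lf 8590215304 99445447 0) 128 256 64 128 0 128) = true := by decide +kernel
  have c5 : (go 16 Gd mult S227_256_364_512 (Tr.lf 12885182600 90786249 0) 128 256 64 128 0 128) = true := by decide +kernel
  have c6 : (go 16 Gd mult S198_227_512_660 (Tr.lf 12893571208 90917321 0) 128 256 64 128 0 128) = true := by decide +kernel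
  have c7 : (go 16 Gd mult S227_256_512_660 (Tr.lf 12893571208 90917321 0) 128 256 64 128 0 128) = true := by decide +kernel
  have c8 : (go 16 Gd mult S198_227_660_808 (Tr.lf 12885182600 82524489 0) 128 256 64 128 0 128) = true := by decide +kernel
  have c9 : (go 16 Gd mult S227_256_660_808 (Tr.lf 12893571208 90790472 0) 128 256 64 128 0 128) = true := by decide +kernel
  have c10 : (go 16 Gd mult S140_198_660_808 (Tr.lf 8599667844 99449671 0) 128 256 64 128 64 128) = true := by decide +kernel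
  have c11 : (band (go 16 Gd mult S140_169_660_808 (Tr.lf 12886090888 86592200 0) 128 256 64 128 0 64)
  (go 16 Gd mult S169_198_660_808 (Tr.lf 12885042312 86596040 0) 128 256 64 128 0 64)) = true := by decide +kernel
  (And.intro (Ok.s3 169 (Ok.lf S140_169_364_512_ok (bl c0))
  (Ok.lf S169_198_364_512_ok (bl c1)))
  (And.intro (Ok.s4 660 (Ok.s3 169 (Ok.lf S140_169_512_660_ok c2)
  (Ok.lf S169_198_512_660_ok c3))
  (Ok.s2 64 (Ok.s3 169 (Ok.lf S140_169_660_808_ok (bl c11))
  (Ok.lf S169_198_660_808_ok (br c11)))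
  (Ok.lf S140_198_660_808_ok c10)))
  (Ok.s4 512 (Ok.s4 364 (Ok.s3 227 (Ok.lf S198_227_216_364_ok (br c0))
  (Ok.lf S227_256_216_364_ok (br c1)))
  (Ok.s3 227 (Ok.lf S198_227_364_512_ok c4)
  (Ok.lf S227_256_364_512_ok c5)))
  (Ok.s4 660 (Ok.s3 227 (Ok.lf S198_227_512_660_ok c6)
  (Ok.lf S227_256_512_660_ok c7))
  (Ok.s3 227 (Ok.lf S198_227_660_808_ok c8)
  (Ok.lf S227_256_660_808_ok c9))))))

end Vale.Agent.P098.Ck
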