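import Vale.Agent.P098.CkGd
import Vale.Agent.P098.CkOk
import Vale.Agent.P098.Sh.A41
import Vale.Agent.P098.Sh.A42
import Vale.Agent.P098.Sh.A45
import Vale.Agent.P098.Sh.A46
import Vale.Agent.P098.Sh.A48
import Vale.Agent.P098.Sh.A49
import Vale.Agent.P098.Sh.A52

namespace Vale.Agent.P098.Ck

theorem r207 :
    Ok Gd mult 128 256 64 128 0 128 256 314 216 512 ∧
    Ok Gd mult 128 256 64 128 0 128 256 314 512 808 ∧
    Ok Gd mult 128 256 64 128 0 128 314 372 216 808 :=
  have c0 : (go 16 Gd mult S256_285_364_512 (Tr.lf 12885182600 90913225 0) 128 256 64 128 0 128) = true := by decide +kernel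
  have c1 : (go 16 Gd mult S285_314_364_512 (Tr.lf 12885182600 86723144 0) 128 256 64 128 0 128) = true := by decide +kernel
  have c2 : (go 16 Gd mult S256_285_512_660 (Tr.lf 12893571208 86600264 0) 128 256 64 128 0 128) = true := by decide +kernel
  have c3 : (go 16 Gd mult S285_314_512_660 (Tr.lf 12885182600 86587976 0) 128 256 64 128 0 128) = true := by decide +kernel
  have c4 : (go 16 Gd mult S256_285_660_808 (Tr.lf 12893571208 82528840 0) 128 256 64 128 0 128) = true := by decide +kernel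
  have c5 : (go 16 Gd mult S285_314_660_808 (Tr.lf 12893571208 86592072 0) 128 256 64 128 0 128) = true := by decide +kernel
  have c6 : (band (go 16 Gd mult S314_372_364_512 (Tr.lf 12885198920 86850120 0) 128 256 96 128 0 128)
  (go 16 Gd mult S314_343_660_808 (Tr.lf 12893571112 86596168 0) 128 256 96 128 0 128)) = true := by decide +kernel
  have c7 : (go 16 Gd mult S314_343_512_660 (Tr.lf 12893571208 86727240 0) 128 256 64 128 0 128) = true := by decide +kernel
  have c8 : (go 16 Gd mult S343_372_660_808 (Tr.lf 12893571208 86858312 0) 128 256 64 128 0 128) = true := by decide +kernel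
  have c9 : (band (go 16 Gd mult S343_372_512_660 (Tr.lf 12893440136 90794568 0) 128 256 64 128 0 128)
  (go 16 Gd mult S256_285_216_364 (Tr.lf 8590215240 95382215 0) 128 256 64 128 0 128)) = true := by decide +kernel
  have c10 : (go 16 Gd mult S285_314_216_364 (Tr.lf 12885182536 90782153 0) 128 256 64 128 0 128) = true := by decide +kernel
  have c11 : (go 16 Gd mult S314_372_216_364 (Tr.lf 8590230596 99703622 0) 128 256 64 128 64 128) = true := by decide +kernel
  have c12 : (go 16 Gd mult S314_372_216_364 (Tr.lf 12885050440 90921416 0) 128 256 64 128 0 64) = true := by decide +kernel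
  have c13 : (band (go 16 Gd mult S314_372_364_512 (Tr.lf 8598471716 99584710 0) 128 256 64 96 0 128)
  (go 16 Gd mult S314_343_660_808 (Tr.lf 8598463524 99322566 0) 128 256 64 96 0 128)) = true := by decide +kernel
  (And.intro (Ok.s4 364 (Ok.s3 285 (Ok.lf S256_285_216_364_ok (br c9))
  (Ok.lf S285_314_216_364_ok c10))
  (Ok.s3 285 (Ok.lf S256_285_364_512_ok c0)
  (Ok.lf S285_314_364_512_ok c1)))
  (And.intro (Ok.s4 660 (Ok.s3 285 (Ok.lf S256_285_512_660_ok c2)
  (Ok.lf S285_314_512_660_ok c3))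
  (Ok.s3 285 (Ok.lf S256_285_660_808_ok c4)
  (Ok.lf S285_314_660_808_ok c5)))
  (Ok.s4 512 (Ok.s4 364 (Ok.s2 64 (Ok.lf S314_372_216_364_ok c12)
  (Ok.lf S314_372_216_364_ok c11))
  (Ok.s1 96 (Ok.lf S314_372_364_512_ok (bl c13))
  (Ok.lf S314_372_364_512_ok (bl c6))))
  (Ok.s4 660 (Ok.s3 343 (Ok.lf S314_343_512_660_ok c7)
  (Ok.lf S343_372_512_660_ok (bl c9)))
  (Ok.s3 343 (Ok.s1 96 (Ok.lf S314_343_660_808_ok (br c13))
  (Ok.lf S314_343_660_808_ok (br c6)))
  (Ok.lf S343_372_660_808_ok c8))))))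

end Vale.Agent.P098.Ck
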