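import Vale.Agent.P098.CkGd
import Vale.Agent.P098.CkOk
import Vale.Agent.P098.Sh.A14
import Vale.Agent.P098.Sh.A20
import Vale.Agent.P098.Sh.A22
import Vale.Agent.P098.Sh.A9

namespace Vale.Agent.P098.Ck

theorem r217 :
    Ok Gd mult 128 256 64 128 448 512 169 183 216 290 ∧
    Ok Gd mult 128 256 64 128 448 512 183 198 216 290 ∧
    Ok Gd mult 128 256 64 128 448 512 140 169 290 364 :=
  have c0 : (band (go 16 Gd mult S140_169_290_364 (Tr.lf 9682716808 99454023 0) 128 256 64 128 448 480)
  (go 16 Gd mult S140_169_290_364 (Tr.lf 9682716740 99322951 0) 128 256 64 96 480 512)) = true := by decide +kernel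
  have c1 : (band (go 16 Gd mult S169_183_216_290 (Tr.lf 13986187400 103254857 0) 128 256 96 128 448 512)
  (go 16 Gd mult S169_183_216_290 (Tr.lf 9691220036 111905736 0) 128 256 64 96 448 480)) = true := by decide +kernel
  have c2 : (band (go 16 Gd mult S190_198_216_290 (Tr.lf 13986187400 103123785 0) 128 256 96 128 480 512)
  (go 16 Gd mult S183_190_216_290 (Tr.lf 13986179144 103123785 0) 128 256 96 128 480 512)) = true := by decide +kernel
  have c3 : (band (go 16 Gd mult S190_198_216_290 (Tr.lf 13986179208 102988745 0) 128 256 64 96 448 480)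
  (band (go 16 Gd mult S183_190_216_290 (Tr.lf 13986179140 102996809 0) 128 256 64 96 448 480)
  (go 16 Gd mult S183_190_216_290 (Tr.lf 9145952328 91061574 34956580019679600312349) 128 256 64 96 496 512))) = true := by decide +kernel
  have c4 : (band (go 16 Gd mult S190_198_216_290 (Tr.lf 13986179208 103255112 0) 128 256 96 128 448 480)
  (band (go 16 Gd mult S183_190_216_290 (Tr.lf 13986179144 103255112 0) 128 256 96 128 448 480)
  (go 16 Gd mult S190_198_216_290 (Tr.lf 13986178120 99195848 0) 128 256 64 96 480 496))) = true := by decide +kernel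
  have c5 : (band (go 16 Gd mult S169_183_216_290 (Tr.lf 13987235972 98929992 36930389942651748089856) 128 192 64 96 480 512)
  (go 16 Gd mult S169_183_216_290 (Tr.lf 9691220034 103386311 0) 192 256 64 96 480 512)) = true := by decide +kernel
  have c6 : (go 16 Gd mult S190_198_216_290 (Tr.lf 9145960520 99319110 19959377087753734848512) 128 256 64 96 496 512) = true := by decide +kernel
  have c7 : (go 16 Gd mult S140_169_290_364 (Tr.lf 9682715716 103517255 0) 128 256 96 128 480 512) = true := by decide +kernel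
  have c8 : (go 16 Gd mult S183_190_216_290 (Tr.lf 13986178116 99195848 0) 128 256 64 96 480 496) = true := by decide +kernel
  (And.intro (Ok.s1 96 (Ok.s2 480 (Ok.lf S169_183_216_290_ok (br c1))
  (Ok.s0 192 (Ok.lf S169_183_216_290_ok (bl c5))
  (Ok.lf S169_183_216_290_ok (br c5))))
  (Ok.lf S169_183_216_290_ok (bl c1)))
  (And.intro (Ok.s3 190 (Ok.s1 96 (Ok.s2 480 (Ok.lf S183_190_216_290_ok (bl (br c3)))
  (Ok.s2 496 (Ok.lf S183_190_216_290_ok c8)
  (Ok.lf S183_190_216_290_ok (br (br c3)))))
  (Ok.s2 480 (Ok.lf S183_190_216_290_ok (bl (br c4)))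
  (Ok.lf S183_190_216_290_ok (br c2))))
  (Ok.s1 96 (Ok.s2 480 (Ok.lf S190_198_216_290_ok (bl c3))
  (Ok.s2 496 (Ok.lf S190_198_216_290_ok (br (br c4)))
  (Ok.lf S190_198_216_290_ok c6)))
  (Ok.s2 480 (Ok.lf S190_198_216_290_ok (bl c4))
  (Ok.lf S190_198_216_290_ok (bl c2)))))
  (Ok.s2 480 (Ok.lf S140_169_290_364_ok (bl c0))
  (Ok.s1 96 (Ok.lf S140_169_290_364_ok (br c0))
  (Ok.lf S140_169_290_364_ok c7)))))

end Vale.Agent.P098.Ck
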