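import Vale.Agent.P098.CkGd
import Vale.Agent.P098.CkOk
import Vale.Agent.P098.Sh.A23
import Vale.Agent.P098.Sh.A25
import Vale.Agent.P098.Sh.A30

namespace Vale.Agent.P098.Ck

theorem r225 :
    Ok Gd mult 128 256 64 128 384 448 198 227 216 364 ∧
    Ok Gd mult 128 256 64 128 448 480 198 227 216 364 ∧
    Ok Gd mult 128 256 64 128 480 496 198 227 216 364 :=
  have c0 : (go 16 Gd mult S198_212_216_364 (Tr.lf 13986448520 107445193 0) 128 256 96 128 416 448) = true := by decide +kernel
  have c1 : (go 16 Gd mult S198_212_216_364 (Tr.lf 13986448520 99060553 0) 128 256 64 96 464 480) = true := by decide +kernel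
  have c2 : (band (go 16 Gd mult S198_212_216_290 (Tr.lf 13986187400 99191880 0) 128 256 96 128 448 480)
  (go 16 Gd mult S198_212_216_290 (Tr.lf 13986186312 99195848 0) 128 256 64 96 480 496)) = true := by decide +kernel
  have c3 : (band (go 16 Gd mult S198_212_290_364 (Tr.lf 13986187400 99191880 0) 128 256 96 128 448 480)
  (go 16 Gd mult S198_212_290_364 (Tr.lf 13986186312 99195848 0) 128 256 96 128 480 496)) = true := by decide +kernel
  have c4 : (go 16 Gd mult S212_227_216_364 (Tr.lf 13449578568 94739273 0) 128 256 96 128 448 480) = true := by decide +kernel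
  have c5 : (band (go 16 Gd mult S212_227_216_364 (Tr.lf 9146222660 103509064 0) 128 256 96 128 384 448)
  (go 16 Gd mult S212_227_216_364 (Tr.lf 13449577544 90536905 0) 128 256 64 96 448 480)) = true := by decide +kernel
  have c6 : (band (go 16 Gd mult S198_212_290_364 (Tr.lf 13986186376 99195848 0) 128 256 64 96 480 496)
  (go 16 Gd mult S212_227_216_364 (Tr.lf 13986448456 103390152 0) 128 256 64 96 480 496)) = true := by decide +kernel
  have c7 : (band (go 16 Gd mult S198_212_216_290 (Tr.lf 13986186376 99195848 0) 128 256 96 128 480 496)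
  (go 16 Gd mult S212_227_216_364 (Tr.lf 13986448456 103390152 0) 128 256 96 128 480 496)) = true := by decide +kernel
  have c8 : (go 16 Gd mult S198_227_216_364 (Tr.lf 4313072674 95390790 0) 128 256 64 96 384 448) = true := by decide +kernel
  have c9 : (band (go 16 Gd mult S198_212_216_364 (Tr.lf 9145950788 99187911 0) 128 256 64 96 448 464)
  (go 16 Gd mult S198_212_216_364 (Tr.lf 9144902178 99322568 0) 128 256 96 128 384 416)) = true := by decide +kernel
  (And.intro (Ok.s1 96 (Ok.lf S198_227_216_364_ok c8)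
  (Ok.s3 212 (Ok.s2 416 (Ok.lf S198_212_216_364_ok (br c9))
  (Ok.lf S198_212_216_364_ok c0))
  (Ok.lf S212_227_216_364_ok (bl c5))))
  (And.intro (Ok.s3 212 (Ok.s1 96 (Ok.s2 464 (Ok.lf S198_212_216_364_ok (bl c9))
  (Ok.lf S198_212_216_364_ok c1))
  (Ok.s4 290 (Ok.lf S198_212_216_290_ok (bl c2))
  (Ok.lf S198_212_290_364_ok (bl c3))))
  (Ok.s1 96 (Ok.lf S212_227_216_364_ok (br c5))
  (Ok.lf S212_227_216_364_ok c4)))
  (Ok.s3 212 (Ok.s1 96 (Ok.s4 290 (Ok.lf S198_212_216_290_ok (br c2))
  (Ok.lf S198_212_290_364_ok (bl c6)))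
  (Ok.s4 290 (Ok.lf S198_212_216_290_ok (bl c7))
  (Ok.lf S198_212_290_364_ok (br c3))))
  (Ok.s1 96 (Ok.lf S212_227_216_364_ok (br c6))
  (Ok.lf S212_227_216_364_ok (br c7))))))

end Vale.Agent.P098.Ck
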