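import Vale.Agent.P098.CkGd
import Vale.Agent.P098.CkOk
import Vale.Agent.P098.Sh.A0
import Vale.Agent.P098.Sh.A1
import Vale.Agent.P098.Sh.A58
import Vale.Agent.P098.Sh.A59

namespace Vale.Agent.P098.Ck

theorem r245 :
    Ok Gd mult 128 256 128 192 0 128 430 488 216 808 ∧
    Ok Gd mult 128 256 128 192 128 256 24 82 216 512 ∧
    Ok Gd mult 128 256 128 192 128 256 24 82 512 660 :=
  have c0 : (go 16 Gd mult S430_488_512_660 (Tr.lf 18264262792 99437386 0) 128 256 128 192 0 128) = true := by decide +kernel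
  have c1 : (go 16 Gd mult S430_488_660_808 (Tr.lf 18264262792 99437386 0) 128 256 128 192 0 128) = true := by decide +kernel
  have c2 : (go 16 Gd mult S24_82_364_512 (Tr.lf 13961955464 99445704 0) 128 256 160 192 192 256) = true := by decide +kernel
  have c3 : (band (go 16 Gd mult S430_488_216_364 (Tr.lf 18264197256 107694922 0) 128 256 128 192 0 128)
  (go 16 Gd mult S430_488_364_512 (Tr.lf 18264197256 99437386 0) 128 256 128 192 0 128)) = true := by decide +kernel
  have c4 : (band (go 16 Gd mult S53_82_216_364 (Tr.lf 13424019592 99572679 0) 128 256 160 192 128 256)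
  (band (go 16 Gd mult S24_53_216_364 (Tr.lf 13423954056 99572679 0) 128 256 160 192 128 256)
  (go 16 Gd mult S53_82_216_364 (Tr.lf 13960890440 94980936 0) 128 256 128 160 128 256))) = true := by decide +kernel
  have c5 : (band (go 16 Gd mult S24_82_364_512 (Tr.lf 13424034952 99572679 0) 128 256 160 192 128 192)
  (go 16 Gd mult S24_82_512_660 (Tr.lf 13424034952 99572679 0) 128 256 160 192 128 192)) = true := by decide +kernel
  have c6 : (go 16 Gd mult S24_82_512_660 (Tr.lf 13961954440 99445704 0) 128 256 160 192 192 256) = true := by decide +kernel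
  have c7 : (band (go 16 Gd mult S24_82_364_512 (Tr.lf 13961888904 90786888 0) 128 256 128 160 192 256)
  (band (go 16 Gd mult S24_82_512_660 (Tr.lf 13961888840 90786888 0) 128 256 128 160 192 256)
  (band (go 16 Gd mult S24_82_364_512 (Tr.lf 13423969348 90913608 0) 128 256 128 160 128 192)
  (go 16 Gd mult S24_82_512_660 (Tr.lf 13423969348 90913608 0) 128 256 128 160 128 192)))) = true := by decide +kernel
  have c8 : (go 16 Gd mult S24_53_216_364 (Tr.lf 13961873480 90786888 0) 128 256 128 160 128 256) = true := by decide +kernel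
  (And.intro (Ok.s4 512 (Ok.s4 364 (Ok.lf S430_488_216_364_ok (bl c3))
  (Ok.lf S430_488_364_512_ok (br c3)))
  (Ok.s4 660 (Ok.lf S430_488_512_660_ok c0)
  (Ok.lf S430_488_660_808_ok c1)))
  (And.intro (Ok.s4 364 (Ok.s1 160 (Ok.s3 53 (Ok.lf S24_53_216_364_ok c8)
  (Ok.lf S53_82_216_364_ok (br (br c4))))
  (Ok.s3 53 (Ok.lf S24_53_216_364_ok (bl (br c4)))
  (Ok.lf S53_82_216_364_ok (bl c4))))
  (Ok.s2 192 (Ok.s1 160 (Ok.lf S24_82_364_512_ok (bl (br (br c7))))
  (Ok.lf S24_82_364_512_ok (bl c5)))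
  (Ok.s1 160 (Ok.lf S24_82_364_512_ok (bl c7))
  (Ok.lf S24_82_364_512_ok c2))))
  (Ok.s2 192 (Ok.s1 160 (Ok.lf S24_82_512_660_ok (br (br (br c7))))
  (Ok.lf S24_82_512_660_ok (br c5)))
  (Ok.s1 160 (Ok.lf S24_82_512_660_ok (bl (br c7)))
  (Ok.lf S24_82_512_660_ok c6)))))

end Vale.Agent.P098.Ck
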