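import Vale.Agent.P098.CkGd
import Vale.Agent.P098.CkOk
import Vale.Agent.P098.Sh.A14
import Vale.Agent.P098.Sh.A17
import Vale.Agent.P098.Sh.A18
import Vale.Agent.P098.Sh.A20
import Vale.Agent.P098.Sh.A3
import Vale.Agent.P098.Sh.A6
import Vale.Agent.P098.Sh.A8
import Vale.Agent.P098.Sh.A9

namespace Vale.Agent.P098.Ck

theorem r247 :
    Ok Gd mult 128 256 128 192 128 256 82 140 660 808 ∧
    Ok Gd mult 128 256 128 192 128 256 140 198 216 512 :=
  have c0 : (go 16 Gd mult S111_140_660_808 (Tr.lf 13432539272 99310536 0) 128 256 128 192 128 256) = true := by decide +kernel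
  have c1 : (go 16 Gd mult S140_169_216_364 (Tr.lf 13432816772 103640008 0) 192 256 128 192 128 192) = true := by decide +kernel
  have c2 : (go 16 Gd mult S140_169_216_364 (Tr.lf 13441205380 103639881 0) 192 256 128 192 192 256) = true := by decide +kernel
  have c3 : (band (go 16 Gd mult S140_169_364_512 (Tr.lf 13432555592 99179337 0) 128 256 128 160 128 256)
  (go 16 Gd mult S82_111_660_808 (Tr.lf 13432408136 94981064 0) 128 256 128 160 128 256)) = true := by decide +kernel
  have c4 : (band (go 16 Gd mult S140_169_364_512 (Tr.lf 13432555592 99310664 0) 128 256 160 192 128 256)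
  (go 16 Gd mult S82_111_660_808 (Tr.lf 13424019528 95243335 0) 128 256 160 192 128 256)) = true := by decide +kernel
  have c5 : (go 16 Gd mult S169_198_364_512 (Tr.lf 13440943176 99318984 0) 128 256 160 192 192 256) = true := by decide +kernel
  have c6 : (band (go 16 Gd mult S169_198_216_364 (Tr.lf 9136523394 99843015 0) 128 192 128 192 128 256)
  (go 16 Gd mult S169_198_216_364 (Tr.lf 8599651394 99838919 0) 192 256 128 160 128 256)) = true := by decide +kernel
  have c7 : (band (go 16 Gd mult S169_183_216_364 (Tr.lf 13441189954 103775304 0) 192 256 160 192 128 256)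
  (go 16 Gd mult S183_198_216_364 (Tr.lf 13441189954 103902408 0) 192 256 160 192 128 256)) = true := by decide +kernel
  have c8 : (band (go 16 Gd mult S169_198_364_512 (Tr.lf 13431489608 103504840 0) 128 256 160 192 128 192)
  (go 16 Gd mult S169_198_364_512 (Tr.lf 8599651396 99580871 0) 128 256 128 160 128 256)) = true := by decide +kernel
  have c9 : (go 16 Gd mult S140_169_216_364 (Tr.lf 9137570882 107969862 0) 128 192 160 192 128 256) = true := by decide +kernel
  have c10 : (go 16 Gd mult S140_169_216_364 (Tr.lf 9137439778 103644231 0) 128 192 128 160 128 256) = true := by decide +kernel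
  (And.intro (Ok.s3 111 (Ok.s1 160 (Ok.lf S82_111_660_808_ok (br c3))
  (Ok.lf S82_111_660_808_ok (br c4)))
  (Ok.lf S111_140_660_808_ok c0))
  (Ok.s4 364 (Ok.s0 192 (Ok.s3 169 (Ok.s1 160 (Ok.lf S140_169_216_364_ok c10)
  (Ok.lf S140_169_216_364_ok c9))
  (Ok.lf S169_198_216_364_ok (bl c6)))
  (Ok.s3 169 (Ok.s2 192 (Ok.lf S140_169_216_364_ok c1)
  (Ok.lf S140_169_216_364_ok c2))
  (Ok.s1 160 (Ok.lf S169_198_216_364_ok (br c6))
  (Ok.s3 183 (Ok.lf S169_183_216_364_ok (bl c7))
  (Ok.lf S183_198_216_364_ok (br c7))))))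
  (Ok.s3 169 (Ok.s1 160 (Ok.lf S140_169_364_512_ok (bl c3))
  (Ok.lf S140_169_364_512_ok (bl c4)))
  (Ok.s1 160 (Ok.lf S169_198_364_512_ok (br c8))
  (Ok.s2 192 (Ok.lf S169_198_364_512_ok (bl c8))
  (Ok.lf S169_198_364_512_ok c5))))))

end Vale.Agent.P098.Ck
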