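import Vale.Agent.P098.CkGd
import Vale.Agent.P098.CkOk
import Vale.Agent.P098.Sh.A54
import Vale.Agent.P098.Sh.A56
import Vale.Agent.P098.Sh.A57

namespace Vale.Agent.P098.Ck

theorem r250 :
    Ok Gd mult 128 256 128 192 128 256 372 430 216 364 ∧
    Ok Gd mult 128 256 128 192 128 256 372 430 364 512 ∧
    Ok Gd mult 128 256 128 192 128 256 372 430 512 660 ∧
    Ok Gd mult 128 192 128 192 128 256 372 430 660 808 :=
  have c0 : (band (go 16 Gd mult S401_430_364_512 (Tr.lf 13970343048 91061321 0) 128 256 160 192 192 256)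
  (go 16 Gd mult S401_430_512_660 (Tr.lf 13970343048 91061321 0) 128 256 160 192 192 256)) = true := by decide +kernel
  have c1 : (band (go 16 Gd mult S372_401_512_660 (Tr.lf 13431375944 99437257 0) 128 256 128 160 128 256)
  (band (go 16 Gd mult S372_401_216_364 (Tr.lf 13431359560 95242953 0) 128 256 128 160 128 256)
  (go 16 Gd mult S372_401_364_512 (Tr.lf 13431359560 95242953 0) 128 256 128 160 128 256))) = true := by decide +kernel
  have c2 : (band (go 16 Gd mult S372_401_512_660 (Tr.lf 13431375944 103631561 0) 128 256 160 192 128 256)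
  (go 16 Gd mult S372_401_216_364 (Tr.lf 13423102024 99568201 0) 128 256 160 192 128 256)) = true := by decide +kernel
  have c3 : (go 16 Gd mult S401_430_216_364 (Tr.lf 13970474056 91061321 0) 128 256 160 192 192 256) = true := by decide +kernel
  have c4 : (go 16 Gd mult S372_401_364_512 (Tr.lf 13423102024 107817673 0) 128 256 160 192 128 256) = true := by decide +kernel
  have c5 : (band (go 16 Gd mult S401_430_364_512 (Tr.lf 13431359560 99437257 0) 128 256 128 160 128 256)
  (band (go 16 Gd mult S401_430_512_660 (Tr.lf 13431359560 99437257 0) 128 256 128 160 128 256)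
  (band (go 16 Gd mult S401_430_216_364 (Tr.lf 13431359556 99445321 0) 128 256 128 160 128 256)
  (go 16 Gd mult S401_430_216_364 (Tr.lf 13432407112 99576904 0) 128 256 160 192 128 192)))) = true := by decide +kernel
  have c6 : (band (go 16 Gd mult S401_430_364_512 (Tr.lf 13432407112 99576904 0) 128 256 160 192 128 192)
  (go 16 Gd mult S401_430_512_660 (Tr.lf 13969278024 91192392 0) 128 256 160 192 128 192)) = true := by decide +kernel
  have c7 : (band (go 16 Gd mult S401_430_660_808 (Tr.lf 9129051266 95509703 0) 128 192 128 192 128 256)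
  (go 16 Gd mult S372_401_660_808 (Tr.lf 9128002626 99830727 0) 128 192 128 192 128 256)) = true := by decide +kernel
  (And.intro (Ok.s3 401 (Ok.s1 160 (Ok.lf S372_401_216_364_ok (bl (br c1)))
  (Ok.lf S372_401_216_364_ok (br c2)))
  (Ok.s1 160 (Ok.lf S401_430_216_364_ok (bl (br (br c5))))
  (Ok.s2 192 (Ok.lf S401_430_216_364_ok (br (br (br c5))))
  (Ok.lf S401_430_216_364_ok c3))))
  (And.intro (Ok.s3 401 (Ok.s1 160 (Ok.lf S372_401_364_512_ok (br (br c1)))
  (Ok.lf S372_401_364_512_ok c4))
  (Ok.s1 160 (Ok.lf S401_430_364_512_ok (bl c5))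
  (Ok.s2 192 (Ok.lf S401_430_364_512_ok (bl c6))
  (Ok.lf S401_430_364_512_ok (bl c0)))))
  (And.intro (Ok.s3 401 (Ok.s1 160 (Ok.lf S372_401_512_660_ok (bl c1))
  (Ok.lf S372_401_512_660_ok (bl c2)))
  (Ok.s1 160 (Ok.lf S401_430_512_660_ok (bl (br c5)))
  (Ok.s2 192 (Ok.lf S401_430_512_660_ok (br c6))
  (Ok.lf S401_430_512_660_ok (br c0)))))
  (Ok.s3 401 (Ok.lf S372_401_660_808_ok (br c7))
  (Ok.lf S401_430_660_808_ok (bl c7))))))

end Vale.Agent.P098.Ck
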