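import Vale.Agent.P098.CkGd
import Vale.Agent.P098.CkOk
import Vale.Agent.P098.Sh.A54
import Vale.Agent.P098.Sh.A57
import Vale.Agent.P098.Sh.A58
import Vale.Agent.P098.Sh.A59

namespace Vale.Agent.P098.Ck

theorem r251 :
    Ok Gd mult 192 256 128 192 128 256 372 430 660 808 ∧
    Ok Gd mult 128 256 128 192 128 256 430 488 216 808 :=
  have c0 : (band (go 16 Gd mult S430_459_216_364 (Tr.lf 13961955464 95378505 0) 128 256 160 192 128 256)
  (go 16 Gd mult S459_488_216_364 (Tr.lf 13961873544 95378505 0) 128 256 160 192 128 256)) = true := by decide +kernel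
  have c1 : (band (go 16 Gd mult S430_459_364_512 (Tr.lf 13961955464 95378505 0) 128 256 160 192 128 256)
  (go 16 Gd mult S459_488_364_512 (Tr.lf 13961873544 95378505 0) 128 256 160 192 128 256)) = true := by decide +kernel
  have c2 : (band (go 16 Gd mult S430_459_512_660 (Tr.lf 13970344072 95386697 0) 128 256 160 192 128 256)
  (go 16 Gd mult S459_488_512_660 (Tr.lf 13961873544 95378505 0) 128 256 160 192 128 256)) = true := by decide +kernel
  have c3 : (band (go 16 Gd mult S401_430_660_808 (Tr.lf 13970475140 91192138 0) 192 256 160 192 128 256)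
  (go 16 Gd mult S372_401_660_808 (Tr.lf 13431490628 103639625 0) 192 256 160 192 128 256)) = true := by decide +kernel
  have c4 : (band (go 16 Gd mult S430_488_660_808 (Tr.lf 9129068616 95644743 0) 128 256 128 160 128 256)
  (band (go 16 Gd mult S430_488_512_660 (Tr.lf 9129003080 95644743 0) 128 256 128 160 128 256)
  (go 16 Gd mult S430_488_216_364 (Tr.lf 9129068612 95644743 0) 128 256 128 160 128 256))) = true := by decide +kernel
  have c5 : (go 16 Gd mult S430_488_364_512 (Tr.lf 9129003080 95644743 0) 128 256 128 160 128 256) = true := by decide +kernel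
  have c6 : (go 16 Gd mult S459_488_660_808 (Tr.lf 13961873544 95378505 0) 128 256 160 192 128 256) = true := by decide +kernel
  have c7 : (go 16 Gd mult S430_459_660_808 (Tr.lf 13970342984 91061321 0) 128 256 160 192 192 256) = true := by decide +kernel
  have c8 : (band (go 16 Gd mult S372_401_660_808 (Tr.lf 13431490628 103508553 0) 192 256 128 160 128 256)
  (go 16 Gd mult S401_430_660_808 (Tr.lf 13431359556 95251017 0) 192 256 128 160 128 256)) = true := by decide +kernel
  have c9 : (go 16 Gd mult S430_459_660_808 (Tr.lf 13960889416 95378249 0) 128 256 160 192 128 192) = true := by decide +kernel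
  (And.intro (Ok.s3 401 (Ok.s1 160 (Ok.lf S372_401_660_808_ok (bl c8))
  (Ok.lf S372_401_660_808_ok (br c3)))
  (Ok.s1 160 (Ok.lf S401_430_660_808_ok (br c8))
  (Ok.lf S401_430_660_808_ok (bl c3))))
  (Ok.s4 512 (Ok.s4 364 (Ok.s1 160 (Ok.lf S430_488_216_364_ok (br (br c4)))
  (Ok.s3 459 (Ok.lf S430_459_216_364_ok (bl c0))
  (Ok.lf S459_488_216_364_ok (br c0))))
  (Ok.s1 160 (Ok.lf S430_488_364_512_ok c5)
  (Ok.s3 459 (Ok.lf S430_459_364_512_ok (bl c1))
  (Ok.lf S459_488_364_512_ok (br c1)))))
  (Ok.s4 660 (Ok.s1 160 (Ok.lf S430_488_512_660_ok (bl (br c4)))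
  (Ok.s3 459 (Ok.lf S430_459_512_660_ok (bl c2))
  (Ok.lf S459_488_512_660_ok (br c2))))
  (Ok.s1 160 (Ok.lf S430_488_660_808_ok (bl c4))
  (Ok.s3 459 (Ok.s2 192 (Ok.lf S430_459_660_808_ok c9)
  (Ok.lf S430_459_660_808_ok c7))
  (Ok.lf S459_488_660_808_ok c6))))))

end Vale.Agent.P098.Ck
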