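import Vale.Agent.P098.CkGd
import Vale.Agent.P098.CkOk
import Vale.Agent.P098.Sh.A12
import Vale.Agent.P098.Sh.A14
import Vale.Agent.P098.Sh.A17
import Vale.Agent.P098.Sh.A20
import Vale.Agent.P098.Sh.A21
import Vale.Agent.P098.Sh.A3
import Vale.Agent.P098.Sh.A6
import Vale.Agent.P098.Sh.A7
import Vale.Agent.P098.Sh.A8

namespace Vale.Agent.P098.Ck

theorem r254 :
    Ok Gd mult 128 256 128 192 320 384 82 140 660 808 ∧
    Ok Gd mult 128 256 128 192 256 384 140 198 216 364 :=
  have c0 : (go 16 Gd mult S82_111_660_808 (Tr.lf 13969410184 99310536 0) 128 256 128 192 320 384) = true := by decide +kernel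
  have c1 : (go 16 Gd mult S111_140_660_808 (Tr.lf 13432539272 94989256 0) 128 256 128 192 320 384) = true := by decide +kernel
  have c2 : (go 16 Gd mult S140_169_216_364 (Tr.lf 13441205320 95124552 0) 128 256 160 192 256 320) = true := by decide +kernel
  have c3 : (go 16 Gd mult S140_169_216_364 (Tr.lf 13441205320 95251528 0) 128 256 160 192 320 384) = true := by decide +kernel
  have c4 : (go 16 Gd mult S183_198_216_290 (Tr.lf 13449316488 103382089 0) 128 256 160 192 256 320) = true := by decide +kernel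
  have c5 : (go 16 Gd mult S183_198_290_364 (Tr.lf 13986187400 99318857 0) 128 256 160 192 256 320) = true := by decide +kernel
  have c6 : (band (go 16 Gd mult S169_183_216_364 (Tr.lf 13441189960 99052489 0) 128 256 128 160 320 384)
  (go 16 Gd mult S140_154_216_364 (Tr.lf 13440927812 94989129 0) 128 256 128 160 320 384)) = true := by decide +kernel
  have c7 : (go 16 Gd mult S183_198_216_364 (Tr.lf 13441189960 90926025 0) 128 256 128 160 320 384) = true := by decide +kernel
  have c8 : (go 16 Gd mult S169_183_216_364 (Tr.lf 13441189960 99318856 0) 128 256 160 192 320 384) = true := by decide +kernel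
  have c9 : (go 16 Gd mult S183_198_216_290 (Tr.lf 13986187400 95259593 0) 128 256 160 192 320 384) = true := by decide +kernel
  have c10 : (go 16 Gd mult S183_198_290_364 (Tr.lf 13986187400 95259593 0) 128 256 160 192 320 384) = true := by decide +kernel
  have c11 : (band (go 16 Gd mult S140_169_216_364 (Tr.lf 9146238020 107846727 0) 128 256 128 160 256 320)
  (go 16 Gd mult S169_198_216_364 (Tr.lf 9145975876 107846855 0) 128 256 128 160 256 320)) = true := by decide +kernel
  have c12 : (go 16 Gd mult S154_169_216_364 (Tr.lf 13441189956 94993225 0) 128 256 128 160 320 384) = true := by decide +kernel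
  have c13 : (go 16 Gd mult S169_183_216_364 (Tr.lf 13441188936 95128648 0) 128 256 160 192 256 320) = true := by decide +kernel
  (And.intro (Ok.s3 111 (Ok.lf S82_111_660_808_ok c0)
  (Ok.lf S111_140_660_808_ok c1))
  (Ok.s3 169 (Ok.s2 320 (Ok.s1 160 (Ok.lf S140_169_216_364_ok (bl c11))
  (Ok.lf S140_169_216_364_ok c2))
  (Ok.s1 160 (Ok.s3 154 (Ok.lf S140_154_216_364_ok (br c6))
  (Ok.lf S154_169_216_364_ok c12))
  (Ok.lf S140_169_216_364_ok c3)))
  (Ok.s2 320 (Ok.s1 160 (Ok.lf S169_198_216_364_ok (br c11))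
  (Ok.s3 183 (Ok.lf S169_183_216_364_ok c13)
  (Ok.s4 290 (Ok.lf S183_198_216_290_ok c4)
  (Ok.lf S183_198_290_364_ok c5))))
  (Ok.s1 160 (Ok.s3 183 (Ok.lf S169_183_216_364_ok (bl c6))
  (Ok.lf S183_198_216_364_ok c7))
  (Ok.s3 183 (Ok.lf S169_183_216_364_ok c8)
  (Ok.s4 290 (Ok.lf S183_198_216_290_ok c9)
  (Ok.lf S183_198_290_364_ok c10)))))))

end Vale.Agent.P098.Ck
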