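import Vale.Agent.P098.CkGd
import Vale.Agent.P098.CkOk
import Vale.Agent.P098.Sh.A23
import Vale.Agent.P098.Sh.A25
import Vale.Agent.P098.Sh.A30
import Vale.Agent.P098.Sh.A31
import Vale.Agent.P098.Sh.A36

namespace Vale.Agent.P098.Ck

theorem r257 :
    Ok Gd mult 128 256 128 160 320 384 198 227 216 364 ∧
    Ok Gd mult 128 256 160 192 320 384 198 227 216 364 ∧
    Ok Gd mult 128 256 128 192 256 384 227 256 216 364 :=
  have c0 : (go 16 Gd mult S198_212_216_290 (Tr.lf 13986449480 95382601 0) 128 256 176 192 320 384) = true := by decide +kernel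
  have c1 : (go 16 Gd mult S212_227_216_290 (Tr.lf 13986449480 99318857 0) 128 256 176 192 320 384) = true := by decide +kernel
  have c2 : (go 16 Gd mult S198_212_290_364 (Tr.lf 18281170056 90794954 0) 128 256 160 192 320 352) = true := by decide +kernel
  have c3 : (go 16 Gd mult S198_212_290_364 (Tr.lf 13986202760 99322825 0) 128 256 160 192 352 384) = true := by decide +kernel
  have c4 : (go 16 Gd mult S212_227_290_364 (Tr.lf 18281170056 98925259 0) 128 256 160 192 320 352) = true := by decide +kernel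
  have c5 : (go 16 Gd mult S212_227_290_364 (Tr.lf 18281170056 94858186 0) 128 256 160 192 352 384) = true := by decide +kernel
  have c6 : (go 16 Gd mult S227_256_216_290 (Tr.lf 13439895624 103381705 0) 128 256 160 192 320 384) = true := by decide +kernel
  have c7 : (go 16 Gd mult S227_256_290_364 (Tr.lf 13439895624 99187401 0) 128 256 160 192 320 384) = true := by decide +kernel
  have c8 : (band (go 16 Gd mult S198_212_216_364 (Tr.lf 13441189956 90790985 0) 128 256 128 160 320 384)
  (band (go 16 Gd mult S212_227_216_364 (Tr.lf 9145164868 103644231 0) 128 256 128 160 320 384)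
  (go 16 Gd mult S227_256_216_364 (Tr.lf 8606991396 95255367 0) 128 256 128 160 320 384))) = true := by decide +kernel
  have c9 : (go 16 Gd mult S227_256_216_364 (Tr.lf 13440156740 103385801 0) 128 256 160 192 256 320) = true := by decide +kernel
  have c10 : (band (go 16 Gd mult S198_227_216_290 (Tr.lf 13986202692 103517129 0) 192 256 160 176 352 384)
  (band (go 16 Gd mult S198_227_216_290 (Tr.lf 13440943138 99187657 0) 128 192 160 176 320 384)
  (go 16 Gd mult S198_227_216_290 (Tr.lf 13449331746 99453897 0) 192 256 160 176 320 352))) = true := by decide +kernel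
  have c11 : (go 16 Gd mult S227_256_216_364 (Tr.lf 4303626786 103910469 0) 128 256 128 160 256 320) = true := by decide +kernel
  (And.intro (Ok.s3 212 (Ok.lf S198_212_216_364_ok (bl c8))
  (Ok.lf S212_227_216_364_ok (bl (br c8))))
  (And.intro (Ok.s4 290 (Ok.s1 176 (Ok.s0 192 (Ok.lf S198_227_216_290_ok (bl (br c10)))
  (Ok.s2 352 (Ok.lf S198_227_216_290_ok (br (br c10)))
  (Ok.lf S198_227_216_290_ok (bl c10))))
  (Ok.s3 212 (Ok.lf S198_212_216_290_ok c0)
  (Ok.lf S212_227_216_290_ok c1)))
  (Ok.s3 212 (Ok.s2 352 (Ok.lf S198_212_290_364_ok c2)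
  (Ok.lf S198_212_290_364_ok c3))
  (Ok.s2 352 (Ok.lf S212_227_290_364_ok c4)
  (Ok.lf S212_227_290_364_ok c5))))
  (Ok.s2 320 (Ok.s1 160 (Ok.lf S227_256_216_364_ok c11)
  (Ok.lf S227_256_216_364_ok c9))
  (Ok.s1 160 (Ok.lf S227_256_216_364_ok (br (br c8)))
  (Ok.s4 290 (Ok.lf S227_256_216_290_ok c6)
  (Ok.lf S227_256_290_364_ok c7))))))

end Vale.Agent.P098.Ck
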