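import Vale.Agent.P098.CkGd
import Vale.Agent.P098.CkOk
import Vale.Agent.P098.Sh.A23
import Vale.Agent.P098.Sh.A26
import Vale.Agent.P098.Sh.A27
import Vale.Agent.P098.Sh.A31
import Vale.Agent.P098.Sh.A37

namespace Vale.Agent.P098.Ck

theorem r258 :
    Ok Gd mult 128 192 128 192 256 384 198 227 364 512 ∧
    Ok Gd mult 192 256 128 192 256 384 198 227 364 512 ∧
    Ok Gd mult 128 256 128 192 256 384 227 256 364 512 ∧
    Ok Gd mult 128 256 128 160 256 384 198 227 512 660 :=
  have c0 : (go 16 Gd mult S198_227_438_512 (Tr.lf 13986203780 107711433 0) 128 192 160 192 320 384) = true := by decide +kernel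
  have c1 : (go 16 Gd mult S198_227_364_512 (Tr.lf 13986465860 103644233 0) 192 256 176 192 256 320) = true := by decide +kernel
  have c2 : (go 16 Gd mult S198_227_438_512 (Tr.lf 13986203780 99453897 0) 192 256 160 192 320 384) = true := by decide +kernel
  have c3 : (go 16 Gd mult S227_256_364_512 (Tr.lf 13440156744 94993352 0) 128 256 160 192 320 384) = true := by decide +kernel
  have c4 : (go 16 Gd mult S198_227_364_438 (Tr.lf 13986203716 103648201 0) 128 192 176 192 320 384) = true := by decide +kernel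
  have c5 : (band (go 16 Gd mult S198_227_364_512 (Tr.lf 13440944196 99056585 0) 192 256 128 160 320 384)
  (go 16 Gd mult S198_227_364_512 (Tr.lf 9144927362 103648327 0) 128 192 128 192 256 320)) = true := by decide +kernel
  have c6 : (band (go 16 Gd mult S198_212_364_438 (Tr.lf 13986187396 99453897 0) 192 256 160 192 320 384)
  (go 16 Gd mult S212_227_364_438 (Tr.lf 18281154692 103246794 0) 192 256 160 192 320 384)) = true := by decide +kernel
  have c7 : (go 16 Gd mult S198_227_512_660 (Tr.lf 9144927304 99584967 0) 128 256 128 160 320 384) = true := by decide +kernel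
  have c8 : (go 16 Gd mult S227_256_364_512 (Tr.lf 13439894596 95255496 0) 128 256 160 192 256 320) = true := by decide +kernel
  have c9 : (go 16 Gd mult S227_256_364_512 (Tr.lf 8606992420 95386439 0) 128 256 128 160 256 384) = true := by decide +kernel
  have c10 : (go 16 Gd mult S198_227_364_438 (Tr.lf 13440812066 94993608 0) 128 192 160 176 320 384) = true := by decide +kernel
  have c11 : (go 16 Gd mult S198_227_364_512 (Tr.lf 9144910882 107969607 0) 192 256 160 176 256 320) = true := by decide +kernel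
  have c12 : (band (go 16 Gd mult S198_227_364_512 (Tr.lf 9144779810 107715527 0) 128 192 128 160 320 384)
  (go 16 Gd mult S198_227_364_512 (Tr.lf 8599519778 103644103 0) 192 256 128 160 256 320)) = true := by decide +kernel
  have c13 : (go 16 Gd mult S198_227_512_660 (Tr.lf 8599650850 99576775 0) 128 256 128 160 256 320) = true := by decide +kernel
  (And.intro (Ok.s2 320 (Ok.lf S198_227_364_512_ok (br c5))
  (Ok.s1 160 (Ok.lf S198_227_364_512_ok (bl c12))
  (Ok.s4 438 (Ok.s1 176 (Ok.lf S198_227_364_438_ok c10)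
  (Ok.lf S198_227_364_438_ok c4))
  (Ok.lf S198_227_438_512_ok c0))))
  (And.intro (Ok.s2 320 (Ok.s1 160 (Ok.lf S198_227_364_512_ok (br c12))
  (Ok.s1 176 (Ok.lf S198_227_364_512_ok c11)
  (Ok.lf S198_227_364_512_ok c1)))
  (Ok.s1 160 (Ok.lf S198_227_364_512_ok (bl c5))
  (Ok.s4 438 (Ok.s3 212 (Ok.lf S198_212_364_438_ok (bl c6))
  (Ok.lf S212_227_364_438_ok (br c6)))
  (Ok.lf S198_227_438_512_ok c2))))
  (And.intro (Ok.s1 160 (Ok.lf S227_256_364_512_ok c9)
  (Ok.s2 320 (Ok.lf S227_256_364_512_ok c8)
  (Ok.lf S227_256_364_512_ok c3)))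
  (Ok.s2 320 (Ok.lf S198_227_512_660_ok c13)
  (Ok.lf S198_227_512_660_ok c7)))))

end Vale.Agent.P098.Ck
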