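import Vale.Agent.P098.CkGd
import Vale.Agent.P098.CkOk
import Vale.Agent.P098.Sh.A54
import Vale.Agent.P098.Sh.A57
import Vale.Agent.P098.Sh.A58

namespace Vale.Agent.P098.Ck

theorem r261 :
    Ok Gd mult 128 256 128 192 256 320 372 430 512 660 ∧
    Ok Gd mult 128 256 128 192 320 384 372 430 512 660 ∧
    Ok Gd mult 128 256 128 192 256 384 372 430 660 808 ∧
    Ok Gd mult 128 256 128 192 256 384 430 488 216 364 :=
  have c0 : (band (go 16 Gd mult S401_430_660_808 (Tr.lf 13970344072 95120202 0) 128 256 160 192 320 384)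
  (go 16 Gd mult S372_401_660_808 (Tr.lf 9674441796 95255496 0) 128 256 160 192 320 384)) = true := by decide +kernel
  have c1 : (band (go 16 Gd mult S401_430_660_808 (Tr.lf 13970474120 99445578 0) 128 256 160 192 256 320)
  (go 16 Gd mult S372_401_660_808 (Tr.lf 9137570884 95513799 0) 128 256 160 192 256 320)) = true := by decide +kernel
  have c2 : (band (go 16 Gd mult S372_401_512_660 (Tr.lf 9137456264 99707848 0) 128 256 128 192 256 320)
  (go 16 Gd mult S372_401_512_660 (Tr.lf 9674327172 95255496 0) 128 256 128 192 320 384)) = true := by decide +kernel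
  have c3 : (band (go 16 Gd mult S401_430_512_660 (Tr.lf 13970343048 99445578 0) 128 256 160 192 256 320)
  (go 16 Gd mult S401_430_512_660 (Tr.lf 13970344008 95120202 0) 128 256 160 192 320 384)) = true := by decide +kernel
  have c4 : (band (go 16 Gd mult S430_488_216_364 (Tr.lf 9666988164 91184073 0) 128 192 128 192 256 384)
  (go 16 Gd mult S430_488_216_364 (Tr.lf 13961955460 86723402 0) 192 256 160 192 320 384)) = true := by decide +kernel
  have c5 : (go 16 Gd mult S430_488_216_364 (Tr.lf 13961955460 95243337 0) 192 256 160 192 256 320) = true := by decide +kernel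
  have c6 : (band (go 16 Gd mult S401_430_660_808 (Tr.lf 9675376708 95255497 0) 128 256 128 160 256 384)
  (go 16 Gd mult S372_401_660_808 (Tr.lf 4842473540 95525831 0) 128 256 128 160 256 384)) = true := by decide +kernel
  have c7 : (band (go 16 Gd mult S401_430_512_660 (Tr.lf 9675359300 99445705 0) 128 256 128 160 320 384)
  (go 16 Gd mult S401_430_512_660 (Tr.lf 9674310212 95255496 0) 128 256 128 160 256 320)) = true := by decide +kernel
  have c8 : (band (go 16 Gd mult S430_488_216_364 (Tr.lf 9666921538 95251528 0) 192 256 128 160 320 384)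
  (go 16 Gd mult S430_488_216_364 (Tr.lf 9665872450 91053000 0) 192 256 128 160 256 320)) = true := by decide +kernel
  (And.intro (Ok.s3 401 (Ok.lf S372_401_512_660_ok (bl c2))
  (Ok.s1 160 (Ok.lf S401_430_512_660_ok (br c7))
  (Ok.lf S401_430_512_660_ok (bl c3))))
  (And.intro (Ok.s3 401 (Ok.lf S372_401_512_660_ok (br c2))
  (Ok.s1 160 (Ok.lf S401_430_512_660_ok (bl c7))
  (Ok.lf S401_430_512_660_ok (br c3))))
  (And.intro (Ok.s1 160 (Ok.s3 401 (Ok.lf S372_401_660_808_ok (br c6))
  (Ok.lf S401_430_660_808_ok (bl c6)))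
  (Ok.s2 320 (Ok.s3 401 (Ok.lf S372_401_660_808_ok (br c1))
  (Ok.lf S401_430_660_808_ok (bl c1)))
  (Ok.s3 401 (Ok.lf S372_401_660_808_ok (br c0))
  (Ok.lf S401_430_660_808_ok (bl c0)))))
  (Ok.s0 192 (Ok.lf S430_488_216_364_ok (bl c4))
  (Ok.s2 320 (Ok.s1 160 (Ok.lf S430_488_216_364_ok (br c8))
  (Ok.lf S430_488_216_364_ok c5))
  (Ok.s1 160 (Ok.lf S430_488_216_364_ok (bl c8))
  (Ok.lf S430_488_216_364_ok (br c4))))))))

end Vale.Agent.P098.Ck
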