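import Vale.Agent.P098.CkGd
import Vale.Agent.P098.CkOk
import Vale.Agent.P098.Sh.A15
import Vale.Agent.P098.Sh.A18
import Vale.Agent.P098.Sh.A21
import Vale.Agent.P098.Sh.A9

namespace Vale.Agent.P098.Ck

theorem r266 :
    Ok Gd mult 128 256 128 192 448 512 140 169 364 512 ∧
    Ok Gd mult 128 256 128 160 384 512 169 198 364 512 ∧
    Ok Gd mult 128 192 160 192 384 448 169 198 364 512 :=
  have c0 : (go 16 Gd mult S169_198_364_512 (Tr.lf 13986465922 94997576 0) 192 224 128 160 448 480) = true := by decide +kernel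
  have c1 : (go 16 Gd mult S169_198_364_512 (Tr.lf 13986465922 99191880 0) 224 256 128 160 448 480) = true := by decide +kernel
  have c2 : (band (go 16 Gd mult S183_198_364_512 (Tr.lf 13986449540 107576265 0) 128 192 128 160 384 448)
  (go 16 Gd mult S169_183_364_512 (Tr.lf 13440919620 99056457 0) 128 192 128 160 384 448)) = true := by decide +kernel
  have c3 : (band (go 16 Gd mult S183_198_364_512 (Tr.lf 13986449540 99577032 0) 128 192 160 192 384 448)
  (go 16 Gd mult S169_183_364_512 (Tr.lf 13440919620 99322824 0) 128 192 160 192 384 448)) = true := by decide +kernel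
  have c4 : (band (go 16 Gd mult S183_198_364_512 (Tr.lf 13986449538 103390025 0) 192 224 128 160 384 448)
  (band (go 16 Gd mult S169_183_364_512 (Tr.lf 13977798722 99314760 0) 192 224 128 160 384 448)
  (go 16 Gd mult S169_183_364_512 (Tr.lf 13440927812 94858057 0) 128 192 128 160 448 512))) = true := by decide +kernel
  have c5 : (band (go 16 Gd mult S183_198_364_512 (Tr.lf 13986449538 99454024 0) 224 256 128 160 384 448)
  (go 16 Gd mult S169_183_364_512 (Tr.lf 13986187330 99322952 0) 224 256 128 160 384 448)) = true := by decide +kernel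
  have c6 : (go 16 Gd mult S140_169_364_512 (Tr.lf 9145975940 99585095 0) 128 256 128 192 448 480) = true := by decide +kernel
  have c7 : (band (go 16 Gd mult S183_198_364_512 (Tr.lf 13986449476 107707464 0) 128 192 128 160 448 480)
  (go 16 Gd mult S183_198_364_512 (Tr.lf 13986449476 99060808 0) 128 192 128 160 480 512)) = true := by decide +kernel
  have c8 : (go 16 Gd mult S140_169_364_512 (Tr.lf 9145959556 99454023 1638094485577822531726868480) 128 256 128 192 480 512) = true := by decide +kernel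
  have c9 : (go 16 Gd mult S169_198_364_512 (Tr.lf 13440944193 94858057 0) 192 224 128 160 480 512) = true := by decide +kernel
  have c10 : (go 16 Gd mult S169_198_364_512 (Tr.lf 9144910881 103516999 0) 224 256 128 160 480 512) = true := by decide +kernel
  (And.intro (Ok.s2 480 (Ok.lf S140_169_364_512_ok c6)
  (Ok.lf S140_169_364_512_ok c8))
  (And.intro (Ok.s0 192 (Ok.s2 448 (Ok.s3 183 (Ok.lf S169_183_364_512_ok (br c2))
  (Ok.lf S183_198_364_512_ok (bl c2)))
  (Ok.s3 183 (Ok.lf S169_183_364_512_ok (br (br c4)))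
  (Ok.s2 480 (Ok.lf S183_198_364_512_ok (bl c7))
  (Ok.lf S183_198_364_512_ok (br c7)))))
  (Ok.s0 224 (Ok.s2 448 (Ok.s3 183 (Ok.lf S169_183_364_512_ok (bl (br c4)))
  (Ok.lf S183_198_364_512_ok (bl c4)))
  (Ok.s2 480 (Ok.lf S169_198_364_512_ok c0)
  (Ok.lf S169_198_364_512_ok c9)))
  (Ok.s2 448 (Ok.s3 183 (Ok.lf S169_183_364_512_ok (br c5))
  (Ok.lf S183_198_364_512_ok (bl c5)))
  (Ok.s2 480 (Ok.lf S169_198_364_512_ok c1)
  (Ok.lf S169_198_364_512_ok c10)))))
  (Ok.s3 183 (Ok.lf S169_183_364_512_ok (br c3))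
  (Ok.lf S183_198_364_512_ok (bl c3)))))

end Vale.Agent.P098.Ck
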