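import Vale.Agent.P098.CkGd
import Vale.Agent.P098.CkOk
import Vale.Agent.P098.Sh.A10
import Vale.Agent.P098.Sh.A19
import Vale.Agent.P098.Sh.A23
import Vale.Agent.P098.Sh.A30

namespace Vale.Agent.P098.Ck

theorem r268 :
    Ok Gd mult 128 256 128 192 448 512 140 198 586 660 ∧
    Ok Gd mult 128 256 128 192 384 512 140 198 660 808 ∧
    Ok Gd mult 128 256 128 160 384 448 198 227 216 364 :=
  have c0 : (go 16 Gd mult S169_198_660_808 (Tr.lf 13440944200 90799176 0) 128 256 128 160 384 448) = true := by decide +kernel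
  have c1 : (go 16 Gd mult S169_198_660_808 (Tr.lf 13440944200 99322824 0) 128 256 160 192 384 448) = true := by decide +kernel
  have c2 : (go 16 Gd mult S198_212_216_290 (Tr.lf 13986187400 107453512 0) 128 256 128 160 416 448) = true := by decide +kernel
  have c3 : (go 16 Gd mult S212_227_216_364 (Tr.lf 13449577608 99060681 0) 128 256 128 160 384 416) = true := by decide +kernel
  have c4 : (go 16 Gd mult S212_227_216_364 (Tr.lf 13449577608 95001672 0) 128 256 128 160 416 448) = true := by decide +kernel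
  have c5 : (band (go 16 Gd mult S140_169_586_660 (Tr.lf 9145845892 107842631 0) 128 256 128 192 448 512)
  (go 16 Gd mult S140_169_660_808 (Tr.lf 9145960580 103648327 0) 128 256 128 192 448 512)) = true := by decide +kernel
  have c6 : (band (go 16 Gd mult S140_169_660_808 (Tr.lf 13440927816 94989384 0) 128 256 128 160 384 448)
  (go 16 Gd mult S140_169_660_808 (Tr.lf 13440927816 95128520 0) 128 256 160 192 384 448)) = true := by decide +kernel
  have c7 : (band (go 16 Gd mult S198_212_216_290 (Tr.lf 13986186376 103254985 0) 128 256 128 160 384 416)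
  (go 16 Gd mult S198_212_290_364 (Tr.lf 13986186376 103254985 0) 128 256 128 160 384 416)) = true := by decide +kernel
  have c8 : (go 16 Gd mult S198_212_290_364 (Tr.lf 13986186376 107453512 0) 128 256 128 160 416 448) = true := by decide +kernel
  have c9 : (band (go 16 Gd mult S169_198_586_660 (Tr.lf 9145828488 103779654 0) 128 256 128 192 448 480)
  (band (go 16 Gd mult S169_198_660_808 (Tr.lf 9145959556 112037190 0) 128 256 128 192 448 480)
  (band (go 16 Gd mult S169_198_660_808 (Tr.lf 9144910980 99453767 274446673831954049222574157) 128 256 128 192 480 512)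
  (go 16 Gd mult S169_198_586_660 (Tr.lf 9144779908 103648071 802726744224113772004900864) 128 256 128 192 480 512)))) = true := by decide +kernel
  (And.intro (Ok.s3 169 (Ok.lf S140_169_586_660_ok (bl c5))
  (Ok.s2 480 (Ok.lf S169_198_586_660_ok (bl c9))
  (Ok.lf S169_198_586_660_ok (br (br (br c9))))))
  (And.intro (Ok.s2 448 (Ok.s3 169 (Ok.s1 160 (Ok.lf S140_169_660_808_ok (bl c6))
  (Ok.lf S140_169_660_808_ok (br c6)))
  (Ok.s1 160 (Ok.lf S169_198_660_808_ok c0)
  (Ok.lf S169_198_660_808_ok c1)))
  (Ok.s3 169 (Ok.lf S140_169_660_808_ok (br c5))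
  (Ok.s2 480 (Ok.lf S169_198_660_808_ok (bl (br c9)))
  (Ok.lf S169_198_660_808_ok (bl (br (br c9)))))))
  (Ok.s3 212 (Ok.s2 416 (Ok.s4 290 (Ok.lf S198_212_216_290_ok (bl c7))
  (Ok.lf S198_212_290_364_ok (br c7)))
  (Ok.s4 290 (Ok.lf S198_212_216_290_ok c2)
  (Ok.lf S198_212_290_364_ok c8)))
  (Ok.s2 416 (Ok.lf S212_227_216_364_ok c3)
  (Ok.lf S212_227_216_364_ok c4)))))

end Vale.Agent.P098.Ck
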