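import Vale.Agent.P098.CkGd
import Vale.Agent.P098.CkOk
import Vale.Agent.P098.Sh.A54
import Vale.Agent.P098.Sh.A56
import Vale.Agent.P098.Sh.A57

namespace Vale.Agent.P098.Ck

theorem r298 :
    Ok Gd mult 128 256 192 256 128 256 401 430 364 512 ∧
    Ok Gd mult 128 256 192 256 128 256 372 430 512 808 :=
  have c0 : (go 16 Gd mult S401_430_364_512 (Tr.lf 18265311368 99576778 0) 128 256 224 256 192 256) = true := by decide +kernel
  have c1 : (go 16 Gd mult S401_430_512_660 (Tr.lf 18265311368 99576778 0) 128 256 224 256 192 256) = true := by decide +kernel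
  have c2 : (go 16 Gd mult S372_401_660_808 (Tr.lf 13432554632 108096584 0) 128 256 192 256 192 256) = true := by decide +kernel
  have c3 : (go 16 Gd mult S401_430_660_808 (Tr.lf 13970474120 95386442 0) 128 256 192 224 192 256) = true := by decide +kernel
  have c4 : (band (go 16 Gd mult S401_430_364_512 (Tr.lf 13970343048 91192138 0) 128 256 192 224 192 256)
  (go 16 Gd mult S401_430_512_660 (Tr.lf 13970343048 95386442 0) 128 256 192 224 192 256)) = true := by decide +kernel
  have c5 : (go 16 Gd mult S372_401_512_660 (Tr.lf 13431375944 95513416 0) 128 256 192 224 128 256) = true := by decide +kernel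
  have c6 : (go 16 Gd mult S372_401_512_660 (Tr.lf 18264246408 99576522 0) 128 256 224 256 128 256) = true := by decide +kernel
  have c7 : (band (go 16 Gd mult S401_430_512_660 (Tr.lf 22560277640 103377739 0) 128 256 224 256 128 192)
  (go 16 Gd mult S401_430_660_808 (Tr.lf 22560277640 103377739 0) 128 256 224 256 128 192)) = true := by decide +kernel
  have c8 : (go 16 Gd mult S372_401_660_808 (Tr.lf 13431489672 99838792 0) 128 256 192 256 128 192) = true := by decide +kernel
  have c9 : (band (go 16 Gd mult S401_430_660_808 (Tr.lf 18265441412 95378378 0) 128 192 224 256 192 256)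
  (go 16 Gd mult S401_430_660_808 (Tr.lf 18265441412 99576778 0) 192 256 224 256 192 256)) = true := by decide +kernel
  have c10 : (band (go 16 Gd mult S401_430_364_512 (Tr.lf 22560261256 103377739 0) 128 256 224 256 128 192)
  (band (go 16 Gd mult S401_430_364_512 (Tr.lf 18265293896 99445706 0) 128 256 192 224 128 192)
  (band (go 16 Gd mult S401_430_512_660 (Tr.lf 18265293896 99437642 0) 128 256 192 224 128 192)
  (go 16 Gd mult S401_430_660_808 (Tr.lf 18265293896 99437642 0) 128 256 192 224 128 192)))) = true := by decide +kernel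
  (And.intro (Ok.s1 224 (Ok.s2 192 (Ok.lf S401_430_364_512_ok (bl (br c10)))
  (Ok.lf S401_430_364_512_ok (bl c4)))
  (Ok.s2 192 (Ok.lf S401_430_364_512_ok (bl c10))
  (Ok.lf S401_430_364_512_ok c0)))
  (Ok.s4 660 (Ok.s3 401 (Ok.s1 224 (Ok.lf S372_401_512_660_ok c5)
  (Ok.lf S372_401_512_660_ok c6))
  (Ok.s2 192 (Ok.s1 224 (Ok.lf S401_430_512_660_ok (bl (br (br c10))))
  (Ok.lf S401_430_512_660_ok (bl c7)))
  (Ok.s1 224 (Ok.lf S401_430_512_660_ok (br c4))
  (Ok.lf S401_430_512_660_ok c1))))
  (Ok.s3 401 (Ok.s2 192 (Ok.lf S372_401_660_808_ok c8)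
  (Ok.lf S372_401_660_808_ok c2))
  (Ok.s1 224 (Ok.s2 192 (Ok.lf S401_430_660_808_ok (br (br (br c10))))
  (Ok.lf S401_430_660_808_ok c3))
  (Ok.s2 192 (Ok.lf S401_430_660_808_ok (br c7))
  (Ok.s0 192 (Ok.lf S401_430_660_808_ok (bl c9))
  (Ok.lf S401_430_660_808_ok (br c9))))))))

end Vale.Agent.P098.Ck
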