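import Vale.Agent.P098.CkGd
import Vale.Agent.P098.CkOk
import Vale.Agent.P098.Sh.A23
import Vale.Agent.P098.Sh.A30
import Vale.Agent.P098.Sh.A31

namespace Vale.Agent.P098.Ck

theorem r305 :
    Ok Gd mult 128 256 192 224 256 320 198 227 216 290 ∧
    Ok Gd mult 128 256 192 224 256 320 198 227 290 364 ∧
    Ok Gd mult 128 256 192 224 320 384 198 227 216 364 :=
  have c0 : (go 16 Gd mult S198_212_216_290 (Tr.lf 13449316488 95247561 0) 128 256 192 224 256 320) = true := by decide +kernel
  have c1 : (go 16 Gd mult S198_212_216_290 (Tr.lf 17744544904 90926026 0) 128 256 192 224 320 352) = true := by decide +kernel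
  have c2 : (go 16 Gd mult S198_212_216_290 (Tr.lf 18281415816 103385930 0) 128 256 192 224 352 384) = true := by decide +kernel
  have c3 : (go 16 Gd mult S212_227_216_290 (Tr.lf 17744544904 90926026 0) 128 256 192 224 320 352) = true := by decide +kernel
  have c4 : (go 16 Gd mult S212_227_216_290 (Tr.lf 18281415816 103377866 0) 128 256 192 224 352 384) = true := by decide +kernel
  have c5 : (go 16 Gd mult S198_212_290_364 (Tr.lf 18281171076 99318602 0) 128 192 192 224 320 384) = true := by decide +kernel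
  have c6 : (go 16 Gd mult S198_212_290_364 (Tr.lf 18281171076 99322698 0) 192 256 192 224 320 384) = true := by decide +kernel
  have c7 : (go 16 Gd mult S212_227_290_364 (Tr.lf 18281171076 99191626 0) 128 192 192 224 320 384) = true := by decide +kernel
  have c8 : (go 16 Gd mult S212_227_290_364 (Tr.lf 18281171076 99314634 0) 192 256 192 224 320 384) = true := by decide +kernel
  have c9 : (band (go 16 Gd mult S212_227_216_290 (Tr.lf 13449316484 103644233 0) 128 192 192 224 256 320)
  (go 16 Gd mult S198_212_290_364 (Tr.lf 18281154692 103258954 0) 128 192 192 224 256 320)) = true := by decide +kernel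
  have c10 : (band (go 16 Gd mult S212_227_216_290 (Tr.lf 17743235204 94993098 0) 192 256 192 224 256 320)
  (go 16 Gd mult S198_212_290_364 (Tr.lf 18281154692 95251402 0) 192 256 192 224 256 320)) = true := by decide +kernel
  have c11 : (go 16 Gd mult S212_227_290_364 (Tr.lf 18281154692 99187658 0) 128 192 192 224 256 320) = true := by decide +kernel
  have c12 : (band (go 16 Gd mult S212_227_290_364 (Tr.lf 18280367236 99187402 0) 192 256 192 224 256 288)
  (go 16 Gd mult S212_227_290_364 (Tr.lf 18280367236 99314378 0) 192 256 192 224 288 320)) = true := by decide +kernel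
  (And.intro (Ok.s3 212 (Ok.lf S198_212_216_290_ok c0)
  (Ok.s0 192 (Ok.lf S212_227_216_290_ok (bl c9))
  (Ok.lf S212_227_216_290_ok (bl c10))))
  (And.intro (Ok.s3 212 (Ok.s0 192 (Ok.lf S198_212_290_364_ok (br c9))
  (Ok.lf S198_212_290_364_ok (br c10)))
  (Ok.s0 192 (Ok.lf S212_227_290_364_ok c11)
  (Ok.s2 288 (Ok.lf S212_227_290_364_ok (bl c12))
  (Ok.lf S212_227_290_364_ok (br c12)))))
  (Ok.s4 290 (Ok.s3 212 (Ok.s2 352 (Ok.lf S198_212_216_290_ok c1)
  (Ok.lf S198_212_216_290_ok c2))
  (Ok.s2 352 (Ok.lf S212_227_216_290_ok c3)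
  (Ok.lf S212_227_216_290_ok c4)))
  (Ok.s3 212 (Ok.s0 192 (Ok.lf S198_212_290_364_ok c5)
  (Ok.lf S198_212_290_364_ok c6))
  (Ok.s0 192 (Ok.lf S212_227_290_364_ok c7)
  (Ok.lf S212_227_290_364_ok c8))))))

end Vale.Agent.P098.Ck
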