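import Vale.Agent.P098.CkGd
import Vale.Agent.P098.CkOk
import Vale.Agent.P098.Sh.A58
import Vale.Agent.P098.Sh.A59

namespace Vale.Agent.P098.Ck

theorem r320 :
    Ok Gd mult 128 256 192 224 256 384 430 488 512 660 ∧
    Ok Gd mult 128 256 224 256 256 384 430 488 512 660 ∧
    Ok Gd mult 128 256 192 256 256 384 430 488 660 808 :=
  have c0 : (band (go 16 Gd mult S459_488_512_660 (Tr.lf 18256857224 103631818 0) 128 256 224 256 256 320)
  (go 16 Gd mult S459_488_660_808 (Tr.lf 18256857224 99437514 0) 128 256 224 256 256 320)) = true := by decide +kernel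
  have c1 : (band (go 16 Gd mult S430_459_512_660 (Tr.lf 13970343048 91069385 0) 128 256 192 224 256 320)
  (go 16 Gd mult S430_459_660_808 (Tr.lf 13970343048 91069385 0) 128 256 192 224 256 320)) = true := by decide +kernel
  have c2 : (band (go 16 Gd mult S430_459_512_660 (Tr.lf 13970327688 95251529 0) 128 256 192 224 320 384)
  (go 16 Gd mult S430_459_660_808 (Tr.lf 13970327688 95251529 0) 128 256 192 224 320 384)) = true := by decide +kernel
  have c3 : (band (go 16 Gd mult S430_459_512_660 (Tr.lf 18256922756 95247178 0) 128 192 224 256 256 320)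
  (go 16 Gd mult S430_459_660_808 (Tr.lf 18256922756 95247178 0) 128 192 224 256 256 320)) = true := by decide +kernel
  have c4 : (band (go 16 Gd mult S430_459_512_660 (Tr.lf 18256922756 99437514 0) 192 256 224 256 256 320)
  (go 16 Gd mult S430_459_660_808 (Tr.lf 18256922756 99437514 0) 192 256 224 256 256 320)) = true := by decide +kernel
  have c5 : (band (go 16 Gd mult S430_459_512_660 (Tr.lf 13970327688 99716041 0) 128 256 224 256 320 384)
  (go 16 Gd mult S430_459_660_808 (Tr.lf 13970327688 99716041 0) 128 256 224 256 320 384)) = true := by decide +kernel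
  have c6 : (band (go 16 Gd mult S459_488_512_660 (Tr.lf 13961872520 91061193 0) 128 256 192 224 256 320)
  (band (go 16 Gd mult S459_488_660_808 (Tr.lf 13961872520 91061193 0) 128 256 192 224 256 320)
  (band (go 16 Gd mult S459_488_512_660 (Tr.lf 13961872520 99437386 0) 128 256 192 224 320 384)
  (go 16 Gd mult S459_488_660_808 (Tr.lf 13961872520 99437386 0) 128 256 192 224 320 384)))) = true := by decide +kernel
  have c7 : (band (go 16 Gd mult S459_488_512_660 (Tr.lf 13961872520 99707849 0) 128 256 224 256 320 384)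
  (go 16 Gd mult S459_488_660_808 (Tr.lf 13961872520 99707849 0) 128 256 224 256 320 384)) = true := by decide +kernel
  (And.intro (Ok.s2 320 (Ok.s3 459 (Ok.lf S430_459_512_660_ok (bl c1))
  (Ok.lf S459_488_512_660_ok (bl c6)))
  (Ok.s3 459 (Ok.lf S430_459_512_660_ok (bl c2))
  (Ok.lf S459_488_512_660_ok (bl (br (br c6))))))
  (And.intro (Ok.s2 320 (Ok.s3 459 (Ok.s0 192 (Ok.lf S430_459_512_660_ok (bl c3))
  (Ok.lf S430_459_512_660_ok (bl c4)))
  (Ok.lf S459_488_512_660_ok (bl c0)))
  (Ok.s3 459 (Ok.lf S430_459_512_660_ok (bl c5))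
  (Ok.lf S459_488_512_660_ok (bl c7))))
  (Ok.s1 224 (Ok.s2 320 (Ok.s3 459 (Ok.lf S430_459_660_808_ok (br c1))
  (Ok.lf S459_488_660_808_ok (bl (br c6))))
  (Ok.s3 459 (Ok.lf S430_459_660_808_ok (br c2))
  (Ok.lf S459_488_660_808_ok (br (br (br c6))))))
  (Ok.s2 320 (Ok.s3 459 (Ok.s0 192 (Ok.lf S430_459_660_808_ok (br c3))
  (Ok.lf S430_459_660_808_ok (br c4)))
  (Ok.lf S459_488_660_808_ok (br c0)))
  (Ok.s3 459 (Ok.lf S430_459_660_808_ok (br c5))
  (Ok.lf S459_488_660_808_ok (br c7)))))))

end Vale.Agent.P098.Ck
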