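import Vale.Agent.P098.CkGd
import Vale.Agent.P098.CkOk
import Vale.Agent.P098.Sh.A2
import Vale.Agent.P098.Sh.A4
import Vale.Agent.P098.Sh.A5
import Vale.Agent.P098.Sh.A6

namespace Vale.Agent.P098.Ck

theorem r392 :
    Ok Gd mult 256 384 0 32 448 480 82 140 216 364 ∧
    Ok Gd mult 256 384 32 64 448 480 82 140 216 364 ∧
    Ok Gd mult 256 384 0 64 480 496 82 140 216 364 :=
  have c0 : (band (go 16 Gd mult S111_140_216_364 (Tr.lf 9145976964 94862280 0) 256 384 0 32 448 480)
  (go 16 Gd mult S111_140_216_364 (Tr.lf 9145975876 95128647 0) 256 384 0 16 480 496)) = true := by decide +kernel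
  have c1 : (go 16 Gd mult S82_111_216_364 (Tr.lf 13978862728 95128648 0) 256 384 48 64 448 464) = true := by decide +kernel
  have c2 : (go 16 Gd mult S111_140_216_364 (Tr.lf 13987251336 99065032 0) 256 384 48 64 448 464) = true := by decide +kernel
  have c3 : (band (go 16 Gd mult S111_140_216_364 (Tr.lf 13987252296 99323080 0) 256 384 48 64 464 480)
  (go 16 Gd mult S82_111_216_364 (Tr.lf 13978731592 99191880 0) 256 384 48 64 464 480)) = true := by decide +kernel
  have c4 : (go 16 Gd mult S111_140_216_364 (Tr.lf 13987251336 95001800 0) 256 384 16 32 480 496) = true := by decide +kernel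
  have c5 : (go 16 Gd mult S111_140_216_364 (Tr.lf 13987252296 99323080 0) 256 384 32 48 480 496) = true := by decide +kernel
  have c6 : (band (go 16 Gd mult S82_111_216_364 (Tr.lf 9674311816 103242696 0) 256 384 0 32 448 480)
  (go 16 Gd mult S82_111_216_364 (Tr.lf 9682699336 99322951 0) 256 384 0 16 480 496)) = true := by decide +kernel
  have c7 : (band (go 16 Gd mult S82_111_216_364 (Tr.lf 13978732616 99056840 0) 256 384 32 48 448 480)
  (go 16 Gd mult S82_111_216_364 (Tr.lf 9682715780 103521223 0) 256 384 32 64 480 496)) = true := by decide +kernel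
  have c8 : (go 16 Gd mult S82_111_216_364 (Tr.lf 9683895368 103652296 0) 256 384 16 32 480 496) = true := by decide +kernel
  have c9 : (go 16 Gd mult S111_140_216_364 (Tr.lf 13987251272 94870473 0) 256 384 48 64 480 496) = true := by decide +kernel
  have c10 : (band (go 16 Gd mult S111_125_216_364 (Tr.lf 13978846280 103251144 0) 256 384 32 48 464 480)
  (go 16 Gd mult S125_140_216_364 (Tr.lf 13987234888 95001800 0) 256 384 32 48 464 480)) = true := by decide +kernel
  have c11 : (go 16 Gd mult S111_140_216_364 (Tr.lf 13440926788 86338377 0) 256 384 32 48 448 464) = true := by decide +kernel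
  (And.intro (Ok.s3 111 (Ok.lf S82_111_216_364_ok (bl c6))
  (Ok.lf S111_140_216_364_ok (bl c0)))
  (And.intro (Ok.s3 111 (Ok.s1 48 (Ok.lf S82_111_216_364_ok (bl c7))
  (Ok.s2 464 (Ok.lf S82_111_216_364_ok c1)
  (Ok.lf S82_111_216_364_ok (br c3))))
  (Ok.s1 48 (Ok.s2 464 (Ok.lf S111_140_216_364_ok c11)
  (Ok.s3 125 (Ok.lf S111_125_216_364_ok (bl c10))
  (Ok.lf S125_140_216_364_ok (br c10))))
  (Ok.s2 464 (Ok.lf S111_140_216_364_ok c2)
  (Ok.lf S111_140_216_364_ok (bl c3)))))
  (Ok.s1 32 (Ok.s3 111 (Ok.s1 16 (Ok.lf S82_111_216_364_ok (br c6))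
  (Ok.lf S82_111_216_364_ok c8))
  (Ok.s1 16 (Ok.lf S111_140_216_364_ok (br c0))
  (Ok.lf S111_140_216_364_ok c4)))
  (Ok.s3 111 (Ok.lf S82_111_216_364_ok (br c7))
  (Ok.s1 48 (Ok.lf S111_140_216_364_ok c5)
  (Ok.lf S111_140_216_364_ok c9))))))

end Vale.Agent.P098.Ck
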