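import Vale.Agent.P098.CkGd
import Vale.Agent.P098.CkOk
import Vale.Agent.P098.Sh.A14
import Vale.Agent.P098.Sh.A17
import Vale.Agent.P098.Sh.A20
import Vale.Agent.P098.Sh.A21

namespace Vale.Agent.P098.Ck

theorem r398 :
    Ok Gd mult 256 384 0 64 464 480 169 198 216 364 ∧
    Ok Gd mult 256 320 0 64 480 512 169 198 216 364 ∧
    Ok Gd mult 320 384 0 64 480 512 169 183 216 364 ∧
    Ok Gd mult 320 384 0 32 480 512 183 198 216 364 :=
  have c0 : (go 16 Gd mult S183_198_216_364 (Tr.lf 9146239106 103640135 0) 320 384 0 32 496 512) = true := by decide +kernel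
  have c1 : (band (go 16 Gd mult S169_183_216_364 (Tr.lf 9146221704 95255878 0) 256 384 32 64 464 480)
  (go 16 Gd mult S169_183_216_364 (Tr.lf 9146221698 99191879 0) 256 320 0 32 480 496)) = true := by decide +kernel
  have c2 : (band (go 16 Gd mult S183_198_216_364 (Tr.lf 13449577608 86604872 0) 256 384 32 64 464 480)
  (go 16 Gd mult S183_198_216_364 (Tr.lf 8608302210 86608711 0) 256 320 0 32 480 496)) = true := by decide +kernel
  have c3 : (go 16 Gd mult S169_183_216_364 (Tr.lf 9146222724 91061319 0) 256 320 32 64 480 512) = true := by decide +kernel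
  have c4 : (go 16 Gd mult S183_198_216_364 (Tr.lf 8608303236 86744006 0) 256 320 0 32 496 512) = true := by decide +kernel
  have c5 : (go 16 Gd mult S169_183_216_364 (Tr.lf 13987498116 99056713 0) 320 384 0 32 496 512) = true := by decide +kernel
  have c6 : (go 16 Gd mult S183_198_216_364 (Tr.lf 9146222724 95255878 0) 320 384 0 32 480 496) = true := by decide +kernel
  have c7 : (band (go 16 Gd mult S169_183_216_364 (Tr.lf 9146222722 99327174 0) 256 320 0 32 496 512)
  (go 16 Gd mult S169_183_216_364 (Tr.lf 13987498114 90541129 0) 320 384 32 64 496 512)) = true := by decide +kernel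
  have c8 : (band (go 16 Gd mult S183_198_216_290 (Tr.lf 8608041092 86735687 0) 256 320 32 64 480 512)
  (go 16 Gd mult S183_198_290_364 (Tr.lf 8608041092 90929991 0) 256 320 32 64 480 512)) = true := by decide +kernel
  have c9 : (band (go 16 Gd mult S169_183_216_364 (Tr.lf 13987497092 94735433 0) 320 384 0 32 480 496)
  (go 16 Gd mult S169_183_216_364 (Tr.lf 9146221700 103648454 0) 320 384 32 64 480 496)) = true := by decide +kernel
  have c10 : (go 16 Gd mult S169_198_216_364 (Tr.lf 4849943106 103648453 0) 256 384 0 32 464 480) = true := by decide +kernel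
  (And.intro (Ok.s1 32 (Ok.lf S169_198_216_364_ok c10)
  (Ok.s3 183 (Ok.lf S169_183_216_364_ok (bl c1))
  (Ok.lf S183_198_216_364_ok (bl c2))))
  (And.intro (Ok.s3 183 (Ok.s1 32 (Ok.s2 496 (Ok.lf S169_183_216_364_ok (br c1))
  (Ok.lf S169_183_216_364_ok (bl c7)))
  (Ok.lf S169_183_216_364_ok c3))
  (Ok.s1 32 (Ok.s2 496 (Ok.lf S183_198_216_364_ok (br c2))
  (Ok.lf S183_198_216_364_ok c4))
  (Ok.s4 290 (Ok.lf S183_198_216_290_ok (bl c8))
  (Ok.lf S183_198_290_364_ok (br c8)))))
  (And.intro (Ok.s1 32 (Ok.s2 496 (Ok.lf S169_183_216_364_ok (bl c9))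
  (Ok.lf S169_183_216_364_ok c5))
  (Ok.s2 496 (Ok.lf S169_183_216_364_ok (br c9))
  (Ok.lf S169_183_216_364_ok (br c7))))
  (Ok.s2 496 (Ok.lf S183_198_216_364_ok c6)
  (Ok.lf S183_198_216_364_ok c0)))))

end Vale.Agent.P098.Ck
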