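import Vale.Agent.P098.CkGd
import Vale.Agent.P098.CkOk
import Vale.Agent.P098.Sh.A15
import Vale.Agent.P098.Sh.A18
import Vale.Agent.P098.Sh.A21
import Vale.Agent.P098.Sh.A9

namespace Vale.Agent.P098.Ck

theorem r400 :
    Ok Gd mult 256 384 0 64 480 496 140 169 364 512 ∧
    Ok Gd mult 256 384 0 64 480 496 169 198 364 512 ∧
    Ok Gd mult 256 384 0 64 496 504 140 198 364 512 :=
  have c0 : (band (go 16 Gd mult S140_169_364_512 (Tr.lf 9146238024 99458246 0) 256 384 16 32 480 496)
  (go 16 Gd mult S169_183_364_512 (Tr.lf 9146221636 99458246 0) 256 384 16 32 480 496)) = true := by decide +kernel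
  have c1 : (go 16 Gd mult S140_169_364_512 (Tr.lf 9146238024 103521478 0) 256 384 32 48 480 496) = true := by decide +kernel
  have c2 : (go 16 Gd mult S140_169_364_512 (Tr.lf 9146238024 99327174 0) 256 384 48 64 480 496) = true := by decide +kernel
  have c3 : (band (go 16 Gd mult S169_183_364_512 (Tr.lf 9146221704 103521478 0) 256 384 32 64 480 496)
  (go 16 Gd mult S169_183_364_512 (Tr.lf 9146221636 99585222 0) 256 384 16 32 496 504)) = true := by decide +kernel
  have c4 : (band (go 16 Gd mult S183_198_364_512 (Tr.lf 8608302216 95132614 0) 256 384 32 64 480 496)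
  (go 16 Gd mult S183_198_364_512 (Tr.lf 8609350724 91061574 0) 256 384 16 32 480 496)) = true := by decide +kernel
  have c5 : (go 16 Gd mult S140_169_364_512 (Tr.lf 9145975944 90803271 0) 256 384 32 64 496 504) = true := by decide +kernel
  have c6 : (go 16 Gd mult S169_198_364_512 (Tr.lf 9146238084 99458246 0) 256 384 0 16 496 504) = true := by decide +kernel
  have c7 : (go 16 Gd mult S140_169_364_512 (Tr.lf 9145975940 99192134 0) 256 384 0 16 496 504) = true := by decide +kernel
  have c8 : (band (go 16 Gd mult S140_169_364_512 (Tr.lf 9146238020 91069638 0) 256 384 16 32 496 504)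
  (go 16 Gd mult S183_198_364_512 (Tr.lf 9146221636 99585222 0) 256 384 16 32 496 504)) = true := by decide +kernel
  have c9 : (band (go 16 Gd mult S169_183_364_512 (Tr.lf 9146221700 99318855 0) 256 384 32 64 496 504)
  (go 16 Gd mult S183_198_364_512 (Tr.lf 9146221700 99318855 0) 256 384 32 64 496 504)) = true := by decide +kernel
  have c10 : (band (go 16 Gd mult S140_169_364_512 (Tr.lf 9145959492 95128647 0) 256 384 0 16 480 496)
  (go 16 Gd mult S169_198_364_512 (Tr.lf 4304684068 103648325 0) 256 384 0 16 480 496)) = true := by decide +kernel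
  (And.intro (Ok.s1 32 (Ok.s1 16 (Ok.lf S140_169_364_512_ok (bl c10))
  (Ok.lf S140_169_364_512_ok (bl c0)))
  (Ok.s1 48 (Ok.lf S140_169_364_512_ok c1)
  (Ok.lf S140_169_364_512_ok c2)))
  (And.intro (Ok.s1 32 (Ok.s1 16 (Ok.lf S169_198_364_512_ok (br c10))
  (Ok.s3 183 (Ok.lf S169_183_364_512_ok (br c0))
  (Ok.lf S183_198_364_512_ok (br c4))))
  (Ok.s3 183 (Ok.lf S169_183_364_512_ok (bl c3))
  (Ok.lf S183_198_364_512_ok (bl c4))))
  (Ok.s3 169 (Ok.s1 32 (Ok.s1 16 (Ok.lf S140_169_364_512_ok c7)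
  (Ok.lf S140_169_364_512_ok (bl c8)))
  (Ok.lf S140_169_364_512_ok c5))
  (Ok.s1 32 (Ok.s1 16 (Ok.lf S169_198_364_512_ok c6)
  (Ok.s3 183 (Ok.lf S169_183_364_512_ok (br c3))
  (Ok.lf S183_198_364_512_ok (br c8))))
  (Ok.s3 183 (Ok.lf S169_183_364_512_ok (bl c9))
  (Ok.lf S183_198_364_512_ok (br c9)))))))

end Vale.Agent.P098.Ck
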