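import Vale.Agent.P098.CkGd
import Vale.Agent.P098.CkOk
import Vale.Agent.P098.Sh.A23
import Vale.Agent.P098.Sh.A25
import Vale.Agent.P098.Sh.A30
import Vale.Agent.P098.Sh.A31

namespace Vale.Agent.P098.Ck

theorem r405 :
    Ok Gd mult 256 384 0 32 480 512 198 227 216 290 ∧
    Ok Gd mult 256 384 0 32 448 512 198 227 290 364 ∧
    Ok Gd mult 256 384 32 64 448 512 198 212 216 364 :=
  have c0 : (band (go 16 Gd mult S212_227_216_290 (Tr.lf 8608041096 95386566 0) 256 384 0 32 496 512)
  (band (go 16 Gd mult S212_227_216_290 (Tr.lf 4313072708 99589189 0) 256 384 0 32 480 496)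
  (go 16 Gd mult S212_227_290_364 (Tr.lf 4312941636 103783493 0) 256 384 0 32 480 496))) = true := by decide +kernel
  have c1 : (band (go 16 Gd mult S198_212_290_364 (Tr.lf 8608041096 91065031 0) 256 384 0 32 496 512)
  (go 16 Gd mult S198_212_290_364 (Tr.lf 8608040068 95124550 0) 256 384 0 32 480 496)) = true := by decide +kernel
  have c2 : (go 16 Gd mult S198_212_216_364 (Tr.lf 13449578568 94735177 0) 256 384 48 64 448 480) = true := by decide +kernel
  have c3 : (band (go 16 Gd mult S198_212_216_290 (Tr.lf 8608040072 90930246 0) 256 384 0 32 480 496)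
  (go 16 Gd mult S198_212_216_290 (Tr.lf 8608041092 91056967 0) 256 384 0 32 496 512)) = true := by decide +kernel
  have c4 : (band (go 16 Gd mult S198_212_216_290 (Tr.lf 8608041032 95251271 0) 256 384 32 48 480 512)
  (go 16 Gd mult S198_212_290_364 (Tr.lf 8608041032 99445575 0) 256 384 32 48 480 512)) = true := by decide +kernel
  have c5 : (band (go 16 Gd mult S198_212_216_290 (Tr.lf 13449316424 94731081 0) 256 384 48 64 480 512)
  (go 16 Gd mult S198_212_290_364 (Tr.lf 8608041032 99187527 0) 256 384 48 64 480 512)) = true := by decide +kernel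
  have c6 : (band (go 16 Gd mult S212_227_290_364 (Tr.lf 8608040068 103644102 0) 256 384 0 32 504 512)
  (go 16 Gd mult S212_227_290_364 (Tr.lf 8608039556 95259590 0) 256 384 0 32 496 504)) = true := by decide +kernel
  have c7 : (go 16 Gd mult S198_212_216_364 (Tr.lf 4304938020 99454021 0) 256 384 32 48 448 480) = true := by decide +kernel
  have c8 : (go 16 Gd mult S198_227_290_364 (Tr.lf 8536642 99589060 0) 256 384 0 32 448 480) = true := by decide +kernel
  (And.intro (Ok.s3 212 (Ok.s2 496 (Ok.lf S198_212_216_290_ok (bl c3))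
  (Ok.lf S198_212_216_290_ok (br c3)))
  (Ok.s2 496 (Ok.lf S212_227_216_290_ok (bl (br c0)))
  (Ok.lf S212_227_216_290_ok (bl c0))))
  (And.intro (Ok.s2 480 (Ok.lf S198_227_290_364_ok c8)
  (Ok.s3 212 (Ok.s2 496 (Ok.lf S198_212_290_364_ok (br c1))
  (Ok.lf S198_212_290_364_ok (bl c1)))
  (Ok.s2 496 (Ok.lf S212_227_290_364_ok (br (br c0)))
  (Ok.s2 504 (Ok.lf S212_227_290_364_ok (br c6))
  (Ok.lf S212_227_290_364_ok (bl c6))))))
  (Ok.s1 48 (Ok.s2 480 (Ok.lf S198_212_216_364_ok c7)
  (Ok.s4 290 (Ok.lf S198_212_216_290_ok (bl c4))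
  (Ok.lf S198_212_290_364_ok (br c4))))
  (Ok.s2 480 (Ok.lf S198_212_216_364_ok c2)
  (Ok.s4 290 (Ok.lf S198_212_216_290_ok (bl c5))
  (Ok.lf S198_212_290_364_ok (br c5)))))))

end Vale.Agent.P098.Ck
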