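import Vale.Agent.P098.CkGd
import Vale.Agent.P098.CkOk
import Vale.Agent.P098.Sh.A48
import Vale.Agent.P098.Sh.A49
import Vale.Agent.P098.Sh.A51
import Vale.Agent.P098.Sh.A52

namespace Vale.Agent.P098.Ck

theorem r410 :
    Ok Gd mult 256 384 0 64 384 512 314 372 364 512 ∧
    Ok Gd mult 256 384 0 64 384 512 314 372 512 808 :=
  have c0 : (band (go 16 Gd mult S343_372_660_808 (Tr.lf 4851270788 95132615 0) 256 384 0 64 448 480)
  (go 16 Gd mult S314_343_660_808 (Tr.lf 556024962 103783622 0) 256 384 0 64 448 480)) = true := by decide +kernel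
  have c1 : (go 16 Gd mult S314_343_660_808 (Tr.lf 1169720452 99589320 188230576528132264689664) 256 384 0 64 480 512) = true := by decide +kernel
  have c2 : (band (go 16 Gd mult S314_343_512_660 (Tr.lf 1161070722 103652424 6050532057791640633344) 256 384 0 64 448 512)
  (go 16 Gd mult S314_343_364_512 (Tr.lf 554976386 107973574 0) 256 384 0 64 448 512)) = true := by decide +kernel
  have c3 : (band (go 16 Gd mult S343_372_660_808 (Tr.lf 4851009666 103648454 0) 256 384 0 64 384 448)
  (band (go 16 Gd mult S343_372_512_660 (Tr.lf 4850992258 103648454 0) 256 384 0 64 384 448)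
  (band (go 16 Gd mult S314_343_660_808 (Tr.lf 547636354 103910470 0) 256 384 0 64 384 448)
  (go 16 Gd mult S314_343_512_660 (Tr.lf 546456706 107973701 0) 256 384 0 64 384 448)))) = true := by decide +kernel
  have c4 : (band (go 16 Gd mult S343_372_512_660 (Tr.lf 556042308 103783494 0) 256 384 0 32 448 512)
  (band (go 16 Gd mult S343_372_364_512 (Tr.lf 1161054274 95395015 21951625448792403214336) 256 384 0 32 448 512)
  (go 16 Gd mult S343_372_512_660 (Tr.lf 1169459266 95394888 614295024400886700965888) 256 384 32 64 448 512))) = true := by decide +kernel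
  have c5 : (go 16 Gd mult S343_372_364_512 (Tr.lf 1169459266 95394888 624440733640756939456512) 256 384 32 64 448 512) = true := by decide +kernel
  have c6 : (band (go 16 Gd mult S343_372_660_808 (Tr.lf 4851008578 95124551 0) 256 384 0 32 480 512)
  (go 16 Gd mult S343_372_660_808 (Tr.lf 1170506818 91200585 979503663569903481257984) 256 384 32 64 480 512)) = true := by decide +kernel
  have c7 : (band (go 16 Gd mult S314_343_364_512 (Tr.lf 546456642 107842629 0) 256 384 0 64 384 448)
  (go 16 Gd mult S343_372_364_512 (Tr.lf 547505218 112040902 0) 256 384 0 64 384 448)) = true := by decide +kernel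
  (And.intro (Ok.s2 448 (Ok.s3 343 (Ok.lf S314_343_364_512_ok (bl c7))
  (Ok.lf S343_372_364_512_ok (br c7)))
  (Ok.s3 343 (Ok.lf S314_343_364_512_ok (br c2))
  (Ok.s1 32 (Ok.lf S343_372_364_512_ok (bl (br c4)))
  (Ok.lf S343_372_364_512_ok c5))))
  (Ok.s4 660 (Ok.s3 343 (Ok.s2 448 (Ok.lf S314_343_512_660_ok (br (br (br c3))))
  (Ok.lf S314_343_512_660_ok (bl c2)))
  (Ok.s2 448 (Ok.lf S343_372_512_660_ok (bl (br c3)))
  (Ok.s1 32 (Ok.lf S343_372_512_660_ok (bl c4))
  (Ok.lf S343_372_512_660_ok (br (br c4))))))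
  (Ok.s2 448 (Ok.s3 343 (Ok.lf S314_343_660_808_ok (bl (br (br c3))))
  (Ok.lf S343_372_660_808_ok (bl c3)))
  (Ok.s2 480 (Ok.s3 343 (Ok.lf S314_343_660_808_ok (br c0))
  (Ok.lf S343_372_660_808_ok (bl c0)))
  (Ok.s3 343 (Ok.lf S314_343_660_808_ok c1)
  (Ok.s1 32 (Ok.lf S343_372_660_808_ok (bl c6))
  (Ok.lf S343_372_660_808_ok (br c6))))))))

end Vale.Agent.P098.Ck
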