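import Vale.Agent.P098.CkGd
import Vale.Agent.P098.CkOk
import Vale.Agent.P098.Sh.A15
import Vale.Agent.P098.Sh.A18
import Vale.Agent.P098.Sh.A21
import Vale.Agent.P098.Sh.A9

namespace Vale.Agent.P098.Ck

theorem r42 :
    Ok Gd mult 0 128 64 128 384 448 140 198 364 512 ∧
    Ok Gd mult 0 128 64 128 448 512 140 198 364 512 :=
  have c0 : (go 16 Gd mult S140_169_364_512 (Tr.lf 9683896392 107576520 109389205586421546483712) 0 128 64 96 480 512) = true := by decide +kernel
  have c1 : (band (go 16 Gd mult S183_198_364_512 (Tr.lf 9136785480 95116231 24257468459006824546304) 0 128 80 96 480 512)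
  (go 16 Gd mult S169_183_364_512 (Tr.lf 9682831396 103521351 31211890972716561334272) 0 128 80 96 480 512)) = true := by decide +kernel
  have c2 : (go 16 Gd mult S169_198_364_512 (Tr.lf 9136800808 94993223 62977184267644409217024) 0 128 64 80 496 512) = true := by decide +kernel
  have c3 : (band (go 16 Gd mult S140_169_364_438 (Tr.lf 9682716744 107707591 41578961142141329342464) 0 128 96 128 448 512)
  (go 16 Gd mult S140_169_438_512 (Tr.lf 9674328132 107699399 36930381681806140243997) 0 128 96 128 448 512)) = true := by decide +kernel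
  have c4 : (band (go 16 Gd mult S169_198_364_438 (Tr.lf 13977684100 99060680 0) 64 128 96 128 480 512)
  (band (go 16 Gd mult S169_198_364_438 (Tr.lf 9145845828 94997703 73879210015206754222080) 0 64 96 128 448 512)
  (go 16 Gd mult S169_198_364_438 (Tr.lf 13977684036 94862153 0) 64 128 96 128 448 480))) = true := by decide +kernel
  have c5 : (band (go 16 Gd mult S169_198_438_512 (Tr.lf 13977684040 94862153 0) 0 128 96 128 480 512)
  (go 16 Gd mult S169_198_438_512 (Tr.lf 13440812104 90532809 0) 0 128 96 128 448 480)) = true := by decide +kernel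
  have c6 : (band (go 16 Gd mult S140_169_364_512 (Tr.lf 9137570948 99175241 0) 0 128 64 128 384 448)
  (band (go 16 Gd mult S169_198_364_512 (Tr.lf 9136522372 99048009 0) 0 128 64 128 384 448)
  (band (go 16 Gd mult S169_198_364_512 (Tr.lf 9682829860 103513287 0) 0 128 64 80 480 496)
  (go 16 Gd mult S169_198_364_512 (Tr.lf 9137570324 94989256 0) 0 128 80 96 448 480)))) = true := by decide +kernel
  have c7 : (go 16 Gd mult S140_169_364_512 (Tr.lf 4842472004 103517382 0) 0 128 64 96 448 480) = true := by decide +kernel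
  have c8 : (go 16 Gd mult S169_198_364_512 (Tr.lf 4841423378 103517126 0) 0 128 64 80 448 480) = true := by decide +kernel
  (And.intro (Ok.s3 169 (Ok.lf S140_169_364_512_ok (bl c6))
  (Ok.lf S169_198_364_512_ok (bl (br c6))))
  (Ok.s1 96 (Ok.s3 169 (Ok.s2 480 (Ok.lf S140_169_364_512_ok c7)
  (Ok.lf S140_169_364_512_ok c0))
  (Ok.s1 80 (Ok.s2 480 (Ok.lf S169_198_364_512_ok c8)
  (Ok.s2 496 (Ok.lf S169_198_364_512_ok (bl (br (br c6))))
  (Ok.lf S169_198_364_512_ok c2)))
  (Ok.s2 480 (Ok.lf S169_198_364_512_ok (br (br (br c6))))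
  (Ok.s3 183 (Ok.lf S169_183_364_512_ok (br c1))
  (Ok.lf S183_198_364_512_ok (bl c1))))))
  (Ok.s4 438 (Ok.s3 169 (Ok.lf S140_169_364_438_ok (bl c3))
  (Ok.s0 64 (Ok.lf S169_198_364_438_ok (bl (br c4)))
  (Ok.s2 480 (Ok.lf S169_198_364_438_ok (br (br c4)))
  (Ok.lf S169_198_364_438_ok (bl c4)))))
  (Ok.s3 169 (Ok.lf S140_169_438_512_ok (br c3))
  (Ok.s2 480 (Ok.lf S169_198_438_512_ok (br c5))
  (Ok.lf S169_198_438_512_ok (bl c5)))))))

end Vale.Agent.P098.Ck
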