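import Vale.Agent.P098.CkGd
import Vale.Agent.P098.CkOk
import Vale.Agent.P098.Sh.A2
import Vale.Agent.P098.Sh.A4
import Vale.Agent.P098.Sh.A5
import Vale.Agent.P098.Sh.A6

namespace Vale.Agent.P098.Ck

theorem r421 :
    Ok Gd mult 256 384 64 128 256 320 82 111 216 364 ∧
    Ok Gd mult 256 384 64 128 320 384 82 111 216 364 ∧
    Ok Gd mult 256 384 64 128 256 384 111 140 216 364 ∧
    Ok Gd mult 256 384 64 128 256 320 82 140 364 512 ∧
    Ok Gd mult 256 384 64 128 320 384 82 111 364 512 :=
  have c0 : (go 16 Gd mult S82_111_216_364 (Tr.lf 13978863748 99322952 0) 320 384 96 128 320 384) = true := by decide +kernel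
  have c1 : (go 16 Gd mult S111_125_216_364 (Tr.lf 13978847368 99056840 0) 256 384 96 128 320 384) = true := by decide +kernel
  have c2 : (band (go 16 Gd mult S82_111_216_364 (Tr.lf 13970343048 103369928 0) 256 384 96 128 256 320)
  (go 16 Gd mult S82_111_364_512 (Tr.lf 13970343048 103369928 0) 256 384 96 128 256 320)) = true := by decide +kernel
  have c3 : (go 16 Gd mult S82_111_216_364 (Tr.lf 13978732676 99183816 0) 256 320 96 128 320 384) = true := by decide +kernel
  have c4 : (band (go 16 Gd mult S82_111_364_512 (Tr.lf 13978732616 99183816 0) 256 384 96 112 320 384)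
  (go 16 Gd mult S82_111_364_512 (Tr.lf 13978732616 99322952 0) 256 384 112 128 320 384)) = true := by decide +kernel
  have c5 : (band (go 16 Gd mult S125_140_216_364 (Tr.lf 13978846344 103251144 0) 256 384 96 128 352 384)
  (go 16 Gd mult S125_140_216_364 (Tr.lf 13441975428 94862281 0) 256 384 96 128 320 352)) = true := by decide +kernel
  have c6 : (band (go 16 Gd mult S82_111_216_364 (Tr.lf 9137440900 90922055 0) 256 384 64 96 320 384)
  (go 16 Gd mult S82_111_364_512 (Tr.lf 9137439876 90922055 0) 256 384 64 96 320 384)) = true := by decide +kernel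
  have c7 : (go 16 Gd mult S111_140_216_364 (Tr.lf 9137571908 99052615 0) 256 384 64 96 256 384) = true := by decide +kernel
  have c8 : (band (go 16 Gd mult S111_140_216_364 (Tr.lf 9137587268 103513031 0) 256 384 96 128 256 320)
  (go 16 Gd mult S111_140_364_512 (Tr.lf 9137587268 107707335 0) 256 384 96 128 256 320)) = true := by decide +kernel
  have c9 : (band (go 16 Gd mult S82_111_216_364 (Tr.lf 547439138 99585221 0) 256 384 64 96 256 320)
  (band (go 16 Gd mult S82_111_364_512 (Tr.lf 547439138 103779525 0) 256 384 64 96 256 320)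
  (go 16 Gd mult S111_140_364_512 (Tr.lf 547439138 103910597 0) 256 384 64 96 256 320))) = true := by decide +kernel
  (And.intro (Ok.s1 96 (Ok.lf S82_111_216_364_ok (bl c9))
  (Ok.lf S82_111_216_364_ok (bl c2)))
  (And.intro (Ok.s1 96 (Ok.lf S82_111_216_364_ok (bl c6))
  (Ok.s0 320 (Ok.lf S82_111_216_364_ok c3)
  (Ok.lf S82_111_216_364_ok c0)))
  (And.intro (Ok.s1 96 (Ok.lf S111_140_216_364_ok c7)
  (Ok.s2 320 (Ok.lf S111_140_216_364_ok (bl c8))
  (Ok.s3 125 (Ok.lf S111_125_216_364_ok c1)
  (Ok.s2 352 (Ok.lf S125_140_216_364_ok (br c5))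
  (Ok.lf S125_140_216_364_ok (bl c5))))))
  (And.intro (Ok.s3 111 (Ok.s1 96 (Ok.lf S82_111_364_512_ok (bl (br c9)))
  (Ok.lf S82_111_364_512_ok (br c2)))
  (Ok.s1 96 (Ok.lf S111_140_364_512_ok (br (br c9)))
  (Ok.lf S111_140_364_512_ok (br c8))))
  (Ok.s1 96 (Ok.lf S82_111_364_512_ok (br c6))
  (Ok.s1 112 (Ok.lf S82_111_364_512_ok (bl c4))
  (Ok.lf S82_111_364_512_ok (br c4))))))))

end Vale.Agent.P098.Ck
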