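import Vale.Agent.P098.CkGd
import Vale.Agent.P098.CkOk
import Vale.Agent.P098.Sh.A0
import Vale.Agent.P098.Sh.A1

namespace Vale.Agent.P098.Ck

theorem r427 :
    Ok Gd mult 256 384 96 128 384 512 24 82 216 364 ∧
    Ok Gd mult 256 384 64 128 384 512 24 82 364 512 ∧
    Ok Gd mult 256 384 64 128 384 512 24 82 512 660 :=
  have c0 : (go 16 Gd mult S24_82_364_512 (Tr.lf 1077053576 99572807 108300834456748848447488) 256 384 64 96 480 512) = true := by decide +kernel
  have c1 : (band (go 16 Gd mult S24_82_364_512 (Tr.lf 13969229960 99044296 0) 256 384 64 96 384 416)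
  (band (go 16 Gd mult S24_82_512_660 (Tr.lf 13432358024 90655688 0) 256 384 64 96 384 416)
  (go 16 Gd mult S24_82_512_660 (Tr.lf 1076986500 103632071 137741837998389324546048) 256 384 64 128 496 512))) = true := by decide +kernel
  have c2 : (band (go 16 Gd mult S24_82_216_364 (Tr.lf 13969294472 103508808 0) 256 384 96 128 384 416)
  (go 16 Gd mult S24_82_512_660 (Tr.lf 13432358024 95120200 0) 256 384 96 128 384 416)) = true := by decide +kernel
  have c3 : (band (go 16 Gd mult S24_82_364_512 (Tr.lf 13432358024 90663752 0) 256 384 64 96 416 448)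
  (band (go 16 Gd mult S24_82_512_660 (Tr.lf 9666921608 111897671 0) 256 384 64 96 416 448)
  (go 16 Gd mult S24_82_364_512 (Tr.lf 13432359044 90528457 0) 256 384 64 96 448 480))) = true := by decide +kernel
  have c4 : (band (go 16 Gd mult S24_82_364_512 (Tr.lf 13969228936 103508808 0) 256 384 96 128 384 416)
  (band (go 16 Gd mult S24_82_364_512 (Tr.lf 9137390664 99449799 0) 256 384 96 128 416 448)
  (band (go 16 Gd mult S24_82_216_364 (Tr.lf 9137390660 95255495 0) 256 384 96 128 416 448)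
  (band (go 16 Gd mult S24_82_512_660 (Tr.lf 9137374276 95255495 0) 256 384 96 128 416 448)
  (go 16 Gd mult S24_82_512_660 (Tr.lf 5371937348 112020679 0) 256 384 64 128 480 496))))) = true := by decide +kernel
  have c5 : (go 16 Gd mult S24_82_512_660 (Tr.lf 9666922628 107568327 0) 256 384 64 96 448 480) = true := by decide +kernel
  have c6 : (band (go 16 Gd mult S24_82_216_364 (Tr.lf 4842408004 103382214 0) 256 384 96 128 448 512)
  (go 16 Gd mult S24_82_364_512 (Tr.lf 4842408004 103382214 0) 256 384 96 128 448 512)) = true := by decide +kernel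
  have c7 : (go 16 Gd mult S24_82_512_660 (Tr.lf 4842406946 103648581 0) 256 384 96 128 448 480) = true := by decide +kernel
  (And.intro (Ok.s2 448 (Ok.s2 416 (Ok.lf S24_82_216_364_ok (bl c2))
  (Ok.lf S24_82_216_364_ok (bl (br (br c4)))))
  (Ok.lf S24_82_216_364_ok (bl c6)))
  (And.intro (Ok.s1 96 (Ok.s2 448 (Ok.s2 416 (Ok.lf S24_82_364_512_ok (bl c1))
  (Ok.lf S24_82_364_512_ok (bl c3)))
  (Ok.s2 480 (Ok.lf S24_82_364_512_ok (br (br c3)))
  (Ok.lf S24_82_364_512_ok c0)))
  (Ok.s2 448 (Ok.s2 416 (Ok.lf S24_82_364_512_ok (bl c4))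
  (Ok.lf S24_82_364_512_ok (bl (br c4))))
  (Ok.lf S24_82_364_512_ok (br c6))))
  (Ok.s2 448 (Ok.s1 96 (Ok.s2 416 (Ok.lf S24_82_512_660_ok (bl (br c1)))
  (Ok.lf S24_82_512_660_ok (bl (br c3))))
  (Ok.s2 416 (Ok.lf S24_82_512_660_ok (br c2))
  (Ok.lf S24_82_512_660_ok (bl (br (br (br c4)))))))
  (Ok.s2 480 (Ok.s1 96 (Ok.lf S24_82_512_660_ok c5)
  (Ok.lf S24_82_512_660_ok c7))
  (Ok.s2 496 (Ok.lf S24_82_512_660_ok (br (br (br (br c4)))))
  (Ok.lf S24_82_512_660_ok (br (br c1))))))))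

end Vale.Agent.P098.Ck
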