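import Vale.Agent.P098.CkGd
import Vale.Agent.P098.CkOk
import Vale.Agent.P098.Sh.A0
import Vale.Agent.P098.Sh.A1
import Vale.Agent.P098.Sh.A2
import Vale.Agent.P098.Sh.A4
import Vale.Agent.P098.Sh.A6

namespace Vale.Agent.P098.Ck

theorem r428 :
    Ok Gd mult 256 384 64 128 384 448 24 82 660 808 ∧
    Ok Gd mult 256 384 64 128 448 512 24 82 660 808 ∧
    Ok Gd mult 256 384 64 128 384 448 82 111 216 364 ∧
    Ok Gd mult 256 384 64 96 384 448 111 140 216 364 :=
  have c0 : (go 16 Gd mult S82_111_216_364 (Tr.lf 13978732680 103382216 0) 256 384 96 128 416 448) = true := by decide +kernel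
  have c1 : (go 16 Gd mult S82_111_216_364 (Tr.lf 13978863748 98925768 0) 320 384 64 96 384 416) = true := by decide +kernel
  have c2 : (go 16 Gd mult S82_111_216_364 (Tr.lf 13978863748 99192135 0) 320 384 64 96 416 448) = true := by decide +kernel
  have c3 : (go 16 Gd mult S82_111_216_364 (Tr.lf 13978862728 107711560 0) 256 384 96 128 384 416) = true := by decide +kernel
  have c4 : (go 16 Gd mult S111_125_216_364 (Tr.lf 13978847368 99048521 0) 256 384 64 96 384 416) = true := by decide +kernel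
  have c5 : (go 16 Gd mult S111_125_216_364 (Tr.lf 13978847368 99056840 0) 256 384 64 96 416 448) = true := by decide +kernel
  have c6 : (go 16 Gd mult S125_140_216_364 (Tr.lf 13987235976 99065032 0) 256 384 64 96 416 448) = true := by decide +kernel
  have c7 : (band (go 16 Gd mult S53_82_660_808 (Tr.lf 9674311816 103640007 0) 256 384 64 96 384 448)
  (band (go 16 Gd mult S24_53_660_808 (Tr.lf 9665849476 103508807 0) 256 384 64 96 384 448)
  (band (go 16 Gd mult S53_82_660_808 (Tr.lf 9674311812 107838407 0) 256 384 96 128 384 448)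
  (go 16 Gd mult S24_53_660_808 (Tr.lf 9665849412 111893447 0) 256 384 96 128 384 448)))) = true := by decide +kernel
  have c8 : (go 16 Gd mult S125_140_216_364 (Tr.lf 13978846344 98790473 0) 256 384 64 96 384 416) = true := by decide +kernel
  have c9 : (band (go 16 Gd mult S24_82_660_808 (Tr.lf 9666922628 107568327 0) 256 384 64 96 448 480)
  (go 16 Gd mult S24_82_660_808 (Tr.lf 1076986500 103632071 137741837998389391196160) 256 384 64 128 496 512)) = true := by decide +kernel
  have c10 : (go 16 Gd mult S82_111_216_364 (Tr.lf 9145829508 95132615 0) 256 320 64 96 384 448) = true := by decide +kernel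
  have c11 : (band (go 16 Gd mult S24_82_660_808 (Tr.lf 5371937348 112020679 0) 256 384 64 128 480 496)
  (go 16 Gd mult S24_82_660_808 (Tr.lf 4834018338 103640389 0) 256 384 96 128 448 480)) = true := by decide +kernel
  (And.intro (Ok.s1 96 (Ok.s3 53 (Ok.lf S24_53_660_808_ok (bl (br c7)))
  (Ok.lf S53_82_660_808_ok (bl c7)))
  (Ok.s3 53 (Ok.lf S24_53_660_808_ok (br (br (br c7))))
  (Ok.lf S53_82_660_808_ok (bl (br (br c7))))))
  (And.intro (Ok.s2 480 (Ok.s1 96 (Ok.lf S24_82_660_808_ok (bl c9))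
  (Ok.lf S24_82_660_808_ok (br c11)))
  (Ok.s2 496 (Ok.lf S24_82_660_808_ok (bl c11))
  (Ok.lf S24_82_660_808_ok (br c9))))
  (And.intro (Ok.s1 96 (Ok.s0 320 (Ok.lf S82_111_216_364_ok c10)
  (Ok.s2 416 (Ok.lf S82_111_216_364_ok c1)
  (Ok.lf S82_111_216_364_ok c2)))
  (Ok.s2 416 (Ok.lf S82_111_216_364_ok c3)
  (Ok.lf S82_111_216_364_ok c0)))
  (Ok.s3 125 (Ok.s2 416 (Ok.lf S111_125_216_364_ok c4)
  (Ok.lf S111_125_216_364_ok c5))
  (Ok.s2 416 (Ok.lf S125_140_216_364_ok c8)
  (Ok.lf S125_140_216_364_ok c6))))))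

end Vale.Agent.P098.Ck
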