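import Vale.Agent.P098.CkGd
import Vale.Agent.P098.CkOk
import Vale.Agent.P098.Sh.A2
import Vale.Agent.P098.Sh.A4
import Vale.Agent.P098.Sh.A5
import Vale.Agent.P098.Sh.A6

namespace Vale.Agent.P098.Ck

theorem r429 :
    Ok Gd mult 256 384 96 128 384 448 111 140 216 364 ∧
    Ok Gd mult 256 384 64 128 448 512 82 140 216 364 ∧
    Ok Gd mult 256 384 64 96 384 448 82 111 364 512 ∧
    Ok Gd mult 256 384 64 96 384 416 111 140 364 512 :=
  have c0 : (go 16 Gd mult S82_111_364_512 (Tr.lf 13978732680 94862281 0) 256 384 64 96 384 416) = true := by decide +kernel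
  have c1 : (go 16 Gd mult S82_111_364_512 (Tr.lf 13978732680 103378120 0) 256 384 64 96 416 448) = true := by decide +kernel
  have c2 : (go 16 Gd mult S111_125_216_364 (Tr.lf 13978847368 103382216 0) 256 384 96 128 416 448) = true := by decide +kernel
  have c3 : (go 16 Gd mult S82_111_216_364 (Tr.lf 13440944260 90667721 0) 320 384 64 96 448 480) = true := by decide +kernel
  have c4 : (go 16 Gd mult S111_125_216_364 (Tr.lf 13977798792 94993097 0) 256 384 64 96 448 480) = true := by decide +kernel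
  have c5 : (band (go 16 Gd mult S111_140_216_364 (Tr.lf 9682847876 107445192 0) 256 384 64 128 480 512)
  (band (go 16 Gd mult S82_111_216_364 (Tr.lf 9137439876 94854088 0) 256 384 64 128 480 512)
  (go 16 Gd mult S82_111_216_364 (Tr.lf 9145829442 95132870 0) 256 320 64 96 448 480))) = true := by decide +kernel
  have c6 : (band (go 16 Gd mult S111_125_216_364 (Tr.lf 13978846344 107703496 0) 256 384 96 128 384 416)
  (band (go 16 Gd mult S125_140_216_364 (Tr.lf 13978846344 107445448 0) 256 384 96 128 384 416)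
  (go 16 Gd mult S125_140_216_364 (Tr.lf 13977798722 99056584 0) 256 320 64 96 448 480))) = true := by decide +kernel
  have c7 : (band (go 16 Gd mult S125_140_216_364 (Tr.lf 13978846344 103382216 0) 256 384 96 128 416 448)
  (go 16 Gd mult S125_140_216_364 (Tr.lf 13987235972 95001545 0) 320 384 64 96 448 480)) = true := by decide +kernel
  have c8 : (band (go 16 Gd mult S111_140_216_364 (Tr.lf 9145976900 99322951 0) 256 384 96 128 448 480)
  (go 16 Gd mult S82_111_216_364 (Tr.lf 9137439780 95120455 0) 256 384 96 128 448 480)) = true := by decide +kernel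
  have c9 : (go 16 Gd mult S111_140_364_512 (Tr.lf 13978862664 99056840 0) 256 384 80 96 384 416) = true := by decide +kernel
  have c10 : (go 16 Gd mult S111_140_364_512 (Tr.lf 9137439268 99310663 0) 256 384 64 80 384 416) = true := by decide +kernel
  (And.intro (Ok.s3 125 (Ok.s2 416 (Ok.lf S111_125_216_364_ok (bl c6))
  (Ok.lf S111_125_216_364_ok c2))
  (Ok.s2 416 (Ok.lf S125_140_216_364_ok (bl (br c6)))
  (Ok.lf S125_140_216_364_ok (bl c7))))
  (And.intro (Ok.s2 480 (Ok.s3 111 (Ok.s1 96 (Ok.s0 320 (Ok.lf S82_111_216_364_ok (br (br c5)))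
  (Ok.lf S82_111_216_364_ok c3))
  (Ok.lf S82_111_216_364_ok (br c8)))
  (Ok.s1 96 (Ok.s3 125 (Ok.lf S111_125_216_364_ok c4)
  (Ok.s0 320 (Ok.lf S125_140_216_364_ok (br (br c6)))
  (Ok.lf S125_140_216_364_ok (br c7))))
  (Ok.lf S111_140_216_364_ok (bl c8))))
  (Ok.s3 111 (Ok.lf S82_111_216_364_ok (bl (br c5)))
  (Ok.lf S111_140_216_364_ok (bl c5))))
  (And.intro (Ok.s2 416 (Ok.lf S82_111_364_512_ok c0)
  (Ok.lf S82_111_364_512_ok c1))
  (Ok.s1 80 (Ok.lf S111_140_364_512_ok c10)
  (Ok.lf S111_140_364_512_ok c9)))))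

end Vale.Agent.P098.Ck
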