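import Vale.Agent.P098.CkGd
import Vale.Agent.P098.CkOk
import Vale.Agent.P098.Sh.A12
import Vale.Agent.P098.Sh.A15
import Vale.Agent.P098.Sh.A18
import Vale.Agent.P098.Sh.A21
import Vale.Agent.P098.Sh.A7
import Vale.Agent.P098.Sh.A9

namespace Vale.Agent.P098.Ck

theorem r436 :
    Ok Gd mult 256 384 80 96 448 512 140 169 364 512 ∧
    Ok Gd mult 256 384 96 128 384 512 140 169 364 512 ∧
    Ok Gd mult 256 384 64 96 384 448 169 198 364 512 ∧
    Ok Gd mult 256 384 96 128 384 448 169 183 364 512 :=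
  have c0 : (go 16 Gd mult S154_169_364_512 (Tr.lf 9146221704 99322951 0) 256 384 96 128 384 416) = true := by decide +kernel
  have c1 : (band (go 16 Gd mult S154_169_364_512 (Tr.lf 9145960584 99589318 0) 256 384 96 128 416 448)
  (go 16 Gd mult S154_169_364_512 (Tr.lf 9145959496 99323206 0) 256 384 96 128 448 464)) = true := by decide +kernel
  have c2 : (go 16 Gd mult S169_183_364_512 (Tr.lf 9146221704 99322951 0) 256 384 64 96 416 448) = true := by decide +kernel
  have c3 : (go 16 Gd mult S183_198_364_512 (Tr.lf 8609350792 95120583 0) 256 384 64 96 416 448) = true := by decide +kernel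
  have c4 : (go 16 Gd mult S169_183_364_512 (Tr.lf 9146221704 103648327 0) 256 384 96 128 384 416) = true := by decide +kernel
  have c5 : (go 16 Gd mult S169_183_364_512 (Tr.lf 9146221704 99581254 0) 256 384 96 128 416 448) = true := by decide +kernel
  have c6 : (band (go 16 Gd mult S154_169_364_512 (Tr.lf 9145960520 95263942 0) 256 384 80 96 448 480)
  (band (go 16 Gd mult S140_154_364_512 (Tr.lf 9145960516 95263942 0) 256 384 80 96 448 480)
  (go 16 Gd mult S140_154_364_512 (Tr.lf 13977798724 99052361 0) 256 384 96 128 448 480))) = true := by decide +kernel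
  have c7 : (band (go 16 Gd mult S140_154_364_512 (Tr.lf 9145959560 99458246 0) 256 384 96 128 384 416)
  (go 16 Gd mult S140_154_364_512 (Tr.lf 9145959560 99589318 0) 256 384 96 128 416 448)) = true := by decide +kernel
  have c8 : (go 16 Gd mult S140_169_364_512 (Tr.lf 9682847780 99056584 0) 256 384 80 96 480 512) = true := by decide +kernel
  have c9 : (go 16 Gd mult S154_169_364_512 (Tr.lf 9145959492 99322951 0) 256 384 96 128 464 480) = true := by decide +kernel
  have c10 : (band (go 16 Gd mult S154_169_364_512 (Tr.lf 9145951268 99056584 0) 256 384 96 128 480 512)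
  (go 16 Gd mult S140_154_364_512 (Tr.lf 4850852898 107715782 0) 256 384 96 128 480 512)) = true := by decide +kernel
  have c11 : (go 16 Gd mult S169_198_364_512 (Tr.lf 4850991682 107846854 0) 256 384 64 96 384 416) = true := by decide +kernel
  (And.intro (Ok.s2 480 (Ok.s3 154 (Ok.lf S140_154_364_512_ok (bl (br c6)))
  (Ok.lf S154_169_364_512_ok (bl c6)))
  (Ok.lf S140_169_364_512_ok c8))
  (And.intro (Ok.s3 154 (Ok.s2 448 (Ok.s2 416 (Ok.lf S140_154_364_512_ok (bl c7))
  (Ok.lf S140_154_364_512_ok (br c7)))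
  (Ok.s2 480 (Ok.lf S140_154_364_512_ok (br (br c6)))
  (Ok.lf S140_154_364_512_ok (br c10))))
  (Ok.s2 448 (Ok.s2 416 (Ok.lf S154_169_364_512_ok c0)
  (Ok.lf S154_169_364_512_ok (bl c1)))
  (Ok.s2 480 (Ok.s2 464 (Ok.lf S154_169_364_512_ok (br c1))
  (Ok.lf S154_169_364_512_ok c9))
  (Ok.lf S154_169_364_512_ok (bl c10)))))
  (And.intro (Ok.s2 416 (Ok.lf S169_198_364_512_ok c11)
  (Ok.s3 183 (Ok.lf S169_183_364_512_ok c2)
  (Ok.lf S183_198_364_512_ok c3)))
  (Ok.s2 416 (Ok.lf S169_183_364_512_ok c4)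
  (Ok.lf S169_183_364_512_ok c5)))))

end Vale.Agent.P098.Ck
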