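import Vale.Agent.P098.CkGd
import Vale.Agent.P098.CkOk
import Vale.Agent.P098.Sh.A15
import Vale.Agent.P098.Sh.A21

namespace Vale.Agent.P098.Ck

theorem r437 :
    Ok Gd mult 256 384 96 128 384 448 183 198 364 512 ∧
    Ok Gd mult 256 320 64 128 448 512 169 198 364 512 ∧
    Ok Gd mult 320 384 64 128 448 512 169 183 364 512 :=
  have c0 : (band (go 16 Gd mult S183_198_364_512 (Tr.lf 9146222724 103644486 0) 256 320 64 96 448 480)
  (go 16 Gd mult S183_198_364_512 (Tr.lf 9145173060 99191623 0) 256 320 64 96 496 512)) = true := by decide +kernel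
  have c1 : (go 16 Gd mult S183_198_364_512 (Tr.lf 13986449540 99326920 0) 256 320 96 128 448 480) = true := by decide +kernel
  have c2 : (band (go 16 Gd mult S183_198_364_512 (Tr.lf 13986449540 99060553 0) 256 320 96 128 480 512)
  (band (go 16 Gd mult S169_183_364_512 (Tr.lf 9145952322 99056839 0) 256 320 96 128 480 512)
  (go 16 Gd mult S169_183_364_512 (Tr.lf 9145951265 99056584 0) 320 384 96 128 480 512))) = true := by decide +kernel
  have c3 : (go 16 Gd mult S169_183_364_512 (Tr.lf 9146222724 90926279 0) 320 384 64 96 480 512) = true := by decide +kernel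
  have c4 : (band (go 16 Gd mult S169_183_364_512 (Tr.lf 9146222722 103521478 0) 320 384 64 96 448 480)
  (go 16 Gd mult S169_183_364_512 (Tr.lf 9146222660 99191879 0) 256 320 64 96 480 512)) = true := by decide +kernel
  have c5 : (band (go 16 Gd mult S183_198_364_438 (Tr.lf 9145959560 107711559 0) 256 384 96 128 416 448)
  (go 16 Gd mult S183_198_438_512 (Tr.lf 9145959560 107711814 0) 256 384 96 128 416 448)) = true := by decide +kernel
  have c6 : (go 16 Gd mult S169_183_364_512 (Tr.lf 9145960580 99458246 0) 256 320 64 96 448 480) = true := by decide +kernel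
  have c7 : (go 16 Gd mult S183_198_364_512 (Tr.lf 13986448516 99195848 0) 256 320 64 96 480 496) = true := by decide +kernel
  have c8 : (band (go 16 Gd mult S169_183_364_512 (Tr.lf 9146222660 99323206 0) 256 320 96 128 448 480)
  (go 16 Gd mult S169_183_364_512 (Tr.lf 9146222660 103517255 0) 320 384 96 128 448 480)) = true := by decide +kernel
  have c9 : (band (go 16 Gd mult S183_198_364_438 (Tr.lf 13449315460 94870345 0) 256 384 96 128 384 416)
  (go 16 Gd mult S183_198_438_512 (Tr.lf 13986186372 107322185 0) 256 384 96 128 384 416)) = true := by decide +kernel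
  (And.intro (Ok.s2 416 (Ok.s4 438 (Ok.lf S183_198_364_438_ok (bl c9))
  (Ok.lf S183_198_438_512_ok (br c9)))
  (Ok.s4 438 (Ok.lf S183_198_364_438_ok (bl c5))
  (Ok.lf S183_198_438_512_ok (br c5))))
  (And.intro (Ok.s1 96 (Ok.s3 183 (Ok.s2 480 (Ok.lf S169_183_364_512_ok c6)
  (Ok.lf S169_183_364_512_ok (br c4)))
  (Ok.s2 480 (Ok.lf S183_198_364_512_ok (bl c0))
  (Ok.s2 496 (Ok.lf S183_198_364_512_ok c7)
  (Ok.lf S183_198_364_512_ok (br c0)))))
  (Ok.s3 183 (Ok.s2 480 (Ok.lf S169_183_364_512_ok (bl c8))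
  (Ok.lf S169_183_364_512_ok (bl (br c2))))
  (Ok.s2 480 (Ok.lf S183_198_364_512_ok c1)
  (Ok.lf S183_198_364_512_ok (bl c2)))))
  (Ok.s2 480 (Ok.s1 96 (Ok.lf S169_183_364_512_ok (bl c4))
  (Ok.lf S169_183_364_512_ok (br c8)))
  (Ok.s1 96 (Ok.lf S169_183_364_512_ok c3)
  (Ok.lf S169_183_364_512_ok (br (br c2)))))))

end Vale.Agent.P098.Ck
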