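import Vale.Agent.P098.CkGd
import Vale.Agent.P098.CkOk
import Vale.Agent.P098.Sh.A10
import Vale.Agent.P098.Sh.A21
import Vale.Agent.P098.Sh.A8
import Vale.Agent.P098.Sh.A9

namespace Vale.Agent.P098.Ck

theorem r438 :
    Ok Gd mult 320 384 64 128 448 512 183 198 364 512 ∧
    Ok Gd mult 256 384 64 96 384 512 140 169 512 660 ∧
    Ok Gd mult 256 384 96 128 384 512 140 154 512 660 :=
  have c0 : (band (go 16 Gd mult S140_169_512_586 (Tr.lf 9145845896 90667976 0) 256 384 64 96 480 512)
  (go 16 Gd mult S140_169_586_660 (Tr.lf 4304570436 90930118 0) 256 384 64 96 480 512)) = true := by decide +kernel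
  have c1 : (go 16 Gd mult S183_198_364_512 (Tr.lf 9146222724 107715782 0) 320 384 64 96 448 480) = true := by decide +kernel
  have c2 : (go 16 Gd mult S183_198_364_512 (Tr.lf 9146222724 103517510 0) 320 384 96 128 448 480) = true := by decide +kernel
  have c3 : (go 16 Gd mult S183_198_364_512 (Tr.lf 9146222724 99191879 0) 320 384 64 96 480 512) = true := by decide +kernel
  have c4 : (band (go 16 Gd mult S140_169_512_586 (Tr.lf 9145844872 99191879 0) 256 384 64 96 416 448)
  (go 16 Gd mult S140_169_512_586 (Tr.lf 9145844868 95263942 0) 256 384 64 96 464 480)) = true := by decide +kernel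
  have c5 : (band (go 16 Gd mult S140_154_512_660 (Tr.lf 9145960520 99458246 0) 256 384 96 112 384 448)
  (go 16 Gd mult S140_154_512_660 (Tr.lf 9145960520 99589318 0) 256 384 112 128 384 448)) = true := by decide +kernel
  have c6 : (band (go 16 Gd mult S140_169_512_586 (Tr.lf 9145828488 103521478 0) 256 384 64 96 448 464)
  (go 16 Gd mult S140_169_512_586 (Tr.lf 9145828484 103386183 0) 256 384 64 96 384 416)) = true := by decide +kernel
  have c7 : (band (go 16 Gd mult S140_169_586_660 (Tr.lf 13440796744 90532681 0) 256 384 64 80 384 448)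
  (go 16 Gd mult S140_169_586_660 (Tr.lf 4304554116 99720388 0) 256 384 64 96 448 480)) = true := by decide +kernel
  have c8 : (go 16 Gd mult S140_169_586_660 (Tr.lf 8599537732 94989127 0) 256 384 80 96 384 448) = true := by decide +kernel
  have c9 : (go 16 Gd mult S140_154_512_660 (Tr.lf 13977790532 99052361 0) 256 384 96 128 448 480) = true := by decide +kernel
  have c10 : (go 16 Gd mult S183_198_364_512 (Tr.lf 9145959490 103251143 0) 320 384 96 128 480 512) = true := by decide +kernel
  have c11 : (go 16 Gd mult S140_154_512_660 (Tr.lf 4842460194 107707590 0) 256 384 96 128 480 512) = true := by decide +kernel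
  (And.intro (Ok.s2 480 (Ok.s1 96 (Ok.lf S183_198_364_512_ok c1)
  (Ok.lf S183_198_364_512_ok c2))
  (Ok.s1 96 (Ok.lf S183_198_364_512_ok c3)
  (Ok.lf S183_198_364_512_ok c10)))
  (And.intro (Ok.s4 586 (Ok.s2 448 (Ok.s2 416 (Ok.lf S140_169_512_586_ok (br c6))
  (Ok.lf S140_169_512_586_ok (bl c4)))
  (Ok.s2 480 (Ok.s2 464 (Ok.lf S140_169_512_586_ok (bl c6))
  (Ok.lf S140_169_512_586_ok (br c4)))
  (Ok.lf S140_169_512_586_ok (bl c0))))
  (Ok.s2 448 (Ok.s1 80 (Ok.lf S140_169_586_660_ok (bl c7))
  (Ok.lf S140_169_586_660_ok c8))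
  (Ok.s2 480 (Ok.lf S140_169_586_660_ok (br c7))
  (Ok.lf S140_169_586_660_ok (br c0)))))
  (Ok.s2 448 (Ok.s1 112 (Ok.lf S140_154_512_660_ok (bl c5))
  (Ok.lf S140_154_512_660_ok (br c5)))
  (Ok.s2 480 (Ok.lf S140_154_512_660_ok c9)
  (Ok.lf S140_154_512_660_ok c11)))))

end Vale.Agent.P098.Ck
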