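import Vale.Agent.P098.CkGd
import Vale.Agent.P098.CkOk
import Vale.Agent.P098.Sh.A10
import Vale.Agent.P098.Sh.A16
import Vale.Agent.P098.Sh.A19
import Vale.Agent.P098.Sh.A22

namespace Vale.Agent.P098.Ck

theorem r440 :
    Ok Gd mult 256 384 96 128 384 512 169 198 586 660 ∧
    Ok Gd mult 256 384 64 128 384 448 140 198 660 808 ∧
    Ok Gd mult 256 384 64 128 448 480 140 198 660 808 :=
  have c0 : (band (go 16 Gd mult S169_183_586_660 (Tr.lf 13987235976 107449672 0) 256 384 96 128 384 448)
  (go 16 Gd mult S183_198_586_660 (Tr.lf 9145829444 103648327 0) 256 384 96 128 384 448)) = true := by decide +kernel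
  have c1 : (go 16 Gd mult S140_169_660_808 (Tr.lf 13440943240 99187656 0) 256 384 96 128 416 448) = true := by decide +kernel
  have c2 : (band (go 16 Gd mult S169_198_660_808 (Tr.lf 9145976964 103251143 0) 256 384 64 96 384 448)
  (go 16 Gd mult S169_198_660_808 (Tr.lf 9145975876 103517510 0) 256 384 96 128 448 480)) = true := by decide +kernel
  have c3 : (go 16 Gd mult S169_198_660_808 (Tr.lf 13441205380 94989384 0) 256 384 96 128 384 416) = true := by decide +kernel
  have c4 : (go 16 Gd mult S169_198_660_808 (Tr.lf 13441205320 99060680 0) 256 384 96 128 416 448) = true := by decide +kernel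
  have c5 : (band (go 16 Gd mult S140_169_660_808 (Tr.lf 13440926856 90532681 0) 256 384 64 96 416 448)
  (band (go 16 Gd mult S140_169_660_808 (Tr.lf 9145960516 99458246 0) 256 384 64 96 448 480)
  (go 16 Gd mult S140_169_660_808 (Tr.lf 9145959556 103386183 0) 256 384 64 96 384 416))) = true := by decide +kernel
  have c6 : (band (go 16 Gd mult S140_169_660_808 (Tr.lf 13978862664 107576520 0) 256 384 96 112 384 416)
  (go 16 Gd mult S140_169_660_808 (Tr.lf 13978862664 107576520 0) 256 384 112 128 384 416)) = true := by decide +kernel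
  have c7 : (go 16 Gd mult S169_198_660_808 (Tr.lf 9146238020 99323206 0) 256 384 64 96 448 480) = true := by decide +kernel
  have c8 : (band (go 16 Gd mult S169_198_586_660 (Tr.lf 4304570436 103779397 0) 256 384 96 128 448 480)
  (go 16 Gd mult S140_169_660_808 (Tr.lf 9145959492 103517255 0) 256 384 96 128 448 480)) = true := by decide +kernel
  have c9 : (go 16 Gd mult S169_198_586_660 (Tr.lf 9145828420 103250888 0) 256 384 96 128 480 512) = true := by decide +kernel
  (And.intro (Ok.s2 448 (Ok.s3 183 (Ok.lf S169_183_586_660_ok (bl c0))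
  (Ok.lf S183_198_586_660_ok (br c0)))
  (Ok.s2 480 (Ok.lf S169_198_586_660_ok (bl c8))
  (Ok.lf S169_198_586_660_ok c9)))
  (And.intro (Ok.s3 169 (Ok.s1 96 (Ok.s2 416 (Ok.lf S140_169_660_808_ok (br (br c5)))
  (Ok.lf S140_169_660_808_ok (bl c5)))
  (Ok.s2 416 (Ok.s1 112 (Ok.lf S140_169_660_808_ok (bl c6))
  (Ok.lf S140_169_660_808_ok (br c6)))
  (Ok.lf S140_169_660_808_ok c1)))
  (Ok.s1 96 (Ok.lf S169_198_660_808_ok (bl c2))
  (Ok.s2 416 (Ok.lf S169_198_660_808_ok c3)
  (Ok.lf S169_198_660_808_ok c4))))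
  (Ok.s3 169 (Ok.s1 96 (Ok.lf S140_169_660_808_ok (bl (br c5)))
  (Ok.lf S140_169_660_808_ok (br c8)))
  (Ok.s1 96 (Ok.lf S169_198_660_808_ok c7)
  (Ok.lf S169_198_660_808_ok (br c2))))))

end Vale.Agent.P098.Ck
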