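import Vale.Agent.P098.CkGd
import Vale.Agent.P098.CkOk
import Vale.Agent.P098.Sh.A10
import Vale.Agent.P098.Sh.A19
import Vale.Agent.P098.Sh.A23
import Vale.Agent.P098.Sh.A30
import Vale.Agent.P098.Sh.A36

namespace Vale.Agent.P098.Ck

theorem r441 :
    Ok Gd mult 256 384 64 128 480 512 140 198 660 808 ∧
    Ok Gd mult 256 384 64 128 384 448 198 256 216 364 ∧
    Ok Gd mult 256 384 64 96 448 480 198 227 216 364 :=
  have c0 : (band (go 16 Gd mult S198_212_216_364 (Tr.lf 9154611332 103521224 0) 256 384 64 96 384 448)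
  (go 16 Gd mult S212_227_216_364 (Tr.lf 9145164868 94997192 0) 256 384 64 96 384 448)) = true := by decide +kernel
  have c1 : (band (go 16 Gd mult S212_227_216_364 (Tr.lf 13449577608 94862281 0) 256 384 96 128 416 448)
  (go 16 Gd mult S212_227_216_364 (Tr.lf 9154610244 99322952 0) 256 384 96 128 384 416)) = true := by decide +kernel
  have c2 : (go 16 Gd mult S227_256_216_364 (Tr.lf 8608303236 90933960 0) 256 384 64 128 384 448) = true := by decide +kernel
  have c3 : (band (go 16 Gd mult S198_212_290_364 (Tr.lf 13986187400 107318089 0) 256 384 64 96 448 480)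
  (go 16 Gd mult S198_212_290_364 (Tr.lf 13449315460 94993353 0) 256 384 96 128 384 416)) = true := by decide +kernel
  have c4 : (band (go 16 Gd mult S169_198_660_808 (Tr.lf 9145975940 95001671 0) 256 384 64 128 480 496)
  (band (go 16 Gd mult S140_169_660_808 (Tr.lf 9145959556 103251143 0) 256 384 64 128 480 496)
  (go 16 Gd mult S140_169_660_808 (Tr.lf 9145959044 99056584 0) 256 384 64 128 496 512))) = true := by decide +kernel
  have c5 : (band (go 16 Gd mult S198_212_216_290 (Tr.lf 13986186376 103381961 0) 256 384 96 128 384 416)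
  (go 16 Gd mult S198_212_216_290 (Tr.lf 13986186376 107580233 0) 256 384 96 128 416 448)) = true := by decide +kernel
  have c6 : (go 16 Gd mult S198_212_290_364 (Tr.lf 13986186376 107580233 0) 256 384 96 128 416 448) = true := by decide +kernel
  have c7 : (go 16 Gd mult S212_227_216_364 (Tr.lf 13449578564 94866249 0) 256 384 64 96 448 480) = true := by decide +kernel
  have c8 : (go 16 Gd mult S169_198_660_808 (Tr.lf 9145959556 94993352 0) 256 384 64 128 496 512) = true := by decide +kernel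
  have c9 : (band (go 16 Gd mult S198_212_216_290 (Tr.lf 13449315460 98929481 0) 256 384 64 96 448 464)
  (go 16 Gd mult S198_212_216_290 (Tr.lf 13449315460 94870472 0) 256 384 64 96 464 480)) = true := by decide +kernel
  (And.intro (Ok.s2 496 (Ok.s3 169 (Ok.lf S140_169_660_808_ok (bl (br c4)))
  (Ok.lf S169_198_660_808_ok (bl c4)))
  (Ok.s3 169 (Ok.lf S140_169_660_808_ok (br (br c4)))
  (Ok.lf S169_198_660_808_ok c8)))
  (And.intro (Ok.s3 227 (Ok.s1 96 (Ok.s3 212 (Ok.lf S198_212_216_364_ok (bl c0))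
  (Ok.lf S212_227_216_364_ok (br c0)))
  (Ok.s3 212 (Ok.s4 290 (Ok.s2 416 (Ok.lf S198_212_216_290_ok (bl c5))
  (Ok.lf S198_212_216_290_ok (br c5)))
  (Ok.s2 416 (Ok.lf S198_212_290_364_ok (br c3))
  (Ok.lf S198_212_290_364_ok c6)))
  (Ok.s2 416 (Ok.lf S212_227_216_364_ok (br c1))
  (Ok.lf S212_227_216_364_ok (bl c1)))))
  (Ok.lf S227_256_216_364_ok c2))
  (Ok.s3 212 (Ok.s4 290 (Ok.s2 464 (Ok.lf S198_212_216_290_ok (bl c9))
  (Ok.lf S198_212_216_290_ok (br c9)))
  (Ok.lf S198_212_290_364_ok (bl c3)))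
  (Ok.lf S212_227_216_364_ok c7))))

end Vale.Agent.P098.Ck
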