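import Vale.Agent.P098.CkGd
import Vale.Agent.P098.CkOk
import Vale.Agent.P098.Sh.A2
import Vale.Agent.P098.Sh.A3
import Vale.Agent.P098.Sh.A5
import Vale.Agent.P098.Sh.A6

namespace Vale.Agent.P098.Ck

theorem r462 :
    Ok Gd mult 256 384 128 192 192 256 82 140 216 364 ∧
    Ok Gd mult 256 384 128 192 128 256 82 140 364 512 ∧
    Ok Gd mult 256 384 128 192 128 256 82 140 512 808 :=
  have c0 : (go 16 Gd mult S82_111_364_512 (Tr.lf 13432424584 103640135 0) 256 384 128 160 128 256) = true := by decide +kernel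
  have c1 : (go 16 Gd mult S82_111_364_512 (Tr.lf 13432424584 99454023 0) 256 384 160 192 128 256) = true := by decide +kernel
  have c2 : (go 16 Gd mult S82_111_216_364 (Tr.lf 13432554632 95259719 0) 256 384 128 192 192 256) = true := by decide +kernel
  have c3 : (band (go 16 Gd mult S111_140_216_364 (Tr.lf 13977814152 99457864 0) 256 384 128 160 192 256)
  (go 16 Gd mult S82_111_512_660 (Tr.lf 13432407176 103640135 0) 256 384 128 160 192 256)) = true := by decide +kernel
  have c4 : (band (go 16 Gd mult S111_140_216_364 (Tr.lf 13978076232 99585223 0) 256 384 160 192 192 256)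
  (go 16 Gd mult S82_111_512_660 (Tr.lf 13432407112 99454023 0) 256 384 160 192 192 256)) = true := by decide +kernel
  have c5 : (go 16 Gd mult S111_140_364_512 (Tr.lf 13440944200 103521096 0) 256 384 128 160 128 256) = true := by decide +kernel
  have c6 : (go 16 Gd mult S111_140_364_512 (Tr.lf 13432555592 103640263 0) 256 384 160 192 128 256) = true := by decide +kernel
  have c7 : (go 16 Gd mult S82_111_660_808 (Tr.lf 13432554632 99454023 0) 256 384 128 192 192 256) = true := by decide +kernel
  have c8 : (go 16 Gd mult S111_140_512_660 (Tr.lf 13432555588 103640263 0) 256 384 160 192 128 256) = true := by decide +kernel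
  have c9 : (band (go 16 Gd mult S111_140_660_808 (Tr.lf 13432538248 103640008 0) 256 384 128 192 192 256)
  (band (go 16 Gd mult S111_140_660_808 (Tr.lf 13432538244 103648327 0) 256 384 128 192 128 192)
  (go 16 Gd mult S82_111_512_660 (Tr.lf 13432407176 99454023 0) 256 384 128 192 128 192))) = true := by decide +kernel
  have c10 : (go 16 Gd mult S82_111_660_808 (Tr.lf 13432407176 99454023 0) 256 384 128 192 128 192) = true := by decide +kernel
  have c11 : (go 16 Gd mult S111_140_512_660 (Tr.lf 13432538180 103512904 0) 256 384 128 160 192 256) = true := by decide +kernel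
  have c12 : (go 16 Gd mult S111_140_512_660 (Tr.lf 13432406596 103513159 0) 256 384 128 160 128 192) = true := by decide +kernel
  (And.intro (Ok.s3 111 (Ok.lf S82_111_216_364_ok c2)
  (Ok.s1 160 (Ok.lf S111_140_216_364_ok (bl c3))
  (Ok.lf S111_140_216_364_ok (bl c4))))
  (And.intro (Ok.s3 111 (Ok.s1 160 (Ok.lf S82_111_364_512_ok c0)
  (Ok.lf S82_111_364_512_ok c1))
  (Ok.s1 160 (Ok.lf S111_140_364_512_ok c5)
  (Ok.lf S111_140_364_512_ok c6)))
  (Ok.s4 660 (Ok.s3 111 (Ok.s2 192 (Ok.lf S82_111_512_660_ok (br (br c9)))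
  (Ok.s1 160 (Ok.lf S82_111_512_660_ok (br c3))
  (Ok.lf S82_111_512_660_ok (br c4))))
  (Ok.s1 160 (Ok.s2 192 (Ok.lf S111_140_512_660_ok c12)
  (Ok.lf S111_140_512_660_ok c11))
  (Ok.lf S111_140_512_660_ok c8)))
  (Ok.s3 111 (Ok.s2 192 (Ok.lf S82_111_660_808_ok c10)
  (Ok.lf S82_111_660_808_ok c7))
  (Ok.s2 192 (Ok.lf S111_140_660_808_ok (bl (br c9)))
  (Ok.lf S111_140_660_808_ok (bl c9)))))))

end Vale.Agent.P098.Ck
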