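import Vale.Agent.P098.CkGd
import Vale.Agent.P098.CkOk
import Vale.Agent.P098.Sh.A14
import Vale.Agent.P098.Sh.A15
import Vale.Agent.P098.Sh.A18
import Vale.Agent.P098.Sh.A20
import Vale.Agent.P098.Sh.A21
import Vale.Agent.P098.Sh.A9

namespace Vale.Agent.P098.Ck

theorem r464 :
    Ok Gd mult 256 384 160 192 192 256 169 183 216 364 ∧
    Ok Gd mult 256 384 160 192 192 256 183 198 216 364 ∧
    Ok Gd mult 256 384 128 192 128 256 140 198 364 512 :=
  have c0 : (go 16 Gd mult S169_183_216_290 (Tr.lf 13987498116 86994249 0) 256 320 160 192 192 256) = true := by decide +kernel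
  have c1 : (go 16 Gd mult S169_183_216_290 (Tr.lf 13987252356 99319113 0) 320 384 160 192 192 256) = true := by decide +kernel
  have c2 : (go 16 Gd mult S169_183_290_364 (Tr.lf 13986187400 99318857 0) 256 384 160 192 192 256) = true := by decide +kernel
  have c3 : (go 16 Gd mult S183_198_216_290 (Tr.lf 18281416776 103508938 0) 256 384 176 192 192 256) = true := by decide +kernel
  have c4 : (go 16 Gd mult S183_198_290_364 (Tr.lf 13449316488 103771209 0) 256 384 160 192 192 256) = true := by decide +kernel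
  have c5 : (go 16 Gd mult S140_169_364_438 (Tr.lf 13440944200 103644232 0) 256 384 160 192 128 256) = true := by decide +kernel
  have c6 : (band (go 16 Gd mult S140_169_364_438 (Tr.lf 13440813128 99453896 0) 256 384 128 160 128 256)
  (band (go 16 Gd mult S169_198_364_438 (Tr.lf 9145845828 103775559 0) 256 384 128 160 128 256)
  (go 16 Gd mult S140_169_438_512 (Tr.lf 13440813124 99453896 0) 256 384 128 160 128 256))) = true := by decide +kernel
  have c7 : (band (go 16 Gd mult S140_169_438_512 (Tr.lf 13432424520 103644104 0) 256 384 160 192 128 256)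
  (go 16 Gd mult S169_198_438_512 (Tr.lf 13440813128 107973704 0) 256 384 160 192 128 256)) = true := by decide +kernel
  have c8 : (band (go 16 Gd mult S169_183_364_438 (Tr.lf 13440927816 103906376 0) 256 384 160 192 128 256)
  (go 16 Gd mult S183_198_364_438 (Tr.lf 13440927816 112168008 0) 256 384 160 192 128 256)) = true := by decide +kernel
  have c9 : (go 16 Gd mult S183_198_216_290 (Tr.lf 13440926792 107834568 0) 256 384 160 176 192 256) = true := by decide +kernel
  have c10 : (go 16 Gd mult S169_198_438_512 (Tr.lf 9136392260 103910470 0) 256 384 128 160 128 256) = true := by decide +kernel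
  (And.intro (Ok.s4 290 (Ok.s0 320 (Ok.lf S169_183_216_290_ok c0)
  (Ok.lf S169_183_216_290_ok c1))
  (Ok.lf S169_183_290_364_ok c2))
  (And.intro (Ok.s4 290 (Ok.s1 176 (Ok.lf S183_198_216_290_ok c9)
  (Ok.lf S183_198_216_290_ok c3))
  (Ok.lf S183_198_290_364_ok c4))
  (Ok.s4 438 (Ok.s3 169 (Ok.s1 160 (Ok.lf S140_169_364_438_ok (bl c6))
  (Ok.lf S140_169_364_438_ok c5))
  (Ok.s1 160 (Ok.lf S169_198_364_438_ok (bl (br c6)))
  (Ok.s3 183 (Ok.lf S169_183_364_438_ok (bl c8))
  (Ok.lf S183_198_364_438_ok (br c8)))))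
  (Ok.s3 169 (Ok.s1 160 (Ok.lf S140_169_438_512_ok (br (br c6)))
  (Ok.lf S140_169_438_512_ok (bl c7)))
  (Ok.s1 160 (Ok.lf S169_198_438_512_ok c10)
  (Ok.lf S169_198_438_512_ok (br c7)))))))

end Vale.Agent.P098.Ck
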