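import Vale.Agent.P098.CkGd
import Vale.Agent.P098.CkOk
import Vale.Agent.P098.Sh.A10
import Vale.Agent.P098.Sh.A19
import Vale.Agent.P098.Sh.A23
import Vale.Agent.P098.Sh.A25
import Vale.Agent.P098.Sh.A30
import Vale.Agent.P098.Sh.A36

namespace Vale.Agent.P098.Ck

theorem r465 :
    Ok Gd mult 256 384 128 192 128 256 140 198 512 660 ∧
    Ok Gd mult 256 384 128 192 128 256 140 198 660 808 ∧
    Ok Gd mult 256 384 128 160 128 256 198 256 216 364 ∧
    Ok Gd mult 256 384 160 192 128 256 198 256 216 290 :=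
  have c0 : (go 16 Gd mult S140_169_512_660 (Tr.lf 13432555592 103644104 0) 256 384 160 192 128 256) = true := by decide +kernel
  have c1 : (go 16 Gd mult S169_198_660_808 (Tr.lf 9136523400 103910470 0) 256 384 128 192 128 256) = true := by decide +kernel
  have c2 : (go 16 Gd mult S198_212_216_290 (Tr.lf 17744545864 99187658 0) 256 384 176 192 192 256) = true := by decide +kernel
  have c3 : (go 16 Gd mult S212_227_216_290 (Tr.lf 17744545864 99318730 0) 256 384 176 192 192 256) = true := by decide +kernel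
  have c4 : (band (go 16 Gd mult S198_227_216_364 (Tr.lf 8608319524 104037447 0) 256 384 128 160 128 256)
  (band (go 16 Gd mult S140_169_512_660 (Tr.lf 9145976900 108104775 0) 256 384 128 160 128 256)
  (go 16 Gd mult S169_198_512_660 (Tr.lf 9136522308 103779398 0) 256 384 128 160 128 256))) = true := by decide +kernel
  have c5 : (band (go 16 Gd mult S198_227_216_290 (Tr.lf 13439894600 108100552 0) 256 384 160 192 128 192)
  (band (go 16 Gd mult S227_256_216_290 (Tr.lf 17734845508 99441354 0) 256 384 160 192 128 192)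
  (band (go 16 Gd mult S169_198_512_660 (Tr.lf 13431489092 107834439 0) 256 384 160 192 128 192)
  (go 16 Gd mult S198_227_216_290 (Tr.lf 13439894568 103775176 0) 256 384 160 176 192 256)))) = true := by decide +kernel
  have c6 : (band (go 16 Gd mult S227_256_216_290 (Tr.lf 13439894600 99711944 0) 256 384 160 192 192 256)
  (go 16 Gd mult S169_198_512_660 (Tr.lf 13439894596 103648072 0) 256 384 160 192 192 256)) = true := by decide +kernel
  have c7 : (band (go 16 Gd mult S140_169_660_808 (Tr.lf 9137570948 108108743 0) 256 384 128 192 192 256)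
  (go 16 Gd mult S140_169_660_808 (Tr.lf 13431489156 103643848 0) 256 384 128 192 128 192)) = true := by decide +kernel
  have c8 : (go 16 Gd mult S227_256_216_364 (Tr.lf 8590214178 108092103 0) 256 384 128 160 128 256) = true := by decide +kernel
  (And.intro (Ok.s3 169 (Ok.s1 160 (Ok.lf S140_169_512_660_ok (bl (br c4)))
  (Ok.lf S140_169_512_660_ok c0))
  (Ok.s1 160 (Ok.lf S169_198_512_660_ok (br (br c4)))
  (Ok.s2 192 (Ok.lf S169_198_512_660_ok (bl (br (br c5))))
  (Ok.lf S169_198_512_660_ok (br c6)))))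
  (And.intro (Ok.s3 169 (Ok.s2 192 (Ok.lf S140_169_660_808_ok (br c7))
  (Ok.lf S140_169_660_808_ok (bl c7)))
  (Ok.lf S169_198_660_808_ok c1))
  (And.intro (Ok.s3 227 (Ok.lf S198_227_216_364_ok (bl c4))
  (Ok.lf S227_256_216_364_ok c8))
  (Ok.s2 192 (Ok.s3 227 (Ok.lf S198_227_216_290_ok (bl c5))
  (Ok.lf S227_256_216_290_ok (bl (br c5))))
  (Ok.s3 227 (Ok.s1 176 (Ok.lf S198_227_216_290_ok (br (br (br c5))))
  (Ok.s3 212 (Ok.lf S198_212_216_290_ok c2)
  (Ok.lf S212_227_216_290_ok c3)))
  (Ok.lf S227_256_216_290_ok (bl c6)))))))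

end Vale.Agent.P098.Ck
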