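import Vale.Agent.P098.CkGd
import Vale.Agent.P098.CkOk
import Vale.Agent.P098.Sh.A54
import Vale.Agent.P098.Sh.A56

namespace Vale.Agent.P098.Ck

theorem r468 :
    Ok Gd mult 256 384 128 192 128 256 372 401 216 364 ∧
    Ok Gd mult 256 384 128 192 128 256 401 430 216 364 ∧
    Ok Gd mult 256 384 128 192 128 256 372 430 364 512 :=
  have c0 : (band (go 16 Gd mult S401_430_364_512 (Tr.lf 13422987400 103762505 0) 256 384 128 160 128 256)
  (go 16 Gd mult S401_430_364_512 (Tr.lf 13969295428 99454024 0) 320 384 160 192 192 256)) = true := by decide +kernel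
  have c1 : (go 16 Gd mult S401_430_364_512 (Tr.lf 13969295496 95390792 0) 256 384 160 192 128 192) = true := by decide +kernel
  have c2 : (band (go 16 Gd mult S372_401_216_364 (Tr.lf 13431507016 103770697 0) 256 384 128 160 128 256)
  (go 16 Gd mult S372_401_216_364 (Tr.lf 13969425476 86998088 0) 256 320 160 192 192 256)) = true := by decide +kernel
  have c3 : (band (go 16 Gd mult S401_430_216_364 (Tr.lf 13423118408 103762505 0) 256 384 128 160 128 256)
  (go 16 Gd mult S401_430_216_364 (Tr.lf 13969425476 95390792 0) 320 384 160 192 128 192)) = true := by decide +kernel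
  have c4 : (band (go 16 Gd mult S372_401_364_512 (Tr.lf 13431507016 99576393 0) 256 384 128 160 128 256)
  (go 16 Gd mult S372_401_364_512 (Tr.lf 18264392772 99314633 0) 256 320 160 192 128 192)) = true := by decide +kernel
  have c5 : (band (go 16 Gd mult S401_430_364_512 (Tr.lf 18265311364 86854475 0) 256 320 160 192 192 256)
  (go 16 Gd mult S401_430_216_364 (Tr.lf 18265442372 86854475 0) 256 320 160 192 192 256)) = true := by decide +kernel
  have c6 : (band (go 16 Gd mult S372_401_216_364 (Tr.lf 18264393796 103508682 0) 256 320 160 192 128 192)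
  (go 16 Gd mult S401_430_216_364 (Tr.lf 18265442372 95251402 0) 256 320 160 192 128 192)) = true := by decide +kernel
  have c7 : (band (go 16 Gd mult S372_401_216_364 (Tr.lf 13432539204 103775304 0) 320 384 160 192 128 256)
  (go 16 Gd mult S372_401_364_512 (Tr.lf 13432408132 103775304 0) 320 384 160 192 128 256)) = true := by decide +kernel
  have c8 : (go 16 Gd mult S401_430_216_364 (Tr.lf 13969410116 95259720 0) 320 384 160 192 192 256) = true := by decide +kernel
  have c9 : (go 16 Gd mult S372_401_364_512 (Tr.lf 13969425476 86998088 0) 256 320 160 192 192 256) = true := by decide +kernel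
  (And.intro (Ok.s1 160 (Ok.lf S372_401_216_364_ok (bl c2))
  (Ok.s0 320 (Ok.s2 192 (Ok.lf S372_401_216_364_ok (bl c6))
  (Ok.lf S372_401_216_364_ok (br c2)))
  (Ok.lf S372_401_216_364_ok (bl c7))))
  (And.intro (Ok.s1 160 (Ok.lf S401_430_216_364_ok (bl c3))
  (Ok.s2 192 (Ok.s0 320 (Ok.lf S401_430_216_364_ok (br c6))
  (Ok.lf S401_430_216_364_ok (br c3)))
  (Ok.s0 320 (Ok.lf S401_430_216_364_ok (br c5))
  (Ok.lf S401_430_216_364_ok c8))))
  (Ok.s3 401 (Ok.s1 160 (Ok.lf S372_401_364_512_ok (bl c4))
  (Ok.s0 320 (Ok.s2 192 (Ok.lf S372_401_364_512_ok (br c4))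
  (Ok.lf S372_401_364_512_ok c9))
  (Ok.lf S372_401_364_512_ok (br c7))))
  (Ok.s1 160 (Ok.lf S401_430_364_512_ok (bl c0))
  (Ok.s2 192 (Ok.lf S401_430_364_512_ok c1)
  (Ok.s0 320 (Ok.lf S401_430_364_512_ok (bl c5))
  (Ok.lf S401_430_364_512_ok (br c0))))))))

end Vale.Agent.P098.Ck
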