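import Vale.Agent.P098.CkGd
import Vale.Agent.P098.CkOk
import Vale.Agent.P098.Sh.A2
import Vale.Agent.P098.Sh.A4
import Vale.Agent.P098.Sh.A6

namespace Vale.Agent.P098.Ck

theorem r473 :
    Ok Gd mult 256 384 128 192 320 384 82 111 216 364 ∧
    Ok Gd mult 256 384 128 192 256 384 111 140 216 364 ∧
    Ok Gd mult 256 384 128 192 256 384 82 111 364 512 :=
  have c0 : (go 16 Gd mult S82_111_364_512 (Tr.lf 13978732680 103521352 0) 256 384 128 160 256 320) = true := by decide +kernel
  have c1 : (go 16 Gd mult S82_111_364_512 (Tr.lf 13978732680 103386312 0) 256 384 128 160 320 384) = true := by decide +kernel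
  have c2 : (go 16 Gd mult S82_111_216_364 (Tr.lf 13978862728 107715656 0) 256 384 128 160 320 352) = true := by decide +kernel
  have c3 : (go 16 Gd mult S82_111_216_364 (Tr.lf 13978862728 103386312 0) 256 384 128 160 352 384) = true := by decide +kernel
  have c4 : (band (go 16 Gd mult S82_111_216_364 (Tr.lf 13969426504 107568200 0) 256 384 160 192 320 384)
  (go 16 Gd mult S111_125_216_364 (Tr.lf 13977798724 99318856 0) 256 384 160 192 320 384)) = true := by decide +kernel
  have c5 : (go 16 Gd mult S125_140_216_364 (Tr.lf 13978847368 99450056 0) 256 384 128 160 256 320) = true := by decide +kernel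
  have c6 : (band (go 16 Gd mult S125_140_216_364 (Tr.lf 13979108488 103521480 0) 256 384 160 192 256 320)
  (go 16 Gd mult S111_125_216_364 (Tr.lf 13978846280 107842760 0) 256 384 160 192 256 320)) = true := by decide +kernel
  have c7 : (go 16 Gd mult S111_125_216_364 (Tr.lf 13978847368 103386312 0) 256 384 128 160 320 384) = true := by decide +kernel
  have c8 : (go 16 Gd mult S125_140_216_364 (Tr.lf 13979109448 103513416 0) 256 384 160 192 320 384) = true := by decide +kernel
  have c9 : (band (go 16 Gd mult S82_111_364_512 (Tr.lf 13977684040 107584456 0) 256 384 160 192 256 320)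
  (go 16 Gd mult S82_111_364_512 (Tr.lf 13969295432 107568200 0) 256 384 160 192 320 384)) = true := by decide +kernel
  have c10 : (go 16 Gd mult S111_125_216_364 (Tr.lf 13978846344 103521352 0) 256 384 128 160 256 320) = true := by decide +kernel
  have c11 : (band (go 16 Gd mult S125_140_216_364 (Tr.lf 13978846344 99450056 0) 256 384 128 160 320 352)
  (go 16 Gd mult S125_140_216_364 (Tr.lf 13978846344 103386312 0) 256 384 128 160 352 384)) = true := by decide +kernel
  (And.intro (Ok.s1 160 (Ok.s2 352 (Ok.lf S82_111_216_364_ok c2)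
  (Ok.lf S82_111_216_364_ok c3))
  (Ok.lf S82_111_216_364_ok (bl c4)))
  (And.intro (Ok.s2 320 (Ok.s1 160 (Ok.s3 125 (Ok.lf S111_125_216_364_ok c10)
  (Ok.lf S125_140_216_364_ok c5))
  (Ok.s3 125 (Ok.lf S111_125_216_364_ok (br c6))
  (Ok.lf S125_140_216_364_ok (bl c6))))
  (Ok.s1 160 (Ok.s3 125 (Ok.lf S111_125_216_364_ok c7)
  (Ok.s2 352 (Ok.lf S125_140_216_364_ok (bl c11))
  (Ok.lf S125_140_216_364_ok (br c11))))
  (Ok.s3 125 (Ok.lf S111_125_216_364_ok (br c4))
  (Ok.lf S125_140_216_364_ok c8))))
  (Ok.s2 320 (Ok.s1 160 (Ok.lf S82_111_364_512_ok c0)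
  (Ok.lf S82_111_364_512_ok (bl c9)))
  (Ok.s1 160 (Ok.lf S82_111_364_512_ok c1)
  (Ok.lf S82_111_364_512_ok (br c9))))))

end Vale.Agent.P098.Ck
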