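import Vale.Agent.P098.CkGd
import Vale.Agent.P098.CkOk
import Vale.Agent.P098.Sh.A3
import Vale.Agent.P098.Sh.A4
import Vale.Agent.P098.Sh.A5
import Vale.Agent.P098.Sh.A6

namespace Vale.Agent.P098.Ck

theorem r474 :
    Ok Gd mult 256 384 128 192 256 320 111 140 364 512 ∧
    Ok Gd mult 256 384 128 192 320 384 111 140 364 512 ∧
    Ok Gd mult 256 384 128 192 256 384 82 140 512 660 :=
  have c0 : (go 16 Gd mult S82_111_512_660 (Tr.lf 13978732680 103386312 0) 256 384 128 160 320 384) = true := by decide +kernel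
  have c1 : (band (go 16 Gd mult S111_140_364_512 (Tr.lf 13978863688 103521480 0) 256 384 160 192 256 320)
  (go 16 Gd mult S82_111_512_660 (Tr.lf 13432407112 99187656 0) 256 384 160 192 256 320)) = true := by decide +kernel
  have c2 : (go 16 Gd mult S125_140_364_512 (Tr.lf 13978847368 103386312 0) 256 384 128 160 320 384) = true := by decide +kernel
  have c3 : (band (go 16 Gd mult S111_140_364_512 (Tr.lf 13978863688 103513416 0) 256 384 160 192 320 384)
  (go 16 Gd mult S111_140_364_512 (Tr.lf 13977813576 99457864 0) 256 384 128 160 256 288)) = true := by decide +kernel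
  have c4 : (go 16 Gd mult S111_140_512_660 (Tr.lf 13978862728 99458120 0) 256 384 128 160 256 320) = true := by decide +kernel
  have c5 : (go 16 Gd mult S125_140_512_660 (Tr.lf 13978847368 103386312 0) 256 384 128 160 320 384) = true := by decide +kernel
  have c6 : (go 16 Gd mult S111_140_364_512 (Tr.lf 13978862216 99450056 0) 256 384 128 160 288 320) = true := by decide +kernel
  have c7 : (band (go 16 Gd mult S82_111_512_660 (Tr.lf 13978731656 103521352 0) 256 384 128 160 256 320)
  (go 16 Gd mult S82_111_512_660 (Tr.lf 13969295432 107568200 0) 256 384 160 192 320 384)) = true := by decide +kernel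
  have c8 : (go 16 Gd mult S111_125_512_660 (Tr.lf 13978839176 103386312 0) 256 384 128 160 320 384) = true := by decide +kernel
  have c9 : (band (go 16 Gd mult S111_140_512_660 (Tr.lf 13977814088 103521224 0) 256 384 160 192 256 320)
  (go 16 Gd mult S111_140_512_660 (Tr.lf 13977815108 103513160 0) 256 384 160 192 320 384)) = true := by decide +kernel
  have c10 : (band (go 16 Gd mult S111_125_364_512 (Tr.lf 13978715272 107715656 0) 256 384 128 160 320 352)
  (go 16 Gd mult S111_125_364_512 (Tr.lf 13978715272 103386312 0) 256 384 128 160 352 384)) = true := by decide +kernel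
  (And.intro (Ok.s1 160 (Ok.s2 288 (Ok.lf S111_140_364_512_ok (br c3))
  (Ok.lf S111_140_364_512_ok c6))
  (Ok.lf S111_140_364_512_ok (bl c1)))
  (And.intro (Ok.s1 160 (Ok.s3 125 (Ok.s2 352 (Ok.lf S111_125_364_512_ok (bl c10))
  (Ok.lf S111_125_364_512_ok (br c10)))
  (Ok.lf S125_140_364_512_ok c2))
  (Ok.lf S111_140_364_512_ok (bl c3)))
  (Ok.s3 111 (Ok.s2 320 (Ok.s1 160 (Ok.lf S82_111_512_660_ok (bl c7))
  (Ok.lf S82_111_512_660_ok (br c1)))
  (Ok.s1 160 (Ok.lf S82_111_512_660_ok c0)
  (Ok.lf S82_111_512_660_ok (br c7))))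
  (Ok.s2 320 (Ok.s1 160 (Ok.lf S111_140_512_660_ok c4)
  (Ok.lf S111_140_512_660_ok (bl c9)))
  (Ok.s1 160 (Ok.s3 125 (Ok.lf S111_125_512_660_ok c8)
  (Ok.lf S125_140_512_660_ok c5))
  (Ok.lf S111_140_512_660_ok (br c9)))))))

end Vale.Agent.P098.Ck
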