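import Vale.Agent.P098.CkGd
import Vale.Agent.P098.CkOk
import Vale.Agent.P098.Sh.A14
import Vale.Agent.P098.Sh.A15
import Vale.Agent.P098.Sh.A20
import Vale.Agent.P098.Sh.A21

namespace Vale.Agent.P098.Ck

theorem r477 :
    Ok Gd mult 256 384 160 192 256 320 183 198 216 290 ∧
    Ok Gd mult 256 384 160 192 256 320 183 198 290 364 ∧
    Ok Gd mult 256 384 128 160 320 384 169 198 216 364 ∧
    Ok Gd mult 256 384 160 192 320 384 169 183 216 364 :=
  have c0 : (go 16 Gd mult S183_198_216_290 (Tr.lf 18281416836 99183562 0) 256 320 160 192 256 320) = true := by decide +kernel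
  have c1 : (go 16 Gd mult S169_183_216_290 (Tr.lf 13987498116 90930377 0) 320 384 128 160 320 384) = true := by decide +kernel
  have c2 : (go 16 Gd mult S169_183_290_364 (Tr.lf 13987235976 95124681 0) 256 384 128 160 320 384) = true := by decide +kernel
  have c3 : (go 16 Gd mult S183_198_216_290 (Tr.lf 13986448520 103644105 0) 256 384 128 160 320 352) = true := by decide +kernel
  have c4 : (go 16 Gd mult S183_198_216_290 (Tr.lf 13986448520 103513033 0) 256 384 128 160 352 384) = true := by decide +kernel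
  have c5 : (go 16 Gd mult S169_183_290_364 (Tr.lf 13987235976 107711689 0) 256 384 160 192 320 384) = true := by decide +kernel
  have c6 : (band (go 16 Gd mult S183_198_216_290 (Tr.lf 18281415812 103635914 0) 320 384 160 192 256 288)
  (go 16 Gd mult S183_198_216_290 (Tr.lf 13986448516 99318857 0) 320 384 160 192 288 320)) = true := by decide +kernel
  have c7 : (band (go 16 Gd mult S183_198_290_364 (Tr.lf 13986187396 86867017 0) 256 320 160 192 256 320)
  (go 16 Gd mult S183_198_290_364 (Tr.lf 13986187396 95255625 0) 320 384 160 192 256 320)) = true := by decide +kernel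
  have c8 : (band (go 16 Gd mult S169_183_216_290 (Tr.lf 13987235972 107576521 0) 256 320 128 160 320 384)
  (go 16 Gd mult S169_183_216_290 (Tr.lf 13987234952 103517385 0) 256 384 160 192 352 384)) = true := by decide +kernel
  have c9 : (band (go 16 Gd mult S183_198_290_364 (Tr.lf 13986186376 103644105 0) 256 384 128 160 320 352)
  (go 16 Gd mult S183_198_290_364 (Tr.lf 13986186376 99318729 0) 256 384 128 160 352 384)) = true := by decide +kernel
  have c10 : (band (go 16 Gd mult S169_183_216_290 (Tr.lf 13987234888 99450057 0) 256 384 160 176 320 352)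
  (go 16 Gd mult S169_183_216_290 (Tr.lf 13986186312 107711433 0) 256 384 176 192 320 352)) = true := by decide +kernel
  (And.intro (Ok.s0 320 (Ok.lf S183_198_216_290_ok c0)
  (Ok.s2 288 (Ok.lf S183_198_216_290_ok (bl c6))
  (Ok.lf S183_198_216_290_ok (br c6))))
  (And.intro (Ok.s0 320 (Ok.lf S183_198_290_364_ok (bl c7))
  (Ok.lf S183_198_290_364_ok (br c7)))
  (And.intro (Ok.s3 183 (Ok.s4 290 (Ok.s0 320 (Ok.lf S169_183_216_290_ok (bl c8))
  (Ok.lf S169_183_216_290_ok c1))
  (Ok.lf S169_183_290_364_ok c2))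
  (Ok.s4 290 (Ok.s2 352 (Ok.lf S183_198_216_290_ok c3)
  (Ok.lf S183_198_216_290_ok c4))
  (Ok.s2 352 (Ok.lf S183_198_290_364_ok (bl c9))
  (Ok.lf S183_198_290_364_ok (br c9)))))
  (Ok.s4 290 (Ok.s2 352 (Ok.s1 176 (Ok.lf S169_183_216_290_ok (bl c10))
  (Ok.lf S169_183_216_290_ok (br c10)))
  (Ok.lf S169_183_216_290_ok (br c8)))
  (Ok.lf S169_183_290_364_ok c5)))))

end Vale.Agent.P098.Ck
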