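import Vale.Agent.P098.CkGd
import Vale.Agent.P098.CkOk
import Vale.Agent.P098.Sh.A12
import Vale.Agent.P098.Sh.A15
import Vale.Agent.P098.Sh.A18
import Vale.Agent.P098.Sh.A20
import Vale.Agent.P098.Sh.A21
import Vale.Agent.P098.Sh.A7

namespace Vale.Agent.P098.Ck

theorem r478 :
    Ok Gd mult 256 384 160 192 320 384 183 198 216 364 ∧
    Ok Gd mult 256 384 128 192 256 384 140 169 364 512 ∧
    Ok Gd mult 256 320 128 192 256 320 169 198 364 512 :=
  have c0 : (go 16 Gd mult S183_198_216_290 (Tr.lf 13986448520 99576905 0) 256 384 160 192 320 352) = true := by decide +kernel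
  have c1 : (go 16 Gd mult S183_198_216_290 (Tr.lf 13986448520 103648201 0) 256 384 160 192 352 384) = true := by decide +kernel
  have c2 : (go 16 Gd mult S154_169_364_512 (Tr.lf 13987235976 99454025 0) 256 384 128 160 256 320) = true := by decide +kernel
  have c3 : (go 16 Gd mult S154_169_364_512 (Tr.lf 13987498056 99581129 0) 256 384 160 192 256 320) = true := by decide +kernel
  have c4 : (go 16 Gd mult S140_154_364_512 (Tr.lf 13978847368 107580616 0) 256 384 128 160 320 384) = true := by decide +kernel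
  have c5 : (go 16 Gd mult S154_169_364_512 (Tr.lf 13986449480 107838409 0) 256 384 160 192 320 384) = true := by decide +kernel
  have c6 : (go 16 Gd mult S169_198_364_512 (Tr.lf 13441206340 95120329 0) 256 320 128 160 256 320) = true := by decide +kernel
  have c7 : (band (go 16 Gd mult S183_198_290_364 (Tr.lf 13986186376 95382601 0) 256 384 160 192 320 352)
  (go 16 Gd mult S183_198_290_364 (Tr.lf 13986186376 103648201 0) 256 384 160 192 352 384)) = true := by decide +kernel
  have c8 : (band (go 16 Gd mult S140_154_364_512 (Tr.lf 13987234952 99322953 0) 256 384 128 160 256 320)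
  (go 16 Gd mult S140_154_364_512 (Tr.lf 13987234952 107707593 0) 256 384 160 192 256 320)) = true := by decide +kernel
  have c9 : (go 16 Gd mult S140_154_364_512 (Tr.lf 13987235912 107707593 0) 256 384 160 192 320 384) = true := by decide +kernel
  have c10 : (band (go 16 Gd mult S154_169_364_512 (Tr.lf 13987234952 99322953 0) 256 384 128 160 320 352)
  (go 16 Gd mult S154_169_364_512 (Tr.lf 13987234952 99323208 0) 256 384 128 160 352 384)) = true := by decide +kernel
  have c11 : (band (go 16 Gd mult S183_198_364_512 (Tr.lf 13986449476 90930249 0) 256 320 160 192 256 320)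
  (go 16 Gd mult S169_183_364_512 (Tr.lf 13449577540 95513545 0) 256 320 160 192 256 320)) = true := by decide +kernel
  (And.intro (Ok.s4 290 (Ok.s2 352 (Ok.lf S183_198_216_290_ok c0)
  (Ok.lf S183_198_216_290_ok c1))
  (Ok.s2 352 (Ok.lf S183_198_290_364_ok (bl c7))
  (Ok.lf S183_198_290_364_ok (br c7))))
  (And.intro (Ok.s2 320 (Ok.s1 160 (Ok.s3 154 (Ok.lf S140_154_364_512_ok (bl c8))
  (Ok.lf S154_169_364_512_ok c2))
  (Ok.s3 154 (Ok.lf S140_154_364_512_ok (br c8))
  (Ok.lf S154_169_364_512_ok c3)))
  (Ok.s3 154 (Ok.s1 160 (Ok.lf S140_154_364_512_ok c4)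
  (Ok.lf S140_154_364_512_ok c9))
  (Ok.s1 160 (Ok.s2 352 (Ok.lf S154_169_364_512_ok (bl c10))
  (Ok.lf S154_169_364_512_ok (br c10)))
  (Ok.lf S154_169_364_512_ok c5))))
  (Ok.s1 160 (Ok.lf S169_198_364_512_ok c6)
  (Ok.s3 183 (Ok.lf S169_183_364_512_ok (br c11))
  (Ok.lf S183_198_364_512_ok (bl c11))))))

end Vale.Agent.P098.Ck
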