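import Vale.Agent.P098.CkGd
import Vale.Agent.P098.CkOk
import Vale.Agent.P098.Sh.A10
import Vale.Agent.P098.Sh.A12
import Vale.Agent.P098.Sh.A15
import Vale.Agent.P098.Sh.A21
import Vale.Agent.P098.Sh.A8

namespace Vale.Agent.P098.Ck

theorem r479 :
    Ok Gd mult 256 320 128 192 320 384 169 198 364 512 ∧
    Ok Gd mult 320 384 128 192 256 384 169 198 364 512 ∧
    Ok Gd mult 256 384 128 192 256 320 140 169 512 660 ∧
    Ok Gd mult 256 384 128 160 320 384 140 169 512 660 :=
  have c0 : (go 16 Gd mult S169_183_364_512 (Tr.lf 13986449540 103648073 0) 256 320 128 160 320 384) = true := by decide +kernel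
  have c1 : (band (go 16 Gd mult S183_198_364_512 (Tr.lf 13986449540 99449801 0) 256 320 128 160 320 384)
  (go 16 Gd mult S183_198_364_512 (Tr.lf 13441188930 103635913 0) 320 384 128 160 256 320)) = true := by decide +kernel
  have c2 : (go 16 Gd mult S183_198_364_512 (Tr.lf 13986449540 91065289 0) 256 320 160 192 320 384) = true := by decide +kernel
  have c3 : (go 16 Gd mult S169_183_364_512 (Tr.lf 13441190020 99580745 0) 320 384 128 192 256 320) = true := by decide +kernel
  have c4 : (go 16 Gd mult S169_183_364_512 (Tr.lf 13987498116 95124681 0) 320 384 128 160 320 384) = true := by decide +kernel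
  have c5 : (go 16 Gd mult S183_198_364_512 (Tr.lf 13986449540 95255497 0) 320 384 128 160 320 384) = true := by decide +kernel
  have c6 : (go 16 Gd mult S183_198_364_512 (Tr.lf 13986449540 103640137 0) 320 384 160 192 320 384) = true := by decide +kernel
  have c7 : (go 16 Gd mult S140_169_512_660 (Tr.lf 13978076232 107838536 0) 256 384 160 192 256 320) = true := by decide +kernel
  have c8 : (band (go 16 Gd mult S140_154_512_660 (Tr.lf 13978847368 107580616 0) 256 384 128 160 320 384)
  (go 16 Gd mult S140_154_512_660 (Tr.lf 13977797704 99322824 0) 256 384 128 160 256 320)) = true := by decide +kernel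
  have c9 : (go 16 Gd mult S154_169_512_660 (Tr.lf 13978059912 103517128 0) 256 384 128 160 320 352) = true := by decide +kernel
  have c10 : (band (go 16 Gd mult S169_183_364_512 (Tr.lf 13986449476 95386569 0) 256 320 160 192 320 384)
  (go 16 Gd mult S169_183_364_512 (Tr.lf 13986449476 103517129 0) 320 384 160 192 320 384)) = true := by decide +kernel
  have c11 : (go 16 Gd mult S183_198_364_512 (Tr.lf 13449578564 103640137 0) 320 384 160 192 256 320) = true := by decide +kernel
  have c12 : (band (go 16 Gd mult S154_169_512_660 (Tr.lf 13440926856 99322824 0) 256 384 128 160 256 320)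
  (go 16 Gd mult S154_169_512_660 (Tr.lf 13987234952 99323208 0) 256 384 128 160 352 384)) = true := by decide +kernel
  (And.intro (Ok.s3 183 (Ok.s1 160 (Ok.lf S169_183_364_512_ok c0)
  (Ok.lf S169_183_364_512_ok (bl c10)))
  (Ok.s1 160 (Ok.lf S183_198_364_512_ok (bl c1))
  (Ok.lf S183_198_364_512_ok c2)))
  (And.intro (Ok.s2 320 (Ok.s3 183 (Ok.lf S169_183_364_512_ok c3)
  (Ok.s1 160 (Ok.lf S183_198_364_512_ok (br c1))
  (Ok.lf S183_198_364_512_ok c11)))
  (Ok.s3 183 (Ok.s1 160 (Ok.lf S169_183_364_512_ok c4)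
  (Ok.lf S169_183_364_512_ok (br c10)))
  (Ok.s1 160 (Ok.lf S183_198_364_512_ok c5)
  (Ok.lf S183_198_364_512_ok c6))))
  (And.intro (Ok.s1 160 (Ok.s3 154 (Ok.lf S140_154_512_660_ok (br c8))
  (Ok.lf S154_169_512_660_ok (bl c12)))
  (Ok.lf S140_169_512_660_ok c7))
  (Ok.s3 154 (Ok.lf S140_154_512_660_ok (bl c8))
  (Ok.s2 352 (Ok.lf S154_169_512_660_ok c9)
  (Ok.lf S154_169_512_660_ok (br c12)))))))

end Vale.Agent.P098.Ck
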