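import Vale.Agent.P098.CkGd
import Vale.Agent.P098.CkOk
import Vale.Agent.P098.Sh.A23
import Vale.Agent.P098.Sh.A30
import Vale.Agent.P098.Sh.A31
import Vale.Agent.P098.Sh.A34
import Vale.Agent.P098.Sh.A39

namespace Vale.Agent.P098.Ck

theorem r482 :
    Ok Gd mult 256 384 160 192 256 320 198 227 290 364 ∧
    Ok Gd mult 256 384 160 192 320 384 198 227 216 364 ∧
    Ok Gd mult 256 384 128 192 256 320 227 256 216 364 :=
  have c0 : (go 16 Gd mult S198_212_216_290 (Tr.lf 13986448520 91061321 0) 256 384 160 192 320 352) = true := by decide +kernel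
  have c1 : (go 16 Gd mult S198_212_216_290 (Tr.lf 13986448520 99576905 0) 256 384 160 192 352 384) = true := by decide +kernel
  have c2 : (go 16 Gd mult S212_227_216_290 (Tr.lf 13449577608 103640137 0) 256 384 160 192 320 352) = true := by decide +kernel
  have c3 : (go 16 Gd mult S212_227_216_290 (Tr.lf 13986448520 99318857 0) 256 384 160 192 352 384) = true := by decide +kernel
  have c4 : (go 16 Gd mult S198_212_290_364 (Tr.lf 13986203780 90930249 0) 256 320 160 192 320 384) = true := by decide +kernel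
  have c5 : (go 16 Gd mult S212_227_290_364 (Tr.lf 18281171076 99183562 0) 256 320 160 192 320 384) = true := by decide +kernel
  have c6 : (band (go 16 Gd mult S227_241_216_364 (Tr.lf 13448529960 103643977 0) 256 384 176 192 256 320)
  (go 16 Gd mult S212_227_290_364 (Tr.lf 13449316424 103902281 0) 256 384 176 192 256 320)) = true := by decide +kernel
  have c7 : (band (go 16 Gd mult S198_212_290_364 (Tr.lf 13449315464 103771209 0) 256 384 160 192 256 288)
  (go 16 Gd mult S198_212_290_364 (Tr.lf 13449315464 103640137 0) 256 384 160 192 288 320)) = true := by decide +kernel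
  have c8 : (band (go 16 Gd mult S198_212_290_364 (Tr.lf 13986187396 91061321 0) 320 384 160 192 320 384)
  (band (go 16 Gd mult S212_227_290_364 (Tr.lf 13449316484 103640137 0) 320 384 160 192 320 384)
  (go 16 Gd mult S212_227_290_364 (Tr.lf 13448267812 107707209 0) 256 384 160 176 256 320))) = true := by decide +kernel
  have c9 : (go 16 Gd mult S241_256_216_364 (Tr.lf 9144116356 95521607 0) 256 384 128 192 256 320) = true := by decide +kernel
  have c10 : (go 16 Gd mult S227_241_216_364 (Tr.lf 13440140324 99449545 0) 256 384 160 176 256 320) = true := by decide +kernel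
  have c11 : (go 16 Gd mult S227_241_216_364 (Tr.lf 8606983204 103775047 0) 256 384 128 160 256 320) = true := by decide +kernel
  (And.intro (Ok.s3 212 (Ok.s2 288 (Ok.lf S198_212_290_364_ok (bl c7))
  (Ok.lf S198_212_290_364_ok (br c7)))
  (Ok.s1 176 (Ok.lf S212_227_290_364_ok (br (br c8)))
  (Ok.lf S212_227_290_364_ok (br c6))))
  (And.intro (Ok.s4 290 (Ok.s3 212 (Ok.s2 352 (Ok.lf S198_212_216_290_ok c0)
  (Ok.lf S198_212_216_290_ok c1))
  (Ok.s2 352 (Ok.lf S212_227_216_290_ok c2)
  (Ok.lf S212_227_216_290_ok c3)))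
  (Ok.s0 320 (Ok.s3 212 (Ok.lf S198_212_290_364_ok c4)
  (Ok.lf S212_227_290_364_ok c5))
  (Ok.s3 212 (Ok.lf S198_212_290_364_ok (bl c8))
  (Ok.lf S212_227_290_364_ok (bl (br c8))))))
  (Ok.s3 241 (Ok.s1 160 (Ok.lf S227_241_216_364_ok c11)
  (Ok.s1 176 (Ok.lf S227_241_216_364_ok c10)
  (Ok.lf S227_241_216_364_ok (bl c6))))
  (Ok.lf S241_256_216_364_ok c9))))

end Vale.Agent.P098.Ck
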