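import Vale.Agent.P098.CkGd
import Vale.Agent.P098.CkOk
import Vale.Agent.P098.Sh.A10
import Vale.Agent.P098.Sh.A19
import Vale.Agent.P098.Sh.A23

namespace Vale.Agent.P098.Ck

theorem r495 :
    Ok Gd mult 256 384 128 192 384 512 140 169 660 808 ∧
    Ok Gd mult 256 384 128 192 384 512 169 198 660 808 ∧
    Ok Gd mult 256 384 128 192 384 448 198 212 216 364 :=
  have c0 : (go 16 Gd mult S140_169_660_808 (Tr.lf 13441991816 90934472 0) 256 384 128 160 384 416) = true := by decide +kernel
  have c1 : (go 16 Gd mult S140_169_660_808 (Tr.lf 9145976964 99322824 0) 256 384 128 192 448 512) = true := by decide +kernel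
  have c2 : (go 16 Gd mult S169_198_660_808 (Tr.lf 13978076232 103517128 0) 256 384 128 160 384 416) = true := by decide +kernel
  have c3 : (go 16 Gd mult S169_198_660_808 (Tr.lf 13441206340 103255112 0) 256 384 160 192 384 448) = true := by decide +kernel
  have c4 : (go 16 Gd mult S198_212_216_290 (Tr.lf 13986448520 99318729 0) 256 384 128 160 384 416) = true := by decide +kernel
  have c5 : (go 16 Gd mult S198_212_216_290 (Tr.lf 13986448520 103390280 0) 256 384 128 160 416 448) = true := by decide +kernel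
  have c6 : (go 16 Gd mult S198_212_290_364 (Tr.lf 13986203780 99318729 0) 256 320 128 160 384 448) = true := by decide +kernel
  have c7 : (go 16 Gd mult S198_212_216_290 (Tr.lf 13986448520 103648201 0) 256 384 160 192 384 416) = true := by decide +kernel
  have c8 : (go 16 Gd mult S198_212_216_290 (Tr.lf 13986448520 103517129 0) 256 384 160 192 416 448) = true := by decide +kernel
  have c9 : (go 16 Gd mult S198_212_290_364 (Tr.lf 13986203780 103517129 0) 256 320 160 192 384 448) = true := by decide +kernel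
  have c10 : (band (go 16 Gd mult S140_169_660_808 (Tr.lf 13440943176 94862153 0) 256 384 128 160 416 448)
  (go 16 Gd mult S169_198_660_808 (Tr.lf 13441205316 94862408 0) 256 384 128 160 416 448)) = true := by decide +kernel
  have c11 : (go 16 Gd mult S140_169_660_808 (Tr.lf 13440944196 99060553 0) 256 384 160 192 384 448) = true := by decide +kernel
  have c12 : (band (go 16 Gd mult S198_212_290_364 (Tr.lf 13986187396 99318729 0) 320 384 128 160 384 448)
  (go 16 Gd mult S198_212_290_364 (Tr.lf 13986187396 111905737 0) 320 384 160 192 384 448)) = true := by decide +kernel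
  have c13 : (band (go 16 Gd mult S169_198_660_808 (Tr.lf 9145959556 103517383 0) 256 384 128 192 448 480)
  (go 16 Gd mult S169_198_660_808 (Tr.lf 4841554498 107842502 0) 256 384 128 192 480 512)) = true := by decide +kernel
  (And.intro (Ok.s2 448 (Ok.s1 160 (Ok.s2 416 (Ok.lf S140_169_660_808_ok c0)
  (Ok.lf S140_169_660_808_ok (bl c10)))
  (Ok.lf S140_169_660_808_ok c11))
  (Ok.lf S140_169_660_808_ok c1))
  (And.intro (Ok.s2 448 (Ok.s1 160 (Ok.s2 416 (Ok.lf S169_198_660_808_ok c2)
  (Ok.lf S169_198_660_808_ok (br c10)))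
  (Ok.lf S169_198_660_808_ok c3))
  (Ok.s2 480 (Ok.lf S169_198_660_808_ok (bl c13))
  (Ok.lf S169_198_660_808_ok (br c13))))
  (Ok.s1 160 (Ok.s4 290 (Ok.s2 416 (Ok.lf S198_212_216_290_ok c4)
  (Ok.lf S198_212_216_290_ok c5))
  (Ok.s0 320 (Ok.lf S198_212_290_364_ok c6)
  (Ok.lf S198_212_290_364_ok (bl c12))))
  (Ok.s4 290 (Ok.s2 416 (Ok.lf S198_212_216_290_ok c7)
  (Ok.lf S198_212_216_290_ok c8))
  (Ok.s0 320 (Ok.lf S198_212_290_364_ok c9)
  (Ok.lf S198_212_290_364_ok (br c12)))))))

end Vale.Agent.P098.Ck
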