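import Vale.Agent.P098.CkGd
import Vale.Agent.P098.CkOk
import Vale.Agent.P098.Sh.A54
import Vale.Agent.P098.Sh.A57

namespace Vale.Agent.P098.Ck

theorem r501 :
    Ok Gd mult 256 384 128 192 384 448 372 430 512 660 ∧
    Ok Gd mult 256 384 128 192 448 512 372 430 512 660 ∧
    Ok Gd mult 256 384 128 192 384 512 372 430 660 808 :=
  have c0 : (band (go 16 Gd mult S401_430_512_660 (Tr.lf 13970344072 91056970 0) 256 384 160 192 384 448)
  (go 16 Gd mult S372_401_512_660 (Tr.lf 9675376708 99449801 0) 256 384 160 192 384 448)) = true := by decide +kernel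
  have c1 : (band (go 16 Gd mult S401_430_512_660 (Tr.lf 1093830792 86481992 4076730559797275918336) 256 384 128 160 448 512)
  (go 16 Gd mult S401_430_512_660 (Tr.lf 9683765316 91065289 0) 256 384 128 160 384 448)) = true := by decide +kernel
  have c2 : (go 16 Gd mult S401_430_512_660 (Tr.lf 9675376712 103517001 0) 256 384 160 192 448 512) = true := by decide +kernel
  have c3 : (band (go 16 Gd mult S401_430_660_808 (Tr.lf 9683765380 91065289 0) 256 384 128 160 384 448)
  (band (go 16 Gd mult S372_401_660_808 (Tr.lf 9683895364 91065289 0) 256 384 128 160 384 448)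
  (go 16 Gd mult S372_401_512_660 (Tr.lf 9683748932 91065289 0) 256 384 128 160 384 448))) = true := by decide +kernel
  have c4 : (band (go 16 Gd mult S401_430_660_808 (Tr.lf 13970343048 91056970 0) 256 384 160 192 384 416)
  (go 16 Gd mult S401_430_660_808 (Tr.lf 9675375752 103508937 0) 256 384 128 192 448 480)) = true := by decide +kernel
  have c5 : (band (go 16 Gd mult S401_430_660_808 (Tr.lf 5380408456 95124552 561025605220443684071276544) 256 384 128 192 480 512)
  (go 16 Gd mult S372_401_660_808 (Tr.lf 1093960836 86744136 284393453384380157263872) 256 384 128 192 480 512)) = true := by decide +kernel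
  have c6 : (go 16 Gd mult S372_401_660_808 (Tr.lf 9683896388 99457993 0) 256 384 160 192 384 448) = true := by decide +kernel
  have c7 : (go 16 Gd mult S401_430_660_808 (Tr.lf 9675375688 95124425 0) 256 384 160 192 416 448) = true := by decide +kernel
  have c8 : (band (go 16 Gd mult S372_401_660_808 (Tr.lf 5380523140 95128648 0) 256 384 128 192 448 480)
  (band (go 16 Gd mult S372_401_512_660 (Tr.lf 5380392068 95128648 0) 256 384 128 192 448 480)
  (go 16 Gd mult S372_401_512_660 (Tr.lf 5388780676 95132744 275686590181589248901120) 256 384 128 192 480 512))) = true := by decide +kernel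
  (And.intro (Ok.s3 401 (Ok.s1 160 (Ok.lf S372_401_512_660_ok (br (br c3)))
  (Ok.lf S372_401_512_660_ok (br c0)))
  (Ok.s1 160 (Ok.lf S401_430_512_660_ok (br c1))
  (Ok.lf S401_430_512_660_ok (bl c0))))
  (And.intro (Ok.s3 401 (Ok.s2 480 (Ok.lf S372_401_512_660_ok (bl (br c8)))
  (Ok.lf S372_401_512_660_ok (br (br c8))))
  (Ok.s1 160 (Ok.lf S401_430_512_660_ok (bl c1))
  (Ok.lf S401_430_512_660_ok c2)))
  (Ok.s2 448 (Ok.s3 401 (Ok.s1 160 (Ok.lf S372_401_660_808_ok (bl (br c3)))
  (Ok.lf S372_401_660_808_ok c6))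
  (Ok.s1 160 (Ok.lf S401_430_660_808_ok (bl c3))
  (Ok.s2 416 (Ok.lf S401_430_660_808_ok (bl c4))
  (Ok.lf S401_430_660_808_ok c7))))
  (Ok.s3 401 (Ok.s2 480 (Ok.lf S372_401_660_808_ok (bl c8))
  (Ok.lf S372_401_660_808_ok (br c5)))
  (Ok.s2 480 (Ok.lf S401_430_660_808_ok (br c4))
  (Ok.lf S401_430_660_808_ok (bl c5)))))))

end Vale.Agent.P098.Ck
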