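import Vale.Agent.P098.CkGd
import Vale.Agent.P098.CkOk
import Vale.Agent.P098.Sh.A27
import Vale.Agent.P098.Sh.A37
import Vale.Agent.P098.Sh.A38
import Vale.Agent.P098.Sh.A41
import Vale.Agent.P098.Sh.A45

namespace Vale.Agent.P098.Ck

theorem r507 :
    Ok Gd mult 256 384 192 256 0 128 227 256 512 660 ∧
    Ok Gd mult 256 384 192 256 0 128 198 256 660 808 ∧
    Ok Gd mult 256 384 192 256 0 128 256 314 216 364 ∧
    Ok Gd mult 256 384 192 256 0 128 256 285 364 512 :=
  have c0 : (go 16 Gd mult S227_256_512_660 (Tr.lf 17792795720 99584712 0) 256 384 224 256 0 64) = true := by decide +kernel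
  have c1 : (band (go 16 Gd mult S198_227_660_734 (Tr.lf 12885182600 99580870 0) 256 384 192 256 0 128)
  (go 16 Gd mult S198_227_734_808 (Tr.lf 12885050500 95386566 0) 256 384 192 256 0 128)) = true := by decide +kernel
  have c2 : (go 16 Gd mult S227_256_660_808 (Tr.lf 12885443720 95386566 0) 256 384 192 256 0 128) = true := by decide +kernel
  have c3 : (band (go 16 Gd mult S256_285_216_290 (Tr.lf 22565652612 107964874 0) 256 320 192 256 0 128)
  (go 16 Gd mult S285_314_216_290 (Tr.lf 12885181572 108227526 0) 256 320 192 256 0 128)) = true := by decide +kernel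
  have c4 : (go 16 Gd mult S285_314_290_364 (Tr.lf 12885182600 104037318 0) 256 384 192 256 0 128) = true := by decide +kernel
  have c5 : (go 16 Gd mult S256_285_364_512 (Tr.lf 17725686344 103647944 0) 256 384 224 256 0 32) = true := by decide +kernel
  have c6 : (go 16 Gd mult S227_256_512_660 (Tr.lf 17792779336 99580616 0) 256 384 192 224 0 128) = true := by decide +kernel
  have c7 : (go 16 Gd mult S256_285_290_364 (Tr.lf 22565636228 112028106 0) 256 320 192 256 0 128) = true := by decide +kernel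
  have c8 : (go 16 Gd mult S256_285_364_512 (Tr.lf 17733797000 99711816 0) 256 384 192 256 64 128) = true := by decide +kernel
  have c9 : (band (go 16 Gd mult S256_285_364_512 (Tr.lf 12885443144 99843014 0) 256 384 192 224 0 64)
  (go 16 Gd mult S256_285_364_512 (Tr.lf 17725669704 103647944 0) 256 384 224 256 32 64)) = true := by decide +kernel
  have c10 : (band (go 16 Gd mult S256_285_216_290 (Tr.lf 17733666884 104037192 0) 320 384 192 256 0 128)
  (band (go 16 Gd mult S256_285_290_364 (Tr.lf 17733665860 108100424 0) 320 384 192 256 0 128)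
  (go 16 Gd mult S285_314_216_290 (Tr.lf 17792386114 104037064 0) 320 384 192 256 0 128))) = true := by decide +kernel
  have c11 : (go 16 Gd mult S227_256_512_660 (Tr.lf 12893569572 99851206 0) 256 384 224 256 64 128) = true := by decide +kernel
  (And.intro (Ok.s1 224 (Ok.lf S227_256_512_660_ok c6)
  (Ok.s2 64 (Ok.lf S227_256_512_660_ok c0)
  (Ok.lf S227_256_512_660_ok c11)))
  (And.intro (Ok.s3 227 (Ok.s4 734 (Ok.lf S198_227_660_734_ok (bl c1))
  (Ok.lf S198_227_734_808_ok (br c1)))
  (Ok.lf S227_256_660_808_ok c2))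
  (And.intro (Ok.s4 290 (Ok.s0 320 (Ok.s3 285 (Ok.lf S256_285_216_290_ok (bl c3))
  (Ok.lf S285_314_216_290_ok (br c3)))
  (Ok.s3 285 (Ok.lf S256_285_216_290_ok (bl c10))
  (Ok.lf S285_314_216_290_ok (br (br c10)))))
  (Ok.s3 285 (Ok.s0 320 (Ok.lf S256_285_290_364_ok c7)
  (Ok.lf S256_285_290_364_ok (bl (br c10))))
  (Ok.lf S285_314_290_364_ok c4)))
  (Ok.s2 64 (Ok.s1 224 (Ok.lf S256_285_364_512_ok (bl c9))
  (Ok.s2 32 (Ok.lf S256_285_364_512_ok c5)
  (Ok.lf S256_285_364_512_ok (br c9))))
  (Ok.lf S256_285_364_512_ok c8)))))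

end Vale.Agent.P098.Ck
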