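import Vale.Agent.P098.CkGd
import Vale.Agent.P098.CkOk
import Vale.Agent.P098.Sh.A42
import Vale.Agent.P098.Sh.A45
import Vale.Agent.P098.Sh.A46
import Vale.Agent.P098.Sh.A47
import Vale.Agent.P098.Sh.A51

namespace Vale.Agent.P098.Ck

theorem r508 :
    Ok Gd mult 256 384 192 256 0 128 285 314 364 512 ∧
    Ok Gd mult 256 384 192 256 0 128 256 314 512 808 ∧
    Ok Gd mult 256 384 192 256 0 128 314 372 216 364 :=
  have c0 : (go 16 Gd mult S285_314_364_438 (Tr.lf 17792534600 99842760 0) 256 384 224 256 0 128) = true := by decide +kernel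
  have c1 : (go 16 Gd mult S256_285_512_660 (Tr.lf 17792795720 99711688 0) 256 384 224 256 0 64) = true := by decide +kernel
  have c2 : (go 16 Gd mult S256_285_660_808 (Tr.lf 17180412036 86858567 0) 256 320 192 256 0 128) = true := by decide +kernel
  have c3 : (go 16 Gd mult S343_372_216_364 (Tr.lf 12885182600 99716038 0) 256 384 192 256 0 128) = true := by decide +kernel
  have c4 : (band (go 16 Gd mult S285_314_364_512 (Tr.lf 12885443656 99580870 0) 256 384 192 224 0 128)
  (go 16 Gd mult S285_314_512_660 (Tr.lf 12885181476 95382470 0) 256 384 192 224 0 128)) = true := by decide +kernel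
  have c5 : (band (go 16 Gd mult S285_314_438_512 (Tr.lf 12885182536 99711942 0) 256 384 224 256 0 128)
  (go 16 Gd mult S285_314_512_660 (Tr.lf 12885443656 95386566 0) 256 384 224 256 0 128)) = true := by decide +kernel
  have c6 : (band (go 16 Gd mult S314_343_216_364 (Tr.lf 12885182596 104041286 0) 256 320 192 256 0 128)
  (band (go 16 Gd mult S314_343_216_364 (Tr.lf 12885181506 99843014 0) 320 384 192 256 0 128)
  (band (go 16 Gd mult S256_285_660_808 (Tr.lf 12885181506 99576774 0) 320 384 192 256 0 128)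
  (band (go 16 Gd mult S285_314_660_808 (Tr.lf 12885181474 95382470 0) 320 384 192 256 0 128)
  (go 16 Gd mult S285_314_660_808 (Tr.lf 12893569604 95525957 0) 256 320 192 256 64 128))))) = true := by decide +kernel
  have c7 : (go 16 Gd mult S285_314_660_808 (Tr.lf 17180410948 86858567 0) 256 320 192 256 0 64) = true := by decide +kernel
  have c8 : (band (go 16 Gd mult S256_285_512_660 (Tr.lf 12885181000 99707846 0) 256 384 192 224 0 64)
  (go 16 Gd mult S256_285_512_660 (Tr.lf 12885181000 95517638 0) 256 384 192 256 64 128)) = true := by decide +kernel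
  (And.intro (Ok.s1 224 (Ok.lf S285_314_364_512_ok (bl c4))
  (Ok.s4 438 (Ok.lf S285_314_364_438_ok c0)
  (Ok.lf S285_314_438_512_ok (bl c5))))
  (And.intro (Ok.s4 660 (Ok.s3 285 (Ok.s2 64 (Ok.s1 224 (Ok.lf S256_285_512_660_ok (bl c8))
  (Ok.lf S256_285_512_660_ok c1))
  (Ok.lf S256_285_512_660_ok (br c8)))
  (Ok.s1 224 (Ok.lf S285_314_512_660_ok (br c4))
  (Ok.lf S285_314_512_660_ok (br c5))))
  (Ok.s0 320 (Ok.s3 285 (Ok.lf S256_285_660_808_ok c2)
  (Ok.s2 64 (Ok.lf S285_314_660_808_ok c7)
  (Ok.lf S285_314_660_808_ok (br (br (br (br c6)))))))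
  (Ok.s3 285 (Ok.lf S256_285_660_808_ok (bl (br (br c6))))
  (Ok.lf S285_314_660_808_ok (bl (br (br (br c6))))))))
  (Ok.s3 343 (Ok.s0 320 (Ok.lf S314_343_216_364_ok (bl c6))
  (Ok.lf S314_343_216_364_ok (bl (br c6))))
  (Ok.lf S343_372_216_364_ok c3))))

end Vale.Agent.P098.Ck
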