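import Vale.Agent.P098.CkGd
import Vale.Agent.P098.CkOk
import Vale.Agent.P098.Sh.A48
import Vale.Agent.P098.Sh.A49
import Vale.Agent.P098.Sh.A51
import Vale.Agent.P098.Sh.A52
import Vale.Agent.P098.Sh.A54
import Vale.Agent.P098.Sh.A56

namespace Vale.Agent.P098.Ck

theorem r509 :
    Ok Gd mult 256 384 192 256 0 128 314 372 364 512 ∧
    Ok Gd mult 256 384 192 256 0 128 314 372 512 808 ∧
    Ok Gd mult 256 384 192 256 0 128 372 430 216 364 :=
  have c0 : (go 16 Gd mult S314_343_364_512 (Tr.lf 17792780360 95648456 0) 256 384 224 256 0 128) = true := by decide +kernel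
  have c1 : (band (go 16 Gd mult S343_372_364_512 (Tr.lf 12886247556 99716294 0) 320 384 192 256 0 128)
  (go 16 Gd mult S401_430_216_364 (Tr.lf 18265294980 103779274 0) 320 384 192 256 0 128)) = true := by decide +kernel
  have c2 : (go 16 Gd mult S343_372_512_660 (Tr.lf 17792534600 95521480 0) 256 384 224 256 0 128) = true := by decide +kernel
  have c3 : (go 16 Gd mult S343_372_660_808 (Tr.lf 17792534600 103779016 0) 256 384 224 256 0 128) = true := by decide +kernel
  have c4 : (band (go 16 Gd mult S372_401_216_364 (Tr.lf 17727522948 103910472 0) 256 320 192 256 0 128)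
  (go 16 Gd mult S314_343_660_808 (Tr.lf 12885181508 95513542 0) 256 320 192 256 0 128)) = true := by decide +kernel
  have c5 : (go 16 Gd mult S401_430_216_364 (Tr.lf 17727522948 103910472 0) 256 320 192 256 0 128) = true := by decide +kernel
  have c6 : (go 16 Gd mult S343_372_364_512 (Tr.lf 12886231172 99970246 0) 256 320 192 256 0 128) = true := by decide +kernel
  have c7 : (go 16 Gd mult S314_343_512_660 (Tr.lf 12885443656 99711942 0) 256 384 224 256 0 64) = true := by decide +kernel
  have c8 : (band (go 16 Gd mult S343_372_660_808 (Tr.lf 12885182536 95517638 0) 256 384 192 224 0 128)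
  (band (go 16 Gd mult S343_372_512_660 (Tr.lf 12885051464 95517638 0) 256 384 192 224 0 128)
  (go 16 Gd mult S314_343_364_512 (Tr.lf 12885181512 99580870 0) 256 384 192 224 0 128))) = true := by decide +kernel
  have c9 : (band (go 16 Gd mult S372_401_216_364 (Tr.lf 13422971012 112299206 0) 320 384 192 256 0 128)
  (go 16 Gd mult S314_343_660_808 (Tr.lf 12885181570 99580870 0) 320 384 192 256 0 128)) = true := by decide +kernel
  have c10 : (go 16 Gd mult S314_343_512_660 (Tr.lf 12885181480 99707846 0) 256 384 192 224 0 128) = true := by decide +kernel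
  have c11 : (go 16 Gd mult S314_343_512_660 (Tr.lf 8590205476 104176836 0) 256 384 224 256 64 128) = true := by decide +kernel
  (And.intro (Ok.s3 343 (Ok.s1 224 (Ok.lf S314_343_364_512_ok (br (br c8)))
  (Ok.lf S314_343_364_512_ok c0))
  (Ok.s0 320 (Ok.lf S343_372_364_512_ok c6)
  (Ok.lf S343_372_364_512_ok (bl c1))))
  (And.intro (Ok.s4 660 (Ok.s3 343 (Ok.s1 224 (Ok.lf S314_343_512_660_ok c10)
  (Ok.s2 64 (Ok.lf S314_343_512_660_ok c7)
  (Ok.lf S314_343_512_660_ok c11)))
  (Ok.s1 224 (Ok.lf S343_372_512_660_ok (bl (br c8)))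
  (Ok.lf S343_372_512_660_ok c2)))
  (Ok.s3 343 (Ok.s0 320 (Ok.lf S314_343_660_808_ok (br c4))
  (Ok.lf S314_343_660_808_ok (br c9)))
  (Ok.s1 224 (Ok.lf S343_372_660_808_ok (bl c8))
  (Ok.lf S343_372_660_808_ok c3))))
  (Ok.s3 401 (Ok.s0 320 (Ok.lf S372_401_216_364_ok (bl c4))
  (Ok.lf S372_401_216_364_ok (bl c9)))
  (Ok.s0 320 (Ok.lf S401_430_216_364_ok c5)
  (Ok.lf S401_430_216_364_ok (br c1))))))

end Vale.Agent.P098.Ck
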