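import Vale.Agent.P098.CkGd
import Vale.Agent.P098.CkOk
import Vale.Agent.P098.Sh.A54
import Vale.Agent.P098.Sh.A56
import Vale.Agent.P098.Sh.A57
import Vale.Agent.P098.Sh.A58
import Vale.Agent.P098.Sh.A59

namespace Vale.Agent.P098.Ck

theorem r510 :
    Ok Gd mult 256 384 192 256 0 128 372 430 364 512 ∧
    Ok Gd mult 256 384 192 256 0 128 372 430 512 808 ∧
    Ok Gd mult 256 384 192 256 0 128 430 488 216 364 :=
  have c0 : (go 16 Gd mult S401_430_364_512 (Tr.lf 17717954696 103640008 0) 256 384 192 256 64 128) = true := by decide +kernel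
  have c1 : (band (go 16 Gd mult S401_430_512_660 (Tr.lf 18265311368 107969482 0) 256 384 192 224 0 128)
  (go 16 Gd mult S430_459_216_364 (Tr.lf 18265294920 99720010 0) 256 384 192 224 0 128)) = true := by decide +kernel
  have c2 : (go 16 Gd mult S372_401_364_512 (Tr.lf 17727522948 103910472 0) 256 320 192 256 0 128) = true := by decide +kernel
  have c3 : (go 16 Gd mult S372_401_512_660 (Tr.lf 17727522948 103652424 0) 256 320 192 256 0 128) = true := by decide +kernel
  have c4 : (go 16 Gd mult S372_401_660_808 (Tr.lf 17727522948 103644360 0) 256 320 192 256 0 128) = true := by decide +kernel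
  have c5 : (go 16 Gd mult S401_430_660_808 (Tr.lf 17727522948 103910472 0) 256 320 192 256 0 128) = true := by decide +kernel
  have c6 : (band (go 16 Gd mult S430_488_216_364 (Tr.lf 17717889096 103906120 0) 256 384 224 256 0 128)
  (go 16 Gd mult S401_430_512_660 (Tr.lf 17717872680 103640008 0) 256 384 224 256 0 128)) = true := by decide +kernel
  have c7 : (band (go 16 Gd mult S401_430_660_808 (Tr.lf 18265294980 103779019 0) 320 384 192 256 0 128)
  (band (go 16 Gd mult S372_401_364_512 (Tr.lf 13422970948 112299206 0) 320 384 192 256 0 128)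
  (band (go 16 Gd mult S372_401_512_660 (Tr.lf 13422969988 112299206 0) 320 384 192 256 0 128)
  (go 16 Gd mult S372_401_660_808 (Tr.lf 13422969988 112298951 0) 320 384 192 256 0 128)))) = true := by decide +kernel
  have c8 : (band (go 16 Gd mult S459_488_216_364 (Tr.lf 22011791432 99445193 0) 256 384 192 224 0 64)
  (go 16 Gd mult S459_488_216_364 (Tr.lf 22550758472 103373387 0) 256 384 192 224 64 128)) = true := by decide +kernel
  have c9 : (go 16 Gd mult S401_430_364_512 (Tr.lf 17717863560 103898056 0) 256 384 192 256 0 64) = true := by decide +kernel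
  (And.intro (Ok.s3 401 (Ok.s0 320 (Ok.lf S372_401_364_512_ok c2)
  (Ok.lf S372_401_364_512_ok (bl (br c7))))
  (Ok.s2 64 (Ok.lf S401_430_364_512_ok c9)
  (Ok.lf S401_430_364_512_ok c0)))
  (And.intro (Ok.s4 660 (Ok.s3 401 (Ok.s0 320 (Ok.lf S372_401_512_660_ok c3)
  (Ok.lf S372_401_512_660_ok (bl (br (br c7)))))
  (Ok.s1 224 (Ok.lf S401_430_512_660_ok (bl c1))
  (Ok.lf S401_430_512_660_ok (br c6))))
  (Ok.s3 401 (Ok.s0 320 (Ok.lf S372_401_660_808_ok c4)
  (Ok.lf S372_401_660_808_ok (br (br (br c7)))))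
  (Ok.s0 320 (Ok.lf S401_430_660_808_ok c5)
  (Ok.lf S401_430_660_808_ok (bl c7)))))
  (Ok.s1 224 (Ok.s3 459 (Ok.lf S430_459_216_364_ok (br c1))
  (Ok.s2 64 (Ok.lf S459_488_216_364_ok (bl c8))
  (Ok.lf S459_488_216_364_ok (br c8))))
  (Ok.lf S430_488_216_364_ok (bl c6)))))

end Vale.Agent.P098.Ck
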