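import Vale.Agent.P098.CkGd
import Vale.Agent.P098.CkOk
import Vale.Agent.P098.Sh.A14
import Vale.Agent.P098.Sh.A15
import Vale.Agent.P098.Sh.A16
import Vale.Agent.P098.Sh.A20
import Vale.Agent.P098.Sh.A21
import Vale.Agent.P098.Sh.A8
import Vale.Agent.P098.Sh.A9

namespace Vale.Agent.P098.Ck

theorem r513 :
    Ok Gd mult 256 384 192 224 192 256 169 198 216 290 ∧
    Ok Gd mult 256 384 224 256 128 256 140 198 216 290 ∧
    Ok Gd mult 256 384 192 256 128 256 140 198 290 364 :=
  have c0 : (go 16 Gd mult S169_183_216_290 (Tr.lf 18281416776 107580234 0) 256 384 192 208 192 256) = true := by decide +kernel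
  have c1 : (go 16 Gd mult S183_198_216_290 (Tr.lf 18281432136 103640010 0) 256 384 192 208 192 256) = true := by decide +kernel
  have c2 : (go 16 Gd mult S140_169_290_364 (Tr.lf 13440944260 103775304 0) 256 320 192 224 128 256) = true := by decide +kernel
  have c3 : (go 16 Gd mult S183_198_290_364 (Tr.lf 13449332808 107961290 0) 256 384 192 224 192 256) = true := by decide +kernel
  have c4 : (band (go 16 Gd mult S183_198_216_290 (Tr.lf 22577170504 99048396 0) 256 384 208 224 192 256)
  (go 16 Gd mult S169_183_216_290 (Tr.lf 13440926760 103902408 0) 256 384 208 224 192 256)) = true := by decide +kernel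
  have c5 : (band (go 16 Gd mult S169_198_216_290 (Tr.lf 18281169992 107834442 0) 256 384 224 256 128 192)
  (go 16 Gd mult S169_198_216_290 (Tr.lf 18281169992 103640138 0) 256 384 224 256 192 256)) = true := by decide +kernel
  have c6 : (go 16 Gd mult S140_169_290_364 (Tr.lf 13440944196 99585096 0) 320 384 192 224 128 256) = true := by decide +kernel
  have c7 : (band (go 16 Gd mult S169_183_290_364 (Tr.lf 13440927816 103910472 0) 256 384 192 224 192 256)
  (band (go 16 Gd mult S169_183_290_364 (Tr.lf 13440926792 108096712 0) 256 384 192 224 128 192)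
  (go 16 Gd mult S183_198_290_364 (Tr.lf 13439878216 103906248 0) 256 384 192 224 128 192))) = true := by decide +kernel
  have c8 : (band (go 16 Gd mult S183_198_290_364 (Tr.lf 13439879240 103902280 0) 256 384 224 256 128 256)
  (band (go 16 Gd mult S140_169_216_290 (Tr.lf 18272634948 99318602 0) 256 384 224 256 128 256)
  (band (go 16 Gd mult S140_169_290_364 (Tr.lf 13431359556 99580744 0) 256 384 224 256 128 256)
  (go 16 Gd mult S169_183_290_364 (Tr.lf 18272634948 107572170 0) 256 384 224 256 128 256)))) = true := by decide +kernel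
  (And.intro (Ok.s3 183 (Ok.s1 208 (Ok.lf S169_183_216_290_ok c0)
  (Ok.lf S169_183_216_290_ok (br c4)))
  (Ok.s1 208 (Ok.lf S183_198_216_290_ok c1)
  (Ok.lf S183_198_216_290_ok (bl c4))))
  (And.intro (Ok.s3 169 (Ok.lf S140_169_216_290_ok (bl (br c8)))
  (Ok.s2 192 (Ok.lf S169_198_216_290_ok (bl c5))
  (Ok.lf S169_198_216_290_ok (br c5))))
  (Ok.s1 224 (Ok.s3 169 (Ok.s0 320 (Ok.lf S140_169_290_364_ok c2)
  (Ok.lf S140_169_290_364_ok c6))
  (Ok.s2 192 (Ok.s3 183 (Ok.lf S169_183_290_364_ok (bl (br c7)))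
  (Ok.lf S183_198_290_364_ok (br (br c7))))
  (Ok.s3 183 (Ok.lf S169_183_290_364_ok (bl c7))
  (Ok.lf S183_198_290_364_ok c3))))
  (Ok.s3 169 (Ok.lf S140_169_290_364_ok (bl (br (br c8))))
  (Ok.s3 183 (Ok.lf S169_183_290_364_ok (br (br (br c8))))
  (Ok.lf S183_198_290_364_ok (bl c8)))))))

end Vale.Agent.P098.Ck
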