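import Vale.Agent.P098.CkGd
import Vale.Agent.P098.CkOk
import Vale.Agent.P098.Sh.A23
import Vale.Agent.P098.Sh.A25
import Vale.Agent.P098.Sh.A30
import Vale.Agent.P098.Sh.A31
import Vale.Agent.P098.Sh.A34

namespace Vale.Agent.P098.Ck

theorem r515 :
    Ok Gd mult 256 384 192 256 128 192 198 227 290 364 ∧
    Ok Gd mult 256 384 192 256 192 256 198 227 216 364 ∧
    Ok Gd mult 256 384 192 224 128 192 227 241 216 364 :=
  have c0 : (band (go 16 Gd mult S198_227_290_364 (Tr.lf 22576138312 99318603 0) 256 384 192 224 128 192)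
  (go 16 Gd mult S227_241_290_364 (Tr.lf 22576120904 103512907 0) 256 384 192 224 128 192)) = true := by decide +kernel
  have c1 : (band (go 16 Gd mult S212_227_290_364 (Tr.lf 17734846600 103779145 0) 256 384 224 256 128 192)
  (go 16 Gd mult S198_212_290_364 (Tr.lf 22029812808 99183179 0) 256 384 224 256 128 192)) = true := by decide +kernel
  have c2 : (go 16 Gd mult S198_212_216_290 (Tr.lf 22585821316 99187660 0) 320 384 192 224 192 256) = true := by decide +kernel
  have c3 : (go 16 Gd mult S212_227_216_290 (Tr.lf 22584772740 99056332 0) 256 320 192 224 192 256) = true := by decide +kernel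
  have c4 : (go 16 Gd mult S212_227_216_290 (Tr.lf 22584772740 103381708 0) 320 384 192 224 192 256) = true := by decide +kernel
  have c5 : (go 16 Gd mult S212_227_216_290 (Tr.lf 17743497288 99576650 0) 256 384 224 256 192 256) = true := by decide +kernel
  have c6 : (go 16 Gd mult S198_212_290_364 (Tr.lf 17734846600 99441354 0) 256 384 192 224 192 256) = true := by decide +kernel
  have c7 : (go 16 Gd mult S212_227_290_364 (Tr.lf 18280368260 91192010 0) 256 320 192 224 192 256) = true := by decide +kernel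
  have c8 : (go 16 Gd mult S212_227_290_364 (Tr.lf 18280368260 103639882 0) 256 320 224 256 192 256) = true := by decide +kernel
  have c9 : (go 16 Gd mult S198_212_216_290 (Tr.lf 22585821252 95120332 0) 256 320 192 224 192 256) = true := by decide +kernel
  have c10 : (band (go 16 Gd mult S198_212_216_290 (Tr.lf 22576121928 95120076 0) 256 384 224 256 192 256)
  (go 16 Gd mult S198_212_290_364 (Tr.lf 17734846536 103639754 0) 256 384 224 256 192 256)) = true := by decide +kernel
  have c11 : (band (go 16 Gd mult S212_227_290_364 (Tr.lf 17743235204 103643850 0) 320 384 192 224 192 256)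
  (go 16 Gd mult S212_227_290_364 (Tr.lf 22576120900 95120076 0) 320 384 224 256 192 256)) = true := by decide +kernel
  have c12 : (go 16 Gd mult S227_241_216_290 (Tr.lf 22576383048 103504843 0) 256 384 192 224 128 192) = true := by decide +kernel
  (And.intro (Ok.s1 224 (Ok.lf S198_227_290_364_ok (bl c0))
  (Ok.s3 212 (Ok.lf S198_212_290_364_ok (br c1))
  (Ok.lf S212_227_290_364_ok (bl c1))))
  (And.intro (Ok.s4 290 (Ok.s3 212 (Ok.s1 224 (Ok.s0 320 (Ok.lf S198_212_216_290_ok c9)
  (Ok.lf S198_212_216_290_ok c2))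
  (Ok.lf S198_212_216_290_ok (bl c10)))
  (Ok.s1 224 (Ok.s0 320 (Ok.lf S212_227_216_290_ok c3)
  (Ok.lf S212_227_216_290_ok c4))
  (Ok.lf S212_227_216_290_ok c5)))
  (Ok.s1 224 (Ok.s3 212 (Ok.lf S198_212_290_364_ok c6)
  (Ok.s0 320 (Ok.lf S212_227_290_364_ok c7)
  (Ok.lf S212_227_290_364_ok (bl c11))))
  (Ok.s3 212 (Ok.lf S198_212_290_364_ok (br c10))
  (Ok.s0 320 (Ok.lf S212_227_290_364_ok c8)
  (Ok.lf S212_227_290_364_ok (br c11))))))
  (Ok.s4 290 (Ok.lf S227_241_216_290_ok c12)
  (Ok.lf S227_241_290_364_ok (br c0)))))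

end Vale.Agent.P098.Ck
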