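import Vale.Agent.P098.CkGd
import Vale.Agent.P098.CkOk
import Vale.Agent.P098.Sh.A34
import Vale.Agent.P098.Sh.A39

namespace Vale.Agent.P098.Ck

theorem r516 :
    Ok Gd mult 256 384 192 224 192 256 227 241 216 364 ∧
    Ok Gd mult 256 384 192 224 128 256 241 256 216 364 ∧
    Ok Gd mult 256 384 224 256 128 256 227 256 216 364 :=
  have c0 : (band (go 16 Gd mult S227_241_216_290 (Tr.lf 17743497288 103643850 0) 256 384 192 224 192 256)
  (go 16 Gd mult S227_241_216_290 (Tr.lf 22575334468 107706955 0) 256 320 224 256 128 192)) = true := by decide +kernel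
  have c1 : (go 16 Gd mult S227_241_290_364 (Tr.lf 18280368200 103774922 0) 256 384 208 224 192 256) = true := by decide +kernel
  have c2 : (go 16 Gd mult S241_256_216_364 (Tr.lf 17742465092 99699274 0) 256 320 224 240 192 256) = true := by decide +kernel
  have c3 : (band (go 16 Gd mult S241_256_216_364 (Tr.lf 22575334472 103512651 0) 256 384 192 224 128 192)
  (band (go 16 Gd mult S241_256_216_364 (Tr.lf 22575335490 103635659 0) 320 352 224 256 128 256)
  (go 16 Gd mult S241_256_216_364 (Tr.lf 22575335460 107834186 0) 256 320 224 240 128 192))) = true := by decide +kernel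
  have c4 : (band (go 16 Gd mult S241_256_216_290 (Tr.lf 22575334472 103373260 0) 256 384 192 224 192 256)
  (go 16 Gd mult S241_256_290_364 (Tr.lf 17733797000 103635402 0) 256 384 192 224 192 256)) = true := by decide +kernel
  have c5 : (band (go 16 Gd mult S227_241_216_290 (Tr.lf 17742448708 103766602 0) 256 320 224 256 192 256)
  (go 16 Gd mult S227_241_290_364 (Tr.lf 18280106116 103897930 0) 256 320 224 256 192 256)) = true := by decide +kernel
  have c6 : (band (go 16 Gd mult S227_241_216_290 (Tr.lf 22576384068 103508684 0) 320 384 224 256 128 256)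
  (band (go 16 Gd mult S227_241_290_364 (Tr.lf 22576121924 103508684 0) 320 384 224 256 128 256)
  (go 16 Gd mult S227_241_290_364 (Tr.lf 13448266824 103897802 0) 256 384 192 208 192 256))) = true := by decide +kernel
  have c7 : (band (go 16 Gd mult S241_256_216_290 (Tr.lf 22575335492 107698891 0) 256 320 240 256 128 256)
  (go 16 Gd mult S241_256_290_364 (Tr.lf 17734060100 103774793 0) 256 320 240 256 128 256)) = true := by decide +kernel
  have c8 : (go 16 Gd mult S227_241_290_364 (Tr.lf 17733797956 107969097 0) 256 320 224 256 128 192) = true := by decide +kernel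
  have c9 : (go 16 Gd mult S241_256_216_364 (Tr.lf 18280360002 103902026 0) 352 384 224 256 128 256) = true := by decide +kernel
  (And.intro (Ok.s4 290 (Ok.lf S227_241_216_290_ok (bl c0))
  (Ok.s1 208 (Ok.lf S227_241_290_364_ok (br (br c6)))
  (Ok.lf S227_241_290_364_ok c1)))
  (And.intro (Ok.s2 192 (Ok.lf S241_256_216_364_ok (bl c3))
  (Ok.s4 290 (Ok.lf S241_256_216_290_ok (bl c4))
  (Ok.lf S241_256_290_364_ok (br c4))))
  (Ok.s3 241 (Ok.s0 320 (Ok.s4 290 (Ok.s2 192 (Ok.lf S227_241_216_290_ok (br c0))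
  (Ok.lf S227_241_216_290_ok (bl c5)))
  (Ok.s2 192 (Ok.lf S227_241_290_364_ok c8)
  (Ok.lf S227_241_290_364_ok (br c5))))
  (Ok.s4 290 (Ok.lf S227_241_216_290_ok (bl c6))
  (Ok.lf S227_241_290_364_ok (bl (br c6)))))
  (Ok.s0 320 (Ok.s1 240 (Ok.s2 192 (Ok.lf S241_256_216_364_ok (br (br c3)))
  (Ok.lf S241_256_216_364_ok c2))
  (Ok.s4 290 (Ok.lf S241_256_216_290_ok (bl c7))
  (Ok.lf S241_256_290_364_ok (br c7))))
  (Ok.s0 352 (Ok.lf S241_256_216_364_ok (bl (br c3)))
  (Ok.lf S241_256_216_364_ok c9))))))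

end Vale.Agent.P098.Ck
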