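import Vale.Agent.P098.CkGd
import Vale.Agent.P098.CkOk
import Vale.Agent.P098.Sh.A27
import Vale.Agent.P098.Sh.A37
import Vale.Agent.P098.Sh.A38
import Vale.Agent.P098.Sh.A39
import Vale.Agent.P098.Sh.A41
import Vale.Agent.P098.Sh.A45

namespace Vale.Agent.P098.Ck

theorem r518 :
    Ok Gd mult 256 384 192 256 192 256 241 256 364 512 ∧
    Ok Gd mult 256 384 192 256 128 256 198 256 512 808 ∧
    Ok Gd mult 256 384 192 256 128 256 256 314 216 364 :=
  have c0 : (band (go 16 Gd mult S198_227_512_660 (Tr.lf 13431752836 112163911 0) 256 320 192 256 128 256)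
  (go 16 Gd mult S227_256_512_660 (Tr.lf 13430442114 108227399 0) 256 320 192 256 128 256)) = true := by decide +kernel
  have c1 : (band (go 16 Gd mult S198_227_660_808 (Tr.lf 12893832328 99580743 0) 256 384 192 256 128 256)
  (go 16 Gd mult S227_256_660_808 (Tr.lf 8598602820 99851333 0) 256 384 192 256 128 256)) = true := by decide +kernel
  have c2 : (go 16 Gd mult S256_285_216_364 (Tr.lf 22574303300 107833930 0) 256 320 224 256 128 192) = true := by decide +kernel
  have c3 : (band (go 16 Gd mult S256_285_216_290 (Tr.lf 22574041220 107575627 0) 256 320 224 256 192 256)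
  (go 16 Gd mult S241_256_364_512 (Tr.lf 17734059076 103643721 0) 256 320 224 256 192 256)) = true := by decide +kernel
  have c4 : (go 16 Gd mult S285_314_216_364 (Tr.lf 17725409416 99572042 0) 256 384 192 256 128 256) = true := by decide +kernel
  have c5 : (band (go 16 Gd mult S256_285_216_364 (Tr.lf 17734059140 107842121 0) 320 384 192 256 128 192)
  (band (go 16 Gd mult S256_285_216_364 (Tr.lf 18270929992 107829706 0) 256 384 192 224 192 256)
  (go 16 Gd mult S256_285_216_364 (Tr.lf 18279318594 91191754 0) 256 320 192 224 128 192))) = true := by decide +kernel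
  have c6 : (go 16 Gd mult S256_285_290_364 (Tr.lf 22574040136 99183051 0) 256 384 224 256 192 256) = true := by decide +kernel
  have c7 : (band (go 16 Gd mult S198_227_512_660 (Tr.lf 9136523394 103914694 0) 320 384 192 256 128 256)
  (go 16 Gd mult S227_256_512_660 (Tr.lf 8590206018 108104773 0) 320 384 192 256 128 256)) = true := by decide +kernel
  have c8 : (go 16 Gd mult S241_256_364_512 (Tr.lf 17734059076 103639625 0) 256 320 192 224 192 256) = true := by decide +kernel
  have c9 : (go 16 Gd mult S241_256_364_512 (Tr.lf 13430432900 108096200 0) 320 384 192 256 192 256) = true := by decide +kernel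
  have c10 : (go 16 Gd mult S256_285_216_290 (Tr.lf 18270667842 107834057 0) 320 384 224 256 192 256) = true := by decide +kernel
  (And.intro (Ok.s0 320 (Ok.s1 224 (Ok.lf S241_256_364_512_ok c8)
  (Ok.lf S241_256_364_512_ok (br c3)))
  (Ok.lf S241_256_364_512_ok c9))
  (And.intro (Ok.s4 660 (Ok.s3 227 (Ok.s0 320 (Ok.lf S198_227_512_660_ok (bl c0))
  (Ok.lf S198_227_512_660_ok (bl c7)))
  (Ok.s0 320 (Ok.lf S227_256_512_660_ok (br c0))
  (Ok.lf S227_256_512_660_ok (br c7))))
  (Ok.s3 227 (Ok.lf S198_227_660_808_ok (bl c1))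
  (Ok.lf S227_256_660_808_ok (br c1))))
  (Ok.s3 285 (Ok.s2 192 (Ok.s0 320 (Ok.s1 224 (Ok.lf S256_285_216_364_ok (br (br c5)))
  (Ok.lf S256_285_216_364_ok c2))
  (Ok.lf S256_285_216_364_ok (bl c5)))
  (Ok.s1 224 (Ok.lf S256_285_216_364_ok (bl (br c5)))
  (Ok.s4 290 (Ok.s0 320 (Ok.lf S256_285_216_290_ok (bl c3))
  (Ok.lf S256_285_216_290_ok c10))
  (Ok.lf S256_285_290_364_ok c6))))
  (Ok.lf S285_314_216_364_ok c4))))

end Vale.Agent.P098.Ck
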