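import Vale.Agent.P098.CkGd
import Vale.Agent.P098.CkOk
import Vale.Agent.P098.Sh.A54
import Vale.Agent.P098.Sh.A56

namespace Vale.Agent.P098.Ck

theorem r520 :
    Ok Gd mult 256 384 192 256 128 192 372 430 216 364 ∧
    Ok Gd mult 256 384 192 256 192 256 372 430 216 364 ∧
    Ok Gd mult 256 384 192 256 128 256 372 430 364 512 :=
  have c0 : (go 16 Gd mult S372_401_216_364 (Tr.lf 13432555592 112303048 0) 256 384 192 224 128 192) = true := by decide +kernel
  have c1 : (band (go 16 Gd mult S401_430_216_364 (Tr.lf 13969426504 95394888 0) 256 384 192 224 128 192)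
  (go 16 Gd mult S401_430_216_364 (Tr.lf 13969425476 99458120 0) 320 384 192 224 192 256)) = true := by decide +kernel
  have c2 : (go 16 Gd mult S401_430_364_512 (Tr.lf 13969426504 95394888 0) 256 384 192 224 128 192) = true := by decide +kernel
  have c3 : (band (go 16 Gd mult S401_430_364_512 (Tr.lf 18265311364 99318730 0) 256 320 192 224 192 256)
  (go 16 Gd mult S401_430_216_364 (Tr.lf 18265442372 99318730 0) 256 320 192 224 192 256)) = true := by decide +kernel
  have c4 : (band (go 16 Gd mult S372_401_216_364 (Tr.lf 13432554568 108100680 0) 256 384 192 224 192 256)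
  (go 16 Gd mult S372_401_364_512 (Tr.lf 13432554568 108100680 0) 256 384 192 224 192 256)) = true := by decide +kernel
  have c5 : (go 16 Gd mult S372_401_364_512 (Tr.lf 18264392836 103775177 0) 256 320 192 256 128 192) = true := by decide +kernel
  have c6 : (band (go 16 Gd mult S401_430_216_364 (Tr.lf 18802295880 103513162 0) 256 384 224 256 192 256)
  (band (go 16 Gd mult S401_430_364_512 (Tr.lf 18802164808 103513162 0) 256 384 224 256 192 256)
  (band (go 16 Gd mult S372_401_216_364 (Tr.lf 18265293892 103640138 0) 256 384 224 256 192 256)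
  (band (go 16 Gd mult S372_401_364_512 (Tr.lf 18265293892 103640138 0) 256 384 224 256 192 256)
  (go 16 Gd mult S372_401_364_512 (Tr.lf 13432407172 108104776 0) 320 384 192 256 128 192))))) = true := by decide +kernel
  have c7 : (band (go 16 Gd mult S401_430_364_512 (Tr.lf 18264245320 112036809 0) 256 384 224 256 128 192)
  (band (go 16 Gd mult S372_401_216_364 (Tr.lf 18264245316 107842505 0) 256 384 224 256 128 192)
  (go 16 Gd mult S401_430_216_364 (Tr.lf 18264245316 107842505 0) 256 384 224 256 128 192))) = true := by decide +kernel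
  have c8 : (go 16 Gd mult S401_430_364_512 (Tr.lf 13969294404 99458120 0) 320 384 192 224 192 256) = true := by decide +kernel
  (And.intro (Ok.s3 401 (Ok.s1 224 (Ok.lf S372_401_216_364_ok c0)
  (Ok.lf S372_401_216_364_ok (bl (br c7))))
  (Ok.s1 224 (Ok.lf S401_430_216_364_ok (bl c1))
  (Ok.lf S401_430_216_364_ok (br (br c7)))))
  (And.intro (Ok.s3 401 (Ok.s1 224 (Ok.lf S372_401_216_364_ok (bl c4))
  (Ok.lf S372_401_216_364_ok (bl (br (br c6)))))
  (Ok.s1 224 (Ok.s0 320 (Ok.lf S401_430_216_364_ok (br c3))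
  (Ok.lf S401_430_216_364_ok (br c1)))
  (Ok.lf S401_430_216_364_ok (bl c6))))
  (Ok.s2 192 (Ok.s3 401 (Ok.s0 320 (Ok.lf S372_401_364_512_ok c5)
  (Ok.lf S372_401_364_512_ok (br (br (br (br c6))))))
  (Ok.s1 224 (Ok.lf S401_430_364_512_ok c2)
  (Ok.lf S401_430_364_512_ok (bl c7))))
  (Ok.s3 401 (Ok.s1 224 (Ok.lf S372_401_364_512_ok (br c4))
  (Ok.lf S372_401_364_512_ok (bl (br (br (br c6))))))
  (Ok.s1 224 (Ok.s0 320 (Ok.lf S401_430_364_512_ok (bl c3))
  (Ok.lf S401_430_364_512_ok c8))
  (Ok.lf S401_430_364_512_ok (bl (br c6))))))))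

end Vale.Agent.P098.Ck
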