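import Vale.Agent.P098.CkGd
import Vale.Agent.P098.CkOk
import Vale.Agent.P098.Sh.A54
import Vale.Agent.P098.Sh.A57

namespace Vale.Agent.P098.Ck

theorem r521 :
    Ok Gd mult 256 384 192 256 128 192 372 430 512 660 ∧
    Ok Gd mult 256 384 192 256 192 256 372 430 512 660 ∧
    Ok Gd mult 256 384 192 256 128 256 372 430 660 808 :=
  have c0 : (go 16 Gd mult S401_430_512_660 (Tr.lf 13969426504 95394888 0) 256 384 192 224 128 192) = true := by decide +kernel
  have c1 : (go 16 Gd mult S401_430_660_808 (Tr.lf 13969426504 95394888 0) 256 384 192 224 128 192) = true := by decide +kernel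
  have c2 : (go 16 Gd mult S401_430_660_808 (Tr.lf 18265442436 99318730 0) 256 320 192 224 192 256) = true := by decide +kernel
  have c3 : (band (go 16 Gd mult S401_430_512_660 (Tr.lf 18265311364 99318730 0) 256 320 192 224 192 256)
  (band (go 16 Gd mult S401_430_512_660 (Tr.lf 18802181192 103513162 0) 256 384 224 256 192 256)
  (go 16 Gd mult S401_430_660_808 (Tr.lf 18802181192 103513162 0) 256 384 224 256 192 256))) = true := by decide +kernel
  have c4 : (band (go 16 Gd mult S372_401_512_660 (Tr.lf 17727521924 103644105 0) 256 320 192 256 128 192)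
  (go 16 Gd mult S372_401_512_660 (Tr.lf 13432554568 103906376 0) 256 384 192 224 192 256)) = true := by decide +kernel
  have c5 : (band (go 16 Gd mult S372_401_660_808 (Tr.lf 13431505992 112294983 0) 256 384 192 224 128 192)
  (go 16 Gd mult S372_401_660_808 (Tr.lf 13432554568 103906376 0) 256 384 192 224 192 256)) = true := by decide +kernel
  have c6 : (band (go 16 Gd mult S372_401_512_660 (Tr.lf 13431358596 108104775 0) 320 384 192 256 128 192)
  (band (go 16 Gd mult S372_401_512_660 (Tr.lf 13424018500 103902280 0) 256 384 224 256 192 256)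
  (band (go 16 Gd mult S372_401_660_808 (Tr.lf 13422969924 103902024 0) 256 384 224 256 192 256)
  (band (go 16 Gd mult S372_401_660_808 (Tr.lf 18264245284 107834441 0) 256 384 224 256 128 192)
  (band (go 16 Gd mult S401_430_660_808 (Tr.lf 18264245320 107842505 0) 256 384 224 256 128 192)
  (go 16 Gd mult S401_430_512_660 (Tr.lf 18264245316 107842505 0) 256 384 224 256 128 192)))))) = true := by decide +kernel
  have c7 : (band (go 16 Gd mult S401_430_512_660 (Tr.lf 13969294404 99458120 0) 320 384 192 224 192 256)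
  (go 16 Gd mult S401_430_660_808 (Tr.lf 13969294404 99458120 0) 320 384 192 224 192 256)) = true := by decide +kernel
  (And.intro (Ok.s3 401 (Ok.s0 320 (Ok.lf S372_401_512_660_ok (bl c4))
  (Ok.lf S372_401_512_660_ok (bl c6)))
  (Ok.s1 224 (Ok.lf S401_430_512_660_ok c0)
  (Ok.lf S401_430_512_660_ok (br (br (br (br (br c6))))))))
  (And.intro (Ok.s3 401 (Ok.s1 224 (Ok.lf S372_401_512_660_ok (br c4))
  (Ok.lf S372_401_512_660_ok (bl (br c6))))
  (Ok.s1 224 (Ok.s0 320 (Ok.lf S401_430_512_660_ok (bl c3))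
  (Ok.lf S401_430_512_660_ok (bl c7)))
  (Ok.lf S401_430_512_660_ok (bl (br c3)))))
  (Ok.s2 192 (Ok.s3 401 (Ok.s1 224 (Ok.lf S372_401_660_808_ok (bl c5))
  (Ok.lf S372_401_660_808_ok (bl (br (br (br c6))))))
  (Ok.s1 224 (Ok.lf S401_430_660_808_ok c1)
  (Ok.lf S401_430_660_808_ok (bl (br (br (br (br c6))))))))
  (Ok.s3 401 (Ok.s1 224 (Ok.lf S372_401_660_808_ok (br c5))
  (Ok.lf S372_401_660_808_ok (bl (br (br c6)))))
  (Ok.s1 224 (Ok.s0 320 (Ok.lf S401_430_660_808_ok c2)
  (Ok.lf S401_430_660_808_ok (br c7)))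
  (Ok.lf S401_430_660_808_ok (br (br c3))))))))

end Vale.Agent.P098.Ck
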