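import Vale.Agent.P098.CkGd
import Vale.Agent.P098.CkOk
import Vale.Agent.P098.Sh.A58
import Vale.Agent.P098.Sh.A59

namespace Vale.Agent.P098.Ck

theorem r522 :
    Ok Gd mult 256 384 192 224 128 256 430 488 216 364 ∧
    Ok Gd mult 256 384 224 256 128 256 430 488 216 364 ∧
    Ok Gd mult 256 384 192 256 128 256 430 488 364 512 ∧
    Ok Gd mult 256 384 192 256 128 256 430 488 512 660 :=
  have c0 : (band (go 16 Gd mult S430_459_216_364 (Tr.lf 18255874184 112028362 0) 256 384 224 256 128 256)
  (go 16 Gd mult S459_488_216_364 (Tr.lf 18255792264 107834058 0) 256 384 224 256 128 256)) = true := by decide +kernel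
  have c1 : (band (go 16 Gd mult S430_459_364_512 (Tr.lf 18255874184 112028362 0) 256 384 224 256 128 256)
  (go 16 Gd mult S459_488_364_512 (Tr.lf 18255792264 107834058 0) 256 384 224 256 128 256)) = true := by decide +kernel
  have c2 : (band (go 16 Gd mult S430_459_512_660 (Tr.lf 18255874184 112028362 0) 256 384 224 256 128 256)
  (go 16 Gd mult S459_488_512_660 (Tr.lf 18255792264 107834058 0) 256 384 224 256 128 256)) = true := by decide +kernel
  have c3 : (band (go 16 Gd mult S430_459_216_364 (Tr.lf 13961955400 99449674 0) 256 384 192 224 192 256)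
  (go 16 Gd mult S430_459_364_512 (Tr.lf 13961955400 99449674 0) 256 384 192 224 192 256)) = true := by decide +kernel
  have c4 : (band (go 16 Gd mult S430_459_512_660 (Tr.lf 13961955400 99449674 0) 256 384 192 224 192 256)
  (band (go 16 Gd mult S459_488_216_364 (Tr.lf 13961873480 95255370 0) 256 384 192 224 192 256)
  (go 16 Gd mult S459_488_364_512 (Tr.lf 13961873480 95255370 0) 256 384 192 224 192 256))) = true := by decide +kernel
  have c5 : (band (go 16 Gd mult S430_459_216_364 (Tr.lf 18802165832 95124554 0) 256 384 192 224 128 192)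
  (band (go 16 Gd mult S430_459_364_512 (Tr.lf 18802181192 95124554 0) 256 384 192 224 128 192)
  (band (go 16 Gd mult S430_459_512_660 (Tr.lf 18802181192 95124554 0) 256 384 192 224 128 192)
  (go 16 Gd mult S459_488_216_364 (Tr.lf 18802099272 95124554 0) 256 384 192 224 128 192)))) = true := by decide +kernel
  have c6 : (band (go 16 Gd mult S459_488_512_660 (Tr.lf 13961873480 95255370 0) 256 384 192 224 192 256)
  (band (go 16 Gd mult S459_488_512_660 (Tr.lf 18802099272 95124554 0) 256 384 192 224 128 192)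
  (go 16 Gd mult S459_488_364_512 (Tr.lf 18802099272 95124554 0) 256 384 192 224 128 192))) = true := by decide +kernel
  (And.intro (Ok.s3 459 (Ok.s2 192 (Ok.lf S430_459_216_364_ok (bl c5))
  (Ok.lf S430_459_216_364_ok (bl c3)))
  (Ok.s2 192 (Ok.lf S459_488_216_364_ok (br (br (br c5))))
  (Ok.lf S459_488_216_364_ok (bl (br c4)))))
  (And.intro (Ok.s3 459 (Ok.lf S430_459_216_364_ok (bl c0))
  (Ok.lf S459_488_216_364_ok (br c0)))
  (And.intro (Ok.s1 224 (Ok.s3 459 (Ok.s2 192 (Ok.lf S430_459_364_512_ok (bl (br c5)))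
  (Ok.lf S430_459_364_512_ok (br c3)))
  (Ok.s2 192 (Ok.lf S459_488_364_512_ok (br (br c6)))
  (Ok.lf S459_488_364_512_ok (br (br c4)))))
  (Ok.s3 459 (Ok.lf S430_459_364_512_ok (bl c1))
  (Ok.lf S459_488_364_512_ok (br c1))))
  (Ok.s1 224 (Ok.s3 459 (Ok.s2 192 (Ok.lf S430_459_512_660_ok (bl (br (br c5))))
  (Ok.lf S430_459_512_660_ok (bl c4)))
  (Ok.s2 192 (Ok.lf S459_488_512_660_ok (bl (br c6)))
  (Ok.lf S459_488_512_660_ok (bl c6))))
  (Ok.s3 459 (Ok.lf S430_459_512_660_ok (bl c2))
  (Ok.lf S459_488_512_660_ok (br c2)))))))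

end Vale.Agent.P098.Ck
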