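import Vale.Agent.P098.CkGd
import Vale.Agent.P098.CkOk
import Vale.Agent.P098.Sh.A10
import Vale.Agent.P098.Sh.A15
import Vale.Agent.P098.Sh.A16
import Vale.Agent.P098.Sh.A18
import Vale.Agent.P098.Sh.A19
import Vale.Agent.P098.Sh.A21
import Vale.Agent.P098.Sh.A22
import Vale.Agent.P098.Sh.A9

namespace Vale.Agent.P098.Ck

theorem r525 :
    Ok Gd mult 256 384 192 256 256 384 140 169 364 512 ∧
    Ok Gd mult 256 384 192 256 256 384 169 198 364 512 ∧
    Ok Gd mult 256 384 192 256 256 384 140 198 512 660 :=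
  have c0 : (go 16 Gd mult S140_169_364_512 (Tr.lf 13440943240 99323080 0) 256 384 192 256 256 320) = true := by decide +kernel
  have c1 : (go 16 Gd mult S140_169_364_512 (Tr.lf 9145975944 103779655 0) 256 384 192 256 320 384) = true := by decide +kernel
  have c2 : (band (go 16 Gd mult S169_198_512_660 (Tr.lf 13441205320 103652424 0) 256 384 192 224 256 320)
  (go 16 Gd mult S169_183_364_512 (Tr.lf 13440926792 99450056 0) 256 384 192 224 256 320)) = true := by decide +kernel
  have c3 : (band (go 16 Gd mult S183_198_364_512 (Tr.lf 13986449476 99581001 0) 256 320 192 224 256 320)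
  (band (go 16 Gd mult S183_198_364_512 (Tr.lf 13986449476 103644233 0) 256 320 192 224 320 384)
  (go 16 Gd mult S183_198_364_512 (Tr.lf 13440140354 103644104 0) 320 384 192 224 320 384))) = true := by decide +kernel
  have c4 : (band (go 16 Gd mult S169_198_364_512 (Tr.lf 13439894600 103779272 0) 256 384 224 256 256 320)
  (band (go 16 Gd mult S169_198_512_660 (Tr.lf 13431489572 103640008 0) 256 384 224 256 256 320)
  (band (go 16 Gd mult S169_198_512_660 (Tr.lf 9136521764 112168134 0) 256 384 224 256 320 384)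
  (go 16 Gd mult S169_198_364_512 (Tr.lf 9136522276 104041670 0) 256 384 224 256 320 384)))) = true := by decide +kernel
  have c5 : (band (go 16 Gd mult S140_169_512_660 (Tr.lf 13440943236 99331144 0) 256 384 192 256 256 320)
  (go 16 Gd mult S140_169_512_660 (Tr.lf 13440943236 95128776 0) 256 384 192 256 320 384)) = true := by decide +kernel
  have c6 : (band (go 16 Gd mult S183_198_512_660 (Tr.lf 13441189956 103521352 0) 256 384 192 224 320 384)
  (band (go 16 Gd mult S169_183_364_512 (Tr.lf 13440927812 95255752 0) 256 384 192 224 320 384)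
  (go 16 Gd mult S169_183_512_660 (Tr.lf 13441188932 99327048 0) 256 384 192 224 320 384))) = true := by decide +kernel
  have c7 : (go 16 Gd mult S183_198_364_512 (Tr.lf 13441188932 103775432 0) 320 384 192 224 256 320) = true := by decide +kernel
  (And.intro (Ok.s2 320 (Ok.lf S140_169_364_512_ok c0)
  (Ok.lf S140_169_364_512_ok c1))
  (And.intro (Ok.s2 320 (Ok.s1 224 (Ok.s3 183 (Ok.lf S169_183_364_512_ok (br c2))
  (Ok.s0 320 (Ok.lf S183_198_364_512_ok (bl c3))
  (Ok.lf S183_198_364_512_ok c7)))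
  (Ok.lf S169_198_364_512_ok (bl c4)))
  (Ok.s1 224 (Ok.s3 183 (Ok.lf S169_183_364_512_ok (bl (br c6)))
  (Ok.s0 320 (Ok.lf S183_198_364_512_ok (bl (br c3)))
  (Ok.lf S183_198_364_512_ok (br (br c3)))))
  (Ok.lf S169_198_364_512_ok (br (br (br c4))))))
  (Ok.s3 169 (Ok.s2 320 (Ok.lf S140_169_512_660_ok (bl c5))
  (Ok.lf S140_169_512_660_ok (br c5)))
  (Ok.s2 320 (Ok.s1 224 (Ok.lf S169_198_512_660_ok (bl c2))
  (Ok.lf S169_198_512_660_ok (bl (br c4))))
  (Ok.s1 224 (Ok.s3 183 (Ok.lf S169_183_512_660_ok (br (br c6)))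
  (Ok.lf S183_198_512_660_ok (bl c6)))
  (Ok.lf S169_198_512_660_ok (bl (br (br c4)))))))))

end Vale.Agent.P098.Ck
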