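import Vale.Agent.P098.CkGd
import Vale.Agent.P098.CkOk
import Vale.Agent.P098.Sh.A23
import Vale.Agent.P098.Sh.A31
import Vale.Agent.P098.Sh.A32
import Vale.Agent.P098.Sh.A35
import Vale.Agent.P098.Sh.A39

namespace Vale.Agent.P098.Ck

theorem r529 :
    Ok Gd mult 256 384 192 256 320 384 198 212 364 512 ∧
    Ok Gd mult 256 384 192 256 256 384 212 227 364 512 ∧
    Ok Gd mult 256 288 192 256 256 384 227 256 364 512 :=
  have c0 : (band (go 16 Gd mult S198_212_364_512 (Tr.lf 18281416836 99445706 0) 256 320 192 224 320 384)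
  (go 16 Gd mult S212_227_438_512 (Tr.lf 13449316420 103771209 0) 256 320 192 224 320 384)) = true := by decide +kernel
  have c1 : (go 16 Gd mult S212_227_364_438 (Tr.lf 18280122500 95382218 0) 256 320 192 224 256 320) = true := by decide +kernel
  have c2 : (band (go 16 Gd mult S212_227_364_512 (Tr.lf 13440141444 107969480 0) 320 384 192 224 256 384)
  (go 16 Gd mult S212_227_364_512 (Tr.lf 13439092802 103910088 0) 320 384 224 256 256 384)) = true := by decide +kernel
  have c3 : (band (go 16 Gd mult S241_256_364_512 (Tr.lf 17734060162 99318090 0) 256 288 192 256 256 320)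
  (go 16 Gd mult S227_241_438_512 (Tr.lf 13439878274 103775431 0) 256 288 192 256 256 320)) = true := by decide +kernel
  have c4 : (band (go 16 Gd mult S227_241_364_512 (Tr.lf 13439092866 103774920 0) 256 288 192 256 320 384)
  (go 16 Gd mult S241_256_364_512 (Tr.lf 13438821506 99588680 0) 256 288 192 256 320 384)) = true := by decide +kernel
  have c5 : (band (go 16 Gd mult S212_227_364_438 (Tr.lf 18280106116 103516874 0) 256 320 224 256 256 320)
  (go 16 Gd mult S212_227_364_438 (Tr.lf 18281154692 99445706 0) 256 320 192 224 320 384)) = true := by decide +kernel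
  have c6 : (go 16 Gd mult S212_227_438_512 (Tr.lf 17734846596 95255114 0) 256 320 192 256 256 320) = true := by decide +kernel
  have c7 : (go 16 Gd mult S198_212_364_512 (Tr.lf 13440141378 99580872 0) 320 384 192 224 320 384) = true := by decide +kernel
  have c8 : (band (go 16 Gd mult S227_241_364_438 (Tr.lf 18280106114 99445450 0) 256 288 192 224 256 320)
  (go 16 Gd mult S227_241_364_438 (Tr.lf 18280106114 103644105 0) 256 288 224 256 256 320)) = true := by decide +kernel
  have c9 : (go 16 Gd mult S198_212_364_512 (Tr.lf 13439870020 99584968 0) 256 384 224 256 320 384) = true := by decide +kernel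
  have c10 : (go 16 Gd mult S212_227_364_512 (Tr.lf 13439878210 99453896 0) 256 320 224 256 320 384) = true := by decide +kernel
  (And.intro (Ok.s1 224 (Ok.s0 320 (Ok.lf S198_212_364_512_ok (bl c0))
  (Ok.lf S198_212_364_512_ok c7))
  (Ok.lf S198_212_364_512_ok c9))
  (And.intro (Ok.s0 320 (Ok.s2 320 (Ok.s4 438 (Ok.s1 224 (Ok.lf S212_227_364_438_ok c1)
  (Ok.lf S212_227_364_438_ok (bl c5)))
  (Ok.lf S212_227_438_512_ok c6))
  (Ok.s1 224 (Ok.s4 438 (Ok.lf S212_227_364_438_ok (br c5))
  (Ok.lf S212_227_438_512_ok (br c0)))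
  (Ok.lf S212_227_364_512_ok c10)))
  (Ok.s1 224 (Ok.lf S212_227_364_512_ok (bl c2))
  (Ok.lf S212_227_364_512_ok (br c2))))
  (Ok.s2 320 (Ok.s3 241 (Ok.s4 438 (Ok.s1 224 (Ok.lf S227_241_364_438_ok (bl c8))
  (Ok.lf S227_241_364_438_ok (br c8)))
  (Ok.lf S227_241_438_512_ok (br c3)))
  (Ok.lf S241_256_364_512_ok (bl c3)))
  (Ok.s3 241 (Ok.lf S227_241_364_512_ok (bl c4))
  (Ok.lf S241_256_364_512_ok (br c4))))))

end Vale.Agent.P098.Ck
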