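import Vale.Agent.P098.CkGd
import Vale.Agent.P098.CkOk
import Vale.Agent.P098.Sh.A54
import Vale.Agent.P098.Sh.A56
import Vale.Agent.P098.Sh.A57

namespace Vale.Agent.P098.Ck

theorem r532 :
    Ok Gd mult 256 384 192 256 256 384 401 430 216 364 ∧
    Ok Gd mult 256 384 192 256 256 384 372 430 364 512 ∧
    Ok Gd mult 256 384 192 256 256 384 372 430 512 660 :=
  have c0 : (band (go 16 Gd mult S401_430_512_660 (Tr.lf 13970344072 99584842 0) 256 384 192 224 256 320)
  (go 16 Gd mult S401_430_512_660 (Tr.lf 13960905800 107838536 0) 256 384 224 256 256 320)) = true := by decide +kernel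
  have c1 : (band (go 16 Gd mult S401_430_512_660 (Tr.lf 13970344072 103775050 0) 256 384 192 224 320 384)
  (go 16 Gd mult S401_430_512_660 (Tr.lf 13960905800 103770953 0) 256 384 224 256 320 384)) = true := by decide +kernel
  have c2 : (go 16 Gd mult S401_430_216_364 (Tr.lf 13970475080 99584842 0) 256 384 192 224 256 320) = true := by decide +kernel
  have c3 : (go 16 Gd mult S372_401_364_512 (Tr.lf 13432554632 107973449 0) 256 384 192 256 256 320) = true := by decide +kernel
  have c4 : (band (go 16 Gd mult S401_430_364_512 (Tr.lf 13970344068 95517514 0) 256 320 192 224 256 320)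
  (go 16 Gd mult S401_430_364_512 (Tr.lf 13970344008 103775050 0) 256 384 192 224 320 384)) = true := by decide +kernel
  have c5 : (band (go 16 Gd mult S372_401_512_660 (Tr.lf 9137456264 103914440 0) 256 384 192 256 256 320)
  (go 16 Gd mult S372_401_512_660 (Tr.lf 9674327176 103648328 0) 256 384 192 256 320 384)) = true := by decide +kernel
  have c6 : (go 16 Gd mult S372_401_364_512 (Tr.lf 9137439880 104041416 0) 256 384 192 256 320 384) = true := by decide +kernel
  have c7 : (band (go 16 Gd mult S401_430_364_512 (Tr.lf 13960905800 107838536 0) 256 384 224 256 256 320)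
  (band (go 16 Gd mult S401_430_216_364 (Tr.lf 13961020488 107838536 0) 256 384 224 256 256 320)
  (band (go 16 Gd mult S401_430_216_364 (Tr.lf 13970458692 99449929 0) 256 320 192 224 320 384)
  (go 16 Gd mult S401_430_364_512 (Tr.lf 13970342980 99584842 0) 320 384 192 224 256 320)))) = true := by decide +kernel
  have c8 : (band (go 16 Gd mult S401_430_216_364 (Tr.lf 13970327620 103775050 0) 320 384 192 224 320 384)
  (band (go 16 Gd mult S401_430_216_364 (Tr.lf 13960889416 103770953 0) 256 384 224 256 320 384)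
  (go 16 Gd mult S401_430_364_512 (Tr.lf 13960889416 103770953 0) 256 384 224 256 320 384))) = true := by decide +kernel
  (And.intro (Ok.s2 320 (Ok.s1 224 (Ok.lf S401_430_216_364_ok c2)
  (Ok.lf S401_430_216_364_ok (bl (br c7))))
  (Ok.s1 224 (Ok.s0 320 (Ok.lf S401_430_216_364_ok (bl (br (br c7))))
  (Ok.lf S401_430_216_364_ok (bl c8)))
  (Ok.lf S401_430_216_364_ok (bl (br c8)))))
  (And.intro (Ok.s3 401 (Ok.s2 320 (Ok.lf S372_401_364_512_ok c3)
  (Ok.lf S372_401_364_512_ok c6))
  (Ok.s2 320 (Ok.s1 224 (Ok.s0 320 (Ok.lf S401_430_364_512_ok (bl c4))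
  (Ok.lf S401_430_364_512_ok (br (br (br c7)))))
  (Ok.lf S401_430_364_512_ok (bl c7)))
  (Ok.s1 224 (Ok.lf S401_430_364_512_ok (br c4))
  (Ok.lf S401_430_364_512_ok (br (br c8))))))
  (Ok.s3 401 (Ok.s2 320 (Ok.lf S372_401_512_660_ok (bl c5))
  (Ok.lf S372_401_512_660_ok (br c5)))
  (Ok.s2 320 (Ok.s1 224 (Ok.lf S401_430_512_660_ok (bl c0))
  (Ok.lf S401_430_512_660_ok (br c0)))
  (Ok.s1 224 (Ok.lf S401_430_512_660_ok (bl c1))
  (Ok.lf S401_430_512_660_ok (br c1)))))))

end Vale.Agent.P098.Ck
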