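import Vale.Agent.P098.CkGd
import Vale.Agent.P098.CkOk
import Vale.Agent.P098.Sh.A58
import Vale.Agent.P098.Sh.A59

namespace Vale.Agent.P098.Ck

theorem r549 :
    Ok Gd mult 256 384 256 320 0 128 430 488 216 364 ∧
    Ok Gd mult 256 384 256 320 0 128 430 488 364 512 ∧
    Ok Gd mult 256 384 256 320 0 128 430 488 512 660 ∧
    Ok Gd mult 256 384 256 320 0 128 430 459 660 808 :=
  have c0 : (band (go 16 Gd mult S459_488_216_364 (Tr.lf 22011791496 99318472 0) 256 320 256 320 0 64)
  (band (go 16 Gd mult S459_488_364_512 (Tr.lf 22011791496 99318472 0) 256 320 256 320 0 64)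
  (go 16 Gd mult S459_488_512_660 (Tr.lf 22011791496 99318472 0) 256 320 256 320 0 64))) = true := by decide +kernel
  have c1 : (band (go 16 Gd mult S430_488_216_364 (Tr.lf 22013904008 95247433 0) 256 320 256 320 64 128)
  (band (go 16 Gd mult S430_488_364_512 (Tr.lf 22013904008 95247433 0) 256 320 256 320 64 128)
  (go 16 Gd mult S430_488_512_660 (Tr.lf 22013904008 95247433 0) 256 320 256 320 64 128))) = true := by decide +kernel
  have c2 : (band (go 16 Gd mult S430_488_216_364 (Tr.lf 22011806852 95251017 0) 320 384 256 320 0 64)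
  (band (go 16 Gd mult S430_488_364_512 (Tr.lf 22011806852 95251017 0) 320 384 256 320 0 64)
  (band (go 16 Gd mult S430_488_512_660 (Tr.lf 22011806852 95251017 0) 320 384 256 320 0 64)
  (go 16 Gd mult S430_488_216_364 (Tr.lf 22012855428 95251018 0) 320 384 256 320 64 128)))) = true := by decide +kernel
  have c3 : (band (go 16 Gd mult S430_488_364_512 (Tr.lf 22012855428 95251018 0) 320 384 256 320 64 128)
  (go 16 Gd mult S430_488_512_660 (Tr.lf 22012855428 95251018 0) 320 384 256 320 64 128)) = true := by decide +kernel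
  have c4 : (band (go 16 Gd mult S430_459_660_808 (Tr.lf 22011791492 95250762 0) 320 384 256 320 0 128)
  (band (go 16 Gd mult S430_459_660_808 (Tr.lf 22012839044 95247177 0) 256 320 256 320 64 128)
  (band (go 16 Gd mult S430_459_660_808 (Tr.lf 22011790468 95255240 0) 256 320 256 320 0 64)
  (band (go 16 Gd mult S430_459_216_364 (Tr.lf 22011790468 103512776 0) 256 320 256 320 0 64)
  (go 16 Gd mult S430_459_364_512 (Tr.lf 22011790468 95255240 0) 256 320 256 320 0 64))))) = true := by decide +kernel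
  have c5 : (go 16 Gd mult S430_459_512_660 (Tr.lf 22011790468 95255240 0) 256 320 256 320 0 64) = true := by decide +kernel
  (And.intro (Ok.s2 64 (Ok.s0 320 (Ok.s3 459 (Ok.lf S430_459_216_364_ok (bl (br (br (br c4)))))
  (Ok.lf S459_488_216_364_ok (bl c0)))
  (Ok.lf S430_488_216_364_ok (bl c2)))
  (Ok.s0 320 (Ok.lf S430_488_216_364_ok (bl c1))
  (Ok.lf S430_488_216_364_ok (br (br (br c2))))))
  (And.intro (Ok.s2 64 (Ok.s0 320 (Ok.s3 459 (Ok.lf S430_459_364_512_ok (br (br (br (br c4)))))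
  (Ok.lf S459_488_364_512_ok (bl (br c0))))
  (Ok.lf S430_488_364_512_ok (bl (br c2))))
  (Ok.s0 320 (Ok.lf S430_488_364_512_ok (bl (br c1)))
  (Ok.lf S430_488_364_512_ok (bl c3))))
  (And.intro (Ok.s2 64 (Ok.s0 320 (Ok.s3 459 (Ok.lf S430_459_512_660_ok c5)
  (Ok.lf S459_488_512_660_ok (br (br c0))))
  (Ok.lf S430_488_512_660_ok (bl (br (br c2)))))
  (Ok.s0 320 (Ok.lf S430_488_512_660_ok (br (br c1)))
  (Ok.lf S430_488_512_660_ok (br c3))))
  (Ok.s0 320 (Ok.s2 64 (Ok.lf S430_459_660_808_ok (bl (br (br c4))))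
  (Ok.lf S430_459_660_808_ok (bl (br c4))))
  (Ok.lf S430_459_660_808_ok (bl c4))))))

end Vale.Agent.P098.Ck
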