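import Vale.Agent.P098.CkGd
import Vale.Agent.P098.CkOk
import Vale.Agent.P098.Sh.A0
import Vale.Agent.P098.Sh.A1

namespace Vale.Agent.P098.Ck

theorem r617 :
    Ok Gd mult 384 512 32 64 448 512 24 82 216 364 ∧
    Ok Gd mult 384 512 0 64 384 512 24 82 364 512 :=
  have c0 : (band (go 16 Gd mult S53_82_216_364 (Tr.lf 9675376776 103382215 0) 384 512 32 64 448 480)
  (go 16 Gd mult S24_53_216_364 (Tr.lf 9666906244 99306695 0) 384 512 32 64 448 480)) = true := by decide +kernel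
  have c1 : (go 16 Gd mult S24_53_364_512 (Tr.lf 9666988168 99171400 0) 384 512 32 64 384 448) = true := by decide +kernel
  have c2 : (go 16 Gd mult S24_53_364_512 (Tr.lf 9666922632 99568839 0) 384 512 0 32 480 512) = true := by decide +kernel
  have c3 : (band (go 16 Gd mult S53_82_364_512 (Tr.lf 9675360392 103377992 0) 384 512 0 32 448 480)
  (band (go 16 Gd mult S24_53_364_512 (Tr.lf 9666906248 94981192 0) 384 512 0 32 448 480)
  (go 16 Gd mult S24_53_364_512 (Tr.lf 9666906244 99306695 0) 384 512 32 64 448 480))) = true := by decide +kernel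
  have c4 : (band (go 16 Gd mult S53_82_364_512 (Tr.lf 9675294856 107707591 0) 384 512 0 16 480 512)
  (band (go 16 Gd mult S53_82_364_512 (Tr.lf 13432342660 78068298 0) 384 448 32 64 384 448)
  (band (go 16 Gd mult S53_82_364_512 (Tr.lf 9675294852 107576519 466645366371246861436583936) 384 512 16 32 480 512)
  (go 16 Gd mult S53_82_364_512 (Tr.lf 9675294852 103640263 0) 384 512 32 64 448 480)))) = true := by decide +kernel
  have c5 : (band (go 16 Gd mult S53_82_216_364 (Tr.lf 9675360388 94850248 0) 384 512 32 64 480 512)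
  (band (go 16 Gd mult S53_82_364_512 (Tr.lf 9675294852 90655944 0) 384 512 32 64 480 512)
  (band (go 16 Gd mult S24_53_216_364 (Tr.lf 9666906244 90782792 0) 384 512 32 64 480 512)
  (go 16 Gd mult S24_53_364_512 (Tr.lf 9666906244 90782792 0) 384 512 32 64 480 512)))) = true := by decide +kernel
  have c6 : (go 16 Gd mult S24_82_364_512 (Tr.lf 1076988034 99445831 0) 384 512 0 32 384 448) = true := by decide +kernel
  have c7 : (go 16 Gd mult S53_82_364_512 (Tr.lf 9675294850 94858312 0) 448 512 32 64 384 448) = true := by decide +kernel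
  (And.intro (Ok.s3 53 (Ok.s2 480 (Ok.lf S24_53_216_364_ok (br c0))
  (Ok.lf S24_53_216_364_ok (bl (br (br c5)))))
  (Ok.s2 480 (Ok.lf S53_82_216_364_ok (bl c0))
  (Ok.lf S53_82_216_364_ok (bl c5))))
  (Ok.s2 448 (Ok.s1 32 (Ok.lf S24_82_364_512_ok c6)
  (Ok.s3 53 (Ok.lf S24_53_364_512_ok c1)
  (Ok.s0 448 (Ok.lf S53_82_364_512_ok (bl (br c4)))
  (Ok.lf S53_82_364_512_ok c7))))
  (Ok.s1 32 (Ok.s3 53 (Ok.s2 480 (Ok.lf S24_53_364_512_ok (bl (br c3)))
  (Ok.lf S24_53_364_512_ok c2))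
  (Ok.s2 480 (Ok.lf S53_82_364_512_ok (bl c3))
  (Ok.s1 16 (Ok.lf S53_82_364_512_ok (bl c4))
  (Ok.lf S53_82_364_512_ok (bl (br (br c4)))))))
  (Ok.s3 53 (Ok.s2 480 (Ok.lf S24_53_364_512_ok (br (br c3)))
  (Ok.lf S24_53_364_512_ok (br (br (br c5)))))
  (Ok.s2 480 (Ok.lf S53_82_364_512_ok (br (br (br c4))))
  (Ok.lf S53_82_364_512_ok (bl (br c5))))))))

end Vale.Agent.P098.Ck
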