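import Vale.Agent.P098.CkGd
import Vale.Agent.P098.CkOk
import Vale.Agent.P098.Sh.A2
import Vale.Agent.P098.Sh.A4
import Vale.Agent.P098.Sh.A5
import Vale.Agent.P098.Sh.A6

namespace Vale.Agent.P098.Ck

theorem r620 :
    Ok Gd mult 384 512 32 64 448 480 82 111 216 364 ∧
    Ok Gd mult 384 512 32 64 448 480 111 140 216 364 ∧
    Ok Gd mult 384 512 0 32 480 496 82 140 216 364 :=
  have c0 : (band (go 16 Gd mult S125_140_216_364 (Tr.lf 13987497096 103386312 0) 384 512 32 48 464 480)
  (go 16 Gd mult S111_125_216_364 (Tr.lf 13978846340 103386184 0) 384 512 32 48 464 480)) = true := by decide +kernel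
  have c1 : (band (go 16 Gd mult S82_111_216_364 (Tr.lf 13978862724 99191880 0) 384 512 32 48 464 480)
  (go 16 Gd mult S82_111_216_364 (Tr.lf 13978862664 98925513 0) 384 512 48 64 464 480)) = true := by decide +kernel
  have c2 : (band (go 16 Gd mult S111_125_216_364 (Tr.lf 13987234952 107715656 0) 384 512 48 64 448 464)
  (band (go 16 Gd mult S125_140_216_364 (Tr.lf 13987234952 99200072 0) 384 512 48 64 448 464)
  (go 16 Gd mult S82_96_216_364 (Tr.lf 13977658440 103254856 0) 384 512 48 64 448 464))) = true := by decide +kernel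
  have c3 : (band (go 16 Gd mult S125_140_216_364 (Tr.lf 13987234952 103386312 0) 384 512 48 64 464 480)
  (band (go 16 Gd mult S111_125_216_364 (Tr.lf 13978846280 103120072 0) 384 512 48 64 464 480)
  (go 16 Gd mult S111_125_216_364 (Tr.lf 13987234948 99065032 0) 384 512 16 32 480 496))) = true := by decide +kernel
  have c4 : (band (go 16 Gd mult S111_140_216_364 (Tr.lf 9145975940 95128647 0) 384 512 0 16 480 496)
  (band (go 16 Gd mult S82_111_216_364 (Tr.lf 9682830468 107580487 0) 384 512 0 16 480 496)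
  (go 16 Gd mult S111_140_216_364 (Tr.lf 13440943172 90667976 0) 384 512 32 48 448 464))) = true := by decide +kernel
  have c5 : (band (go 16 Gd mult S125_140_216_364 (Tr.lf 13987234952 99065032 0) 384 512 16 32 480 496)
  (go 16 Gd mult S82_111_216_364 (Tr.lf 9682715780 107715527 0) 384 512 16 32 480 496)) = true := by decide +kernel
  have c6 : (go 16 Gd mult S96_111_216_364 (Tr.lf 13978715272 103255367 0) 384 512 48 64 448 464) = true := by decide +kernel
  have c7 : (go 16 Gd mult S82_111_216_364 (Tr.lf 13977666692 103119816 0) 384 512 32 48 448 464) = true := by decide +kernel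
  (And.intro (Ok.s1 48 (Ok.s2 464 (Ok.lf S82_111_216_364_ok c7)
  (Ok.lf S82_111_216_364_ok (bl c1)))
  (Ok.s2 464 (Ok.s3 96 (Ok.lf S82_96_216_364_ok (br (br c2)))
  (Ok.lf S96_111_216_364_ok c6))
  (Ok.lf S82_111_216_364_ok (br c1))))
  (And.intro (Ok.s1 48 (Ok.s2 464 (Ok.lf S111_140_216_364_ok (br (br c4)))
  (Ok.s3 125 (Ok.lf S111_125_216_364_ok (br c0))
  (Ok.lf S125_140_216_364_ok (bl c0))))
  (Ok.s2 464 (Ok.s3 125 (Ok.lf S111_125_216_364_ok (bl c2))
  (Ok.lf S125_140_216_364_ok (bl (br c2))))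
  (Ok.s3 125 (Ok.lf S111_125_216_364_ok (bl (br c3)))
  (Ok.lf S125_140_216_364_ok (bl c3)))))
  (Ok.s3 111 (Ok.s1 16 (Ok.lf S82_111_216_364_ok (bl (br c4)))
  (Ok.lf S82_111_216_364_ok (br c5)))
  (Ok.s1 16 (Ok.lf S111_140_216_364_ok (bl c4))
  (Ok.s3 125 (Ok.lf S111_125_216_364_ok (br (br c3)))
  (Ok.lf S125_140_216_364_ok (bl c5)))))))

end Vale.Agent.P098.Ck
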