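import Vale.Agent.P098.CkGd
import Vale.Agent.P098.CkOk
import Vale.Agent.P098.Sh.A12
import Vale.Agent.P098.Sh.A14
import Vale.Agent.P098.Sh.A15
import Vale.Agent.P098.Sh.A17
import Vale.Agent.P098.Sh.A20
import Vale.Agent.P098.Sh.A7
import Vale.Agent.P098.Sh.A8

namespace Vale.Agent.P098.Ck

theorem r626 :
    Ok Gd mult 384 512 32 64 384 448 140 198 216 364 ∧
    Ok Gd mult 384 512 0 64 448 480 140 169 216 364 ∧
    Ok Gd mult 384 512 0 32 448 480 169 198 216 364 ∧
    Ok Gd mult 384 512 32 64 448 480 169 183 216 364 :=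
  have c0 : (band (go 16 Gd mult S169_183_216_364 (Tr.lf 1151879300 95386567 0) 384 512 32 64 384 448)
  (go 16 Gd mult S183_198_216_364 (Tr.lf 9145960516 90667976 0) 384 512 32 64 384 448)) = true := by decide +kernel
  have c1 : (go 16 Gd mult S140_154_216_364 (Tr.lf 13987498056 103386312 0) 384 512 48 64 448 480) = true := by decide +kernel
  have c2 : (go 16 Gd mult S154_169_216_364 (Tr.lf 13987498056 103386312 0) 384 512 48 64 448 480) = true := by decide +kernel
  have c3 : (band (go 16 Gd mult S140_169_216_364 (Tr.lf 9145975940 99052488 0) 384 512 32 64 416 448)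
  (go 16 Gd mult S140_169_216_364 (Tr.lf 9145975940 94862280 0) 384 512 0 32 448 480)) = true := by decide +kernel
  have c4 : (band (go 16 Gd mult S140_154_216_364 (Tr.lf 13987497092 103386312 0) 384 512 32 48 464 480)
  (go 16 Gd mult S154_169_216_364 (Tr.lf 13450626180 94997704 0) 384 512 32 48 464 480)) = true := by decide +kernel
  have c5 : (go 16 Gd mult S169_198_216_364 (Tr.lf 8684676 99589060 0) 384 512 0 32 448 480) = true := by decide +kernel
  have c6 : (band (go 16 Gd mult S169_183_216_290 (Tr.lf 13450365000 86473801 0) 384 512 32 48 448 480)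
  (go 16 Gd mult S169_183_290_364 (Tr.lf 8609089604 90930247 0) 384 512 32 48 448 480)) = true := by decide +kernel
  have c7 : (band (go 16 Gd mult S169_183_216_290 (Tr.lf 13987235912 103120200 0) 384 512 48 64 448 480)
  (go 16 Gd mult S169_183_290_364 (Tr.lf 9145960520 95124806 0) 384 512 48 64 448 480)) = true := by decide +kernel
  have c8 : (go 16 Gd mult S140_169_216_364 (Tr.lf 1151615554 95513543 0) 384 512 32 64 384 416) = true := by decide +kernel
  have c9 : (band (go 16 Gd mult S140_154_216_364 (Tr.lf 9145819716 95124551 0) 384 512 32 48 448 464)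
  (go 16 Gd mult S154_169_216_364 (Tr.lf 9145950754 95124551 0) 384 512 32 48 448 464)) = true := by decide +kernel
  (And.intro (Ok.s3 169 (Ok.s2 416 (Ok.lf S140_169_216_364_ok c8)
  (Ok.lf S140_169_216_364_ok (bl c3)))
  (Ok.s3 183 (Ok.lf S169_183_216_364_ok (bl c0))
  (Ok.lf S183_198_216_364_ok (br c0))))
  (And.intro (Ok.s1 32 (Ok.lf S140_169_216_364_ok (br c3))
  (Ok.s1 48 (Ok.s3 154 (Ok.s2 464 (Ok.lf S140_154_216_364_ok (bl c9))
  (Ok.lf S140_154_216_364_ok (bl c4)))
  (Ok.s2 464 (Ok.lf S154_169_216_364_ok (br c9))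
  (Ok.lf S154_169_216_364_ok (br c4))))
  (Ok.s3 154 (Ok.lf S140_154_216_364_ok c1)
  (Ok.lf S154_169_216_364_ok c2))))
  (And.intro (Ok.lf S169_198_216_364_ok c5)
  (Ok.s1 48 (Ok.s4 290 (Ok.lf S169_183_216_290_ok (bl c6))
  (Ok.lf S169_183_290_364_ok (br c6)))
  (Ok.s4 290 (Ok.lf S169_183_216_290_ok (bl c7))
  (Ok.lf S169_183_290_364_ok (br c7)))))))

end Vale.Agent.P098.Ck
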