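import Vale.Agent.P098.CkGd
import Vale.Agent.P098.CkOk
import Vale.Agent.P098.Sh.A12
import Vale.Agent.P098.Sh.A14
import Vale.Agent.P098.Sh.A20
import Vale.Agent.P098.Sh.A7
import Vale.Agent.P098.Sh.A8

namespace Vale.Agent.P098.Ck

theorem r628 :
    Ok Gd mult 384 512 0 32 496 504 140 169 216 364 ∧
    Ok Gd mult 384 512 32 64 496 504 140 169 216 364 ∧
    Ok Gd mult 384 512 0 64 496 504 169 198 216 364 ∧
    Ok Gd mult 384 512 0 64 504 508 140 169 216 364 :=
  have c0 : (band (go 16 Gd mult S183_198_216_364 (Tr.lf 4314399876 104037446 0) 384 512 16 32 496 504)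
  (go 16 Gd mult S140_154_216_364 (Tr.lf 13987497028 95120712 0) 384 512 16 32 496 504)) = true := by decide +kernel
  have c1 : (band (go 16 Gd mult S183_198_216_364 (Tr.lf 4851270788 103775430 0) 384 512 32 64 496 504)
  (go 16 Gd mult S140_154_216_364 (Tr.lf 9692529284 99192008 0) 384 512 32 64 496 504)) = true := by decide +kernel
  have c2 : (band (go 16 Gd mult S154_169_216_364 (Tr.lf 13987497092 107453640 0) 384 512 0 16 496 504)
  (band (go 16 Gd mult S169_183_216_364 (Tr.lf 9146221700 103513159 0) 384 512 0 16 496 504)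
  (go 16 Gd mult S154_169_216_364 (Tr.lf 13987496516 95120457 0) 384 512 16 32 504 508))) = true := by decide +kernel
  have c3 : (band (go 16 Gd mult S154_169_216_364 (Tr.lf 13987497092 90533065 0) 384 512 32 64 496 504)
  (go 16 Gd mult S169_183_216_364 (Tr.lf 13987497092 94596297 0) 384 512 32 64 496 504)) = true := by decide +kernel
  have c4 : (band (go 16 Gd mult S169_183_216_364 (Tr.lf 4314383492 108231750 0) 384 512 16 32 496 504)
  (band (go 16 Gd mult S154_169_216_364 (Tr.lf 13987497028 99183689 0) 384 512 16 32 496 504)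
  (go 16 Gd mult S154_169_216_364 (Tr.lf 13987496580 111766601 0) 384 512 0 16 504 508))) = true := by decide +kernel
  have c5 : (band (go 16 Gd mult S183_198_216_364 (Tr.lf 9146238020 99318855 0) 384 512 0 16 496 504)
  (band (go 16 Gd mult S140_154_216_364 (Tr.lf 13987496580 99196104 0) 384 512 0 16 496 504)
  (go 16 Gd mult S140_154_216_364 (Tr.lf 13987496516 111774920 0) 384 512 0 16 504 508))) = true := by decide +kernel
  have c6 : (go 16 Gd mult S140_154_216_364 (Tr.lf 13987496516 94862409 0) 384 512 16 32 504 508) = true := by decide +kernel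
  have c7 : (go 16 Gd mult S140_169_216_364 (Tr.lf 4313088324 91065286 0) 384 512 32 64 504 508) = true := by decide +kernel
  (And.intro (Ok.s1 16 (Ok.s3 154 (Ok.lf S140_154_216_364_ok (bl (br c5)))
  (Ok.lf S154_169_216_364_ok (bl c2)))
  (Ok.s3 154 (Ok.lf S140_154_216_364_ok (br c0))
  (Ok.lf S154_169_216_364_ok (bl (br c4)))))
  (And.intro (Ok.s3 154 (Ok.lf S140_154_216_364_ok (br c1))
  (Ok.lf S154_169_216_364_ok (bl c3)))
  (And.intro (Ok.s1 32 (Ok.s3 183 (Ok.s1 16 (Ok.lf S169_183_216_364_ok (bl (br c2)))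
  (Ok.lf S169_183_216_364_ok (bl c4)))
  (Ok.s1 16 (Ok.lf S183_198_216_364_ok (bl c5))
  (Ok.lf S183_198_216_364_ok (bl c0))))
  (Ok.s3 183 (Ok.lf S169_183_216_364_ok (br c3))
  (Ok.lf S183_198_216_364_ok (bl c1))))
  (Ok.s1 32 (Ok.s1 16 (Ok.s3 154 (Ok.lf S140_154_216_364_ok (br (br c5)))
  (Ok.lf S154_169_216_364_ok (br (br c4))))
  (Ok.s3 154 (Ok.lf S140_154_216_364_ok c6)
  (Ok.lf S154_169_216_364_ok (br (br c2)))))
  (Ok.lf S140_169_216_364_ok c7)))))

end Vale.Agent.P098.Ck
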