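import Vale.Agent.P098.CkGd
import Vale.Agent.P098.CkOk
import Vale.Agent.P098.Sh.A14
import Vale.Agent.P098.Sh.A15
import Vale.Agent.P098.Sh.A18
import Vale.Agent.P098.Sh.A21

namespace Vale.Agent.P098.Ck

theorem r632 :
    Ok Gd mult 384 512 32 64 448 512 165 169 364 512 ∧
    Ok Gd mult 384 512 0 64 384 448 169 198 364 512 ∧
    Ok Gd mult 384 448 0 64 448 512 169 198 364 512 :=
  have c0 : (go 16 Gd mult S165_169_364_512 (Tr.lf 8608295048 86608711 0) 384 512 32 64 448 480) = true := by decide +kernel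
  have c1 : (band (go 16 Gd mult S169_183_364_512 (Tr.lf 9146222724 94989511 0) 384 448 32 64 480 512)
  (go 16 Gd mult S169_183_364_512 (Tr.lf 8608303170 86608711 0) 384 448 32 48 448 480)) = true := by decide +kernel
  have c2 : (band (go 16 Gd mult S183_198_364_512 (Tr.lf 8609351812 90803271 0) 384 448 32 64 448 480)
  (go 16 Gd mult S183_198_364_512 (Tr.lf 8608303233 90671943 0) 416 448 32 64 480 512)) = true := by decide +kernel
  have c3 : (band (go 16 Gd mult S169_183_364_512 (Tr.lf 9146222722 99449927 0) 384 448 0 32 496 512)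
  (go 16 Gd mult S183_198_364_512 (Tr.lf 8609351810 91061319 0) 384 448 0 32 496 512)) = true := by decide +kernel
  have c4 : (band (go 16 Gd mult S183_198_364_512 (Tr.lf 8609351810 90930247 0) 384 416 32 64 480 512)
  (go 16 Gd mult S183_198_364_512 (Tr.lf 8609350788 86740039 0) 384 448 0 32 480 496)) = true := by decide +kernel
  have c5 : (band (go 16 Gd mult S169_183_364_512 (Tr.lf 9146221700 95128647 0) 384 448 0 32 480 496)
  (go 16 Gd mult S169_183_364_512 (Tr.lf 9146222658 103521478 0) 384 448 48 64 448 480)) = true := by decide +kernel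
  have c6 : (band (go 16 Gd mult S169_198_364_512 (Tr.lf 4304685124 99187654 0) 384 512 32 64 384 448)
  (go 16 Gd mult S169_198_364_512 (Tr.lf 1228162113 104037448 0) 384 512 0 32 384 448)) = true := by decide +kernel
  have c7 : (band (go 16 Gd mult S165_169_364_512 (Tr.lf 9146209412 95124551 0) 384 512 32 64 480 496)
  (go 16 Gd mult S165_169_364_512 (Tr.lf 9146209412 94989256 0) 384 512 32 64 496 512)) = true := by decide +kernel
  have c8 : (band (go 16 Gd mult S169_183_364_512 (Tr.lf 8528962 103783364 0) 384 448 0 32 448 480)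
  (go 16 Gd mult S183_198_364_512 (Tr.lf 8528961 103783364 0) 384 448 0 32 448 480)) = true := by decide +kernel
  (And.intro (Ok.s2 480 (Ok.lf S165_169_364_512_ok c0)
  (Ok.s2 496 (Ok.lf S165_169_364_512_ok (bl c7))
  (Ok.lf S165_169_364_512_ok (br c7))))
  (And.intro (Ok.s1 32 (Ok.lf S169_198_364_512_ok (br c6))
  (Ok.lf S169_198_364_512_ok (bl c6)))
  (Ok.s3 183 (Ok.s1 32 (Ok.s2 480 (Ok.lf S169_183_364_512_ok (bl c8))
  (Ok.s2 496 (Ok.lf S169_183_364_512_ok (bl c5))
  (Ok.lf S169_183_364_512_ok (bl c3))))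
  (Ok.s2 480 (Ok.s1 48 (Ok.lf S169_183_364_512_ok (br c1))
  (Ok.lf S169_183_364_512_ok (br c5)))
  (Ok.lf S169_183_364_512_ok (bl c1))))
  (Ok.s1 32 (Ok.s2 480 (Ok.lf S183_198_364_512_ok (br c8))
  (Ok.s2 496 (Ok.lf S183_198_364_512_ok (br c4))
  (Ok.lf S183_198_364_512_ok (br c3))))
  (Ok.s2 480 (Ok.lf S183_198_364_512_ok (bl c2))
  (Ok.s0 416 (Ok.lf S183_198_364_512_ok (bl c4))
  (Ok.lf S183_198_364_512_ok (br c2))))))))

end Vale.Agent.P098.Ck
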