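import Vale.Agent.P098.CkGd
import Vale.Agent.P098.CkOk
import Vale.Agent.P098.Sh.A48
import Vale.Agent.P098.Sh.A49
import Vale.Agent.P098.Sh.A51
import Vale.Agent.P098.Sh.A52

namespace Vale.Agent.P098.Ck

theorem r641 :
    Ok Gd mult 384 512 0 64 384 512 314 372 364 512 ∧
    Ok Gd mult 384 512 0 64 384 512 314 372 512 660 ∧
    Ok Gd mult 384 512 0 64 384 512 314 343 660 808 ∧
    Ok Gd mult 384 512 0 64 384 448 343 372 660 808 :=
  have c0 : (go 16 Gd mult S314_343_660_734 (Tr.lf 1169459332 103783624 441449032428273992204288) 384 512 0 64 448 512) = true := by decide +kernel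
  have c1 : (go 16 Gd mult S314_343_364_512 (Tr.lf 556042370 103652550 495977607911366312591360) 384 512 0 64 448 512) = true := by decide +kernel
  have c2 : (band (go 16 Gd mult S343_372_660_808 (Tr.lf 557090946 112041031 0) 384 512 0 64 384 448)
  (band (go 16 Gd mult S314_343_734_808 (Tr.lf 555910274 103783622 0) 384 512 0 64 384 448)
  (band (go 16 Gd mult S314_343_512_660 (Tr.lf 555893890 103652550 0) 384 512 0 64 384 448)
  (go 16 Gd mult S343_372_512_660 (Tr.lf 555893890 107846726 0) 384 512 0 64 384 448)))) = true := by decide +kernel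
  have c3 : (band (go 16 Gd mult S343_372_512_660 (Tr.lf 557089924 99454151 359176553861483602116608) 384 512 0 64 480 512)
  (band (go 16 Gd mult S314_343_512_660 (Tr.lf 1169441922 107846856 758659243550316364300288) 384 512 0 64 480 512)
  (band (go 16 Gd mult S343_372_364_512 (Tr.lf 623133826 104045638 338663774449358212169728) 384 512 0 64 480 512)
  (go 16 Gd mult S314_343_512_660 (Tr.lf 556024386 103783622 0) 384 512 0 64 448 480)))) = true := by decide +kernel
  have c4 : (band (go 16 Gd mult S314_343_734_808 (Tr.lf 1093961796 99454024 454472433743982223163392) 384 512 32 64 448 512)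
  (go 16 Gd mult S314_343_734_808 (Tr.lf 1169459266 103783624 446964608905982435655680) 384 512 0 32 448 512)) = true := by decide +kernel
  have c5 : (band (go 16 Gd mult S343_372_512_660 (Tr.lf 557073538 107977799 0) 384 512 0 64 448 480)
  (band (go 16 Gd mult S343_372_364_512 (Tr.lf 555893378 112041030 0) 384 512 0 64 448 480)
  (band (go 16 Gd mult S343_372_364_512 (Tr.lf 555893889 107846726 0) 384 512 0 64 384 448)
  (band (go 16 Gd mult S314_343_660_734 (Tr.lf 555893890 107846854 0) 384 512 0 64 384 448)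
  (go 16 Gd mult S314_343_364_512 (Tr.lf 9585729 103648325 0) 384 512 0 64 384 448))))) = true := by decide +kernel
  (And.intro (Ok.s2 448 (Ok.s3 343 (Ok.lf S314_343_364_512_ok (br (br (br (br c5)))))
  (Ok.lf S343_372_364_512_ok (bl (br (br c5)))))
  (Ok.s3 343 (Ok.lf S314_343_364_512_ok c1)
  (Ok.s2 480 (Ok.lf S343_372_364_512_ok (bl (br c5)))
  (Ok.lf S343_372_364_512_ok (bl (br (br c3)))))))
  (And.intro (Ok.s2 448 (Ok.s3 343 (Ok.lf S314_343_512_660_ok (bl (br (br c2))))
  (Ok.lf S343_372_512_660_ok (br (br (br c2)))))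
  (Ok.s2 480 (Ok.s3 343 (Ok.lf S314_343_512_660_ok (br (br (br c3))))
  (Ok.lf S343_372_512_660_ok (bl c5)))
  (Ok.s3 343 (Ok.lf S314_343_512_660_ok (bl (br c3)))
  (Ok.lf S343_372_512_660_ok (bl c3)))))
  (And.intro (Ok.s4 734 (Ok.s2 448 (Ok.lf S314_343_660_734_ok (bl (br (br (br c5)))))
  (Ok.lf S314_343_660_734_ok c0))
  (Ok.s2 448 (Ok.lf S314_343_734_808_ok (bl (br c2)))
  (Ok.s1 32 (Ok.lf S314_343_734_808_ok (br c4))
  (Ok.lf S314_343_734_808_ok (bl c4)))))
  (Ok.lf S343_372_660_808_ok (bl c2)))))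

end Vale.Agent.P098.Ck
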