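import Vale.Agent.P098.CkGd
import Vale.Agent.P098.CkOk
import Vale.Agent.P098.Sh.A3
import Vale.Agent.P098.Sh.A4
import Vale.Agent.P098.Sh.A5
import Vale.Agent.P098.Sh.A6
import Vale.Agent.P098.Sh.A8

namespace Vale.Agent.P098.Ck

theorem r654 :
    Ok Gd mult 384 512 96 128 256 384 82 111 512 660 ∧
    Ok Gd mult 384 512 96 128 256 384 111 140 512 660 ∧
    Ok Gd mult 384 512 64 128 256 384 82 140 660 808 ∧
    Ok Gd mult 384 512 64 128 256 320 140 169 216 364 ∧
    Ok Gd mult 384 512 64 96 320 384 140 169 216 364 :=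
  have c0 : (go 16 Gd mult S111_140_512_660 (Tr.lf 13978863748 103382216 0) 384 448 96 128 320 384) = true := by decide +kernel
  have c1 : (go 16 Gd mult S111_140_660_808 (Tr.lf 13978862728 111770824 0) 384 512 96 128 320 352) = true := by decide +kernel
  have c2 : (go 16 Gd mult S111_140_660_808 (Tr.lf 13978862728 107707592 0) 384 512 96 128 352 384) = true := by decide +kernel
  have c3 : (band (go 16 Gd mult S82_111_512_660 (Tr.lf 13970343048 107568328 0) 384 512 96 128 256 320)
  (go 16 Gd mult S111_140_512_660 (Tr.lf 13432554628 95115977 0) 384 512 96 128 256 320)) = true := by decide +kernel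
  have c4 : (band (go 16 Gd mult S82_111_512_660 (Tr.lf 13978732676 103390280 0) 384 448 96 128 320 384)
  (go 16 Gd mult S82_111_660_808 (Tr.lf 13978847364 103390280 0) 384 448 96 128 320 384)) = true := by decide +kernel
  have c5 : (band (go 16 Gd mult S82_111_660_808 (Tr.lf 13970457736 107576392 0) 384 512 96 128 256 320)
  (band (go 16 Gd mult S111_140_660_808 (Tr.lf 13432538244 95116232 0) 384 512 96 128 256 320)
  (go 16 Gd mult S111_140_660_808 (Tr.lf 9137570948 99310663 0) 384 512 64 96 320 384))) = true := by decide +kernel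
  have c6 : (band (go 16 Gd mult S140_169_216_364 (Tr.lf 9145975940 103648072 0) 384 512 64 128 256 320)
  (band (go 16 Gd mult S140_169_216_364 (Tr.lf 547652674 103783366 0) 384 512 64 96 320 384)
  (go 16 Gd mult S82_111_660_808 (Tr.lf 9137440900 103381959 0) 384 512 64 96 320 384))) = true := by decide +kernel
  have c7 : (band (go 16 Gd mult S111_140_512_660 (Tr.lf 9145960578 107977926 0) 448 512 96 128 320 384)
  (band (go 16 Gd mult S82_111_512_660 (Tr.lf 9137440834 107711686 0) 448 512 96 128 320 384)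
  (go 16 Gd mult S82_111_660_808 (Tr.lf 9137440834 107711686 0) 448 512 96 128 320 384))) = true := by decide +kernel
  have c8 : (go 16 Gd mult S82_140_660_808 (Tr.lf 547652676 95394758 0) 384 512 64 96 256 320) = true := by decide +kernel
  (And.intro (Ok.s2 320 (Ok.lf S82_111_512_660_ok (bl c3))
  (Ok.s0 448 (Ok.lf S82_111_512_660_ok (bl c4))
  (Ok.lf S82_111_512_660_ok (bl (br c7)))))
  (And.intro (Ok.s2 320 (Ok.lf S111_140_512_660_ok (br c3))
  (Ok.s0 448 (Ok.lf S111_140_512_660_ok c0)
  (Ok.lf S111_140_512_660_ok (bl c7))))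
  (And.intro (Ok.s1 96 (Ok.s2 320 (Ok.lf S82_140_660_808_ok c8)
  (Ok.s3 111 (Ok.lf S82_111_660_808_ok (br (br c6)))
  (Ok.lf S111_140_660_808_ok (br (br c5)))))
  (Ok.s2 320 (Ok.s3 111 (Ok.lf S82_111_660_808_ok (bl c5))
  (Ok.lf S111_140_660_808_ok (bl (br c5))))
  (Ok.s3 111 (Ok.s0 448 (Ok.lf S82_111_660_808_ok (br c4))
  (Ok.lf S82_111_660_808_ok (br (br c7))))
  (Ok.s2 352 (Ok.lf S111_140_660_808_ok c1)
  (Ok.lf S111_140_660_808_ok c2)))))
  (And.intro (Ok.lf S140_169_216_364_ok (bl c6))
  (Ok.lf S140_169_216_364_ok (bl (br c6)))))))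

end Vale.Agent.P098.Ck
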