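import Vale.Agent.P098.CkGd
import Vale.Agent.P098.CkOk
import Vale.Agent.P098.Sh.A12
import Vale.Agent.P098.Sh.A14
import Vale.Agent.P098.Sh.A17
import Vale.Agent.P098.Sh.A20
import Vale.Agent.P098.Sh.A21
import Vale.Agent.P098.Sh.A7
import Vale.Agent.P098.Sh.A9

namespace Vale.Agent.P098.Ck

theorem r655 :
    Ok Gd mult 384 512 96 128 320 384 140 169 216 364 ∧
    Ok Gd mult 384 512 64 128 256 384 169 198 216 364 ∧
    Ok Gd mult 384 512 64 128 256 384 140 169 364 512 :=
  have c0 : (go 16 Gd mult S154_169_216_290 (Tr.lf 13987235976 103513161 0) 384 512 96 128 320 384) = true := by decide +kernel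
  have c1 : (go 16 Gd mult S154_169_290_364 (Tr.lf 13987235976 107449417 0) 384 512 96 128 320 384) = true := by decide +kernel
  have c2 : (go 16 Gd mult S169_198_216_364 (Tr.lf 547914884 91200455 0) 384 512 64 128 256 320) = true := by decide +kernel
  have c3 : (band (go 16 Gd mult S169_183_216_364 (Tr.lf 13986448520 107449161 0) 384 512 96 128 352 384)
  (band (go 16 Gd mult S169_183_216_364 (Tr.lf 9146221124 107842631 0) 384 512 96 128 320 352)
  (go 16 Gd mult S183_198_216_290 (Tr.lf 9145958980 103644359 0) 384 512 96 128 320 352))) = true := by decide +kernel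
  have c4 : (go 16 Gd mult S183_198_216_290 (Tr.lf 13449593988 94862281 0) 384 512 96 128 352 384) = true := by decide +kernel
  have c5 : (go 16 Gd mult S140_154_364_512 (Tr.lf 13987235976 103521225 0) 384 512 96 128 320 384) = true := by decide +kernel
  have c6 : (band (go 16 Gd mult S140_154_216_364 (Tr.lf 13987497092 111779016 0) 384 512 96 128 352 384)
  (go 16 Gd mult S154_169_364_512 (Tr.lf 13987497092 103513161 0) 384 512 96 128 352 384)) = true := by decide +kernel
  have c7 : (go 16 Gd mult S183_198_290_364 (Tr.lf 9154349188 103644232 0) 384 512 96 128 320 384) = true := by decide +kernel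
  have c8 : (go 16 Gd mult S140_169_364_512 (Tr.lf 9137587332 103631816 0) 384 512 64 128 256 320) = true := by decide +kernel
  have c9 : (band (go 16 Gd mult S140_154_216_364 (Tr.lf 9145959044 103783367 0) 384 512 96 128 320 352)
  (go 16 Gd mult S154_169_364_512 (Tr.lf 9145950788 107969607 0) 384 512 96 128 320 352)) = true := by decide +kernel
  have c10 : (band (go 16 Gd mult S169_198_216_364 (Tr.lf 547652674 103910470 0) 384 512 64 96 320 384)
  (go 16 Gd mult S140_169_364_512 (Tr.lf 4842603586 103648326 0) 384 512 64 96 320 384)) = true := by decide +kernel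
  (And.intro (Ok.s3 154 (Ok.s2 352 (Ok.lf S140_154_216_364_ok (bl c9))
  (Ok.lf S140_154_216_364_ok (bl c6)))
  (Ok.s4 290 (Ok.lf S154_169_216_290_ok c0)
  (Ok.lf S154_169_290_364_ok c1)))
  (And.intro (Ok.s2 320 (Ok.lf S169_198_216_364_ok c2)
  (Ok.s1 96 (Ok.lf S169_198_216_364_ok (bl c10))
  (Ok.s3 183 (Ok.s2 352 (Ok.lf S169_183_216_364_ok (bl (br c3)))
  (Ok.lf S169_183_216_364_ok (bl c3)))
  (Ok.s4 290 (Ok.s2 352 (Ok.lf S183_198_216_290_ok (br (br c3)))
  (Ok.lf S183_198_216_290_ok c4))
  (Ok.lf S183_198_290_364_ok c7)))))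
  (Ok.s2 320 (Ok.lf S140_169_364_512_ok c8)
  (Ok.s1 96 (Ok.lf S140_169_364_512_ok (br c10))
  (Ok.s3 154 (Ok.lf S140_154_364_512_ok c5)
  (Ok.s2 352 (Ok.lf S154_169_364_512_ok (br c9))
  (Ok.lf S154_169_364_512_ok (br c6))))))))

end Vale.Agent.P098.Ck
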