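import Vale.Agent.P098.CkGd
import Vale.Agent.P098.CkOk
import Vale.Agent.P098.Sh.A0
import Vale.Agent.P098.Sh.A1

namespace Vale.Agent.P098.Ck

theorem r660 :
    Ok Gd mult 384 512 64 128 448 512 24 82 216 364 ∧
    Ok Gd mult 384 512 64 128 384 512 24 82 364 512 ∧
    Ok Gd mult 384 512 64 96 384 512 24 82 512 660 :=
  have c0 : (go 16 Gd mult S53_82_512_660 (Tr.lf 9674328200 111901639 0) 384 512 64 96 384 448) = true := by decide +kernel
  have c1 : (band (go 16 Gd mult S24_53_364_512 (Tr.lf 9666922632 107699399 0) 384 512 64 96 384 448)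
  (go 16 Gd mult S24_53_512_660 (Tr.lf 9666922632 107699399 0) 384 512 64 96 384 448)) = true := by decide +kernel
  have c2 : (band (go 16 Gd mult S53_82_364_512 (Tr.lf 9674262664 103504840 0) 384 512 96 128 384 448)
  (band (go 16 Gd mult S24_53_364_512 (Tr.lf 9665857672 107559880 0) 384 512 96 128 384 448)
  (go 16 Gd mult S24_53_364_512 (Tr.lf 9666905156 99175496 0) 384 512 64 96 448 480))) = true := by decide +kernel
  have c3 : (band (go 16 Gd mult S53_82_364_512 (Tr.lf 9675294856 111901895 0) 384 512 64 96 416 448)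
  (band (go 16 Gd mult S53_82_364_512 (Tr.lf 13432342660 86329930 0) 384 512 64 96 448 480)
  (band (go 16 Gd mult S53_82_216_364 (Tr.lf 13969279108 94718538 0) 384 512 64 96 448 480)
  (go 16 Gd mult S24_53_216_364 (Tr.lf 9666905156 99175496 0) 384 512 64 96 448 480)))) = true := by decide +kernel
  have c4 : (band (go 16 Gd mult S24_82_216_364 (Tr.lf 540182596 103775175 234439670432774828982272) 384 512 64 96 480 512)
  (band (go 16 Gd mult S24_82_364_512 (Tr.lf 540117060 99580871 234439670432774874071040) 384 512 64 96 480 512)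
  (go 16 Gd mult S53_82_512_660 (Tr.lf 548480066 107846599 201253977900375150166016) 384 512 64 96 480 512))) = true := by decide +kernel
  have c5 : (go 16 Gd mult S24_53_512_660 (Tr.lf 9666906244 98909129 0) 384 512 64 96 448 512) = true := by decide +kernel
  have c6 : (go 16 Gd mult S53_82_512_660 (Tr.lf 9137375364 94989128 0) 384 512 64 96 448 480) = true := by decide +kernel
  have c7 : (go 16 Gd mult S53_82_364_512 (Tr.lf 13969212548 103377736 0) 384 512 64 96 384 416) = true := by decide +kernel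
  have c8 : (band (go 16 Gd mult S24_82_216_364 (Tr.lf 4834018338 103369799 0) 384 512 96 128 448 512)
  (go 16 Gd mult S24_82_364_512 (Tr.lf 4834018338 103369799 0) 384 512 96 128 448 512)) = true := by decide +kernel
  (And.intro (Ok.s1 96 (Ok.s2 480 (Ok.s3 53 (Ok.lf S24_53_216_364_ok (br (br (br c3))))
  (Ok.lf S53_82_216_364_ok (bl (br (br c3)))))
  (Ok.lf S24_82_216_364_ok (bl c4)))
  (Ok.lf S24_82_216_364_ok (bl c8)))
  (And.intro (Ok.s2 448 (Ok.s3 53 (Ok.s1 96 (Ok.lf S24_53_364_512_ok (bl c1))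
  (Ok.lf S24_53_364_512_ok (bl (br c2))))
  (Ok.s1 96 (Ok.s2 416 (Ok.lf S53_82_364_512_ok c7)
  (Ok.lf S53_82_364_512_ok (bl c3)))
  (Ok.lf S53_82_364_512_ok (bl c2))))
  (Ok.s1 96 (Ok.s2 480 (Ok.s3 53 (Ok.lf S24_53_364_512_ok (br (br c2)))
  (Ok.lf S53_82_364_512_ok (bl (br c3))))
  (Ok.lf S24_82_364_512_ok (bl (br c4))))
  (Ok.lf S24_82_364_512_ok (br c8))))
  (Ok.s3 53 (Ok.s2 448 (Ok.lf S24_53_512_660_ok (br c1))
  (Ok.lf S24_53_512_660_ok c5))
  (Ok.s2 448 (Ok.lf S53_82_512_660_ok c0)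
  (Ok.s2 480 (Ok.lf S53_82_512_660_ok c6)
  (Ok.lf S53_82_512_660_ok (br (br c4))))))))

end Vale.Agent.P098.Ck
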