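import Vale.Agent.P098.CkGd
import Vale.Agent.P098.CkOk
import Vale.Agent.P098.Sh.A2
import Vale.Agent.P098.Sh.A4
import Vale.Agent.P098.Sh.A6

namespace Vale.Agent.P098.Ck

theorem r662 :
    Ok Gd mult 384 512 64 96 384 448 125 140 216 364 ∧
    Ok Gd mult 384 512 96 128 384 448 82 140 216 364 ∧
    Ok Gd mult 384 512 64 96 448 480 82 111 216 364 :=
  have c0 : (band (go 16 Gd mult S125_140_216_364 (Tr.lf 13978847368 94862281 0) 384 512 64 96 384 416)
  (go 16 Gd mult S125_140_216_364 (Tr.lf 9145960578 95132743 0) 448 512 96 128 384 448)) = true := by decide +kernel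
  have c1 : (go 16 Gd mult S82_111_216_364 (Tr.lf 13978863688 103382216 0) 384 512 96 112 384 416) = true := by decide +kernel
  have c2 : (go 16 Gd mult S82_111_216_364 (Tr.lf 13978863688 103119945 0) 384 512 112 128 384 416) = true := by decide +kernel
  have c3 : (go 16 Gd mult S82_111_216_364 (Tr.lf 13978863748 94989385 0) 384 448 96 128 416 448) = true := by decide +kernel
  have c4 : (go 16 Gd mult S125_140_216_364 (Tr.lf 13979109508 94989385 0) 384 448 96 128 384 448) = true := by decide +kernel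
  have c5 : (band (go 16 Gd mult S125_140_216_364 (Tr.lf 13987235972 99192008 0) 384 448 64 80 416 448)
  (band (go 16 Gd mult S125_140_216_364 (Tr.lf 13987235908 99323080 0) 384 448 80 96 416 448)
  (go 16 Gd mult S125_140_216_364 (Tr.lf 9145959554 103521478 0) 448 512 64 96 416 448))) = true := by decide +kernel
  have c6 : (band (go 16 Gd mult S111_125_216_364 (Tr.lf 13978847364 94989385 0) 384 448 96 128 416 448)
  (band (go 16 Gd mult S111_125_216_364 (Tr.lf 13978846340 99318984 0) 384 448 96 128 384 416)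
  (go 16 Gd mult S111_125_216_364 (Tr.lf 9145960514 95132743 0) 448 512 96 128 384 448))) = true := by decide +kernel
  have c7 : (band (go 16 Gd mult S96_111_216_364 (Tr.lf 13978846344 99056840 0) 384 512 64 80 448 464)
  (go 16 Gd mult S82_96_216_364 (Tr.lf 13977658440 94862025 0) 384 512 64 80 448 464)) = true := by decide +kernel
  have c8 : (band (go 16 Gd mult S82_111_216_364 (Tr.lf 9145828420 90934088 0) 384 512 64 96 464 480)
  (go 16 Gd mult S82_111_216_364 (Tr.lf 9145827876 99191879 0) 384 512 80 96 448 464)) = true := by decide +kernel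
  have c9 : (go 16 Gd mult S82_111_216_364 (Tr.lf 9137374274 95116487 0) 448 512 96 128 416 448) = true := by decide +kernel
  (And.intro (Ok.s2 416 (Ok.lf S125_140_216_364_ok (bl c0))
  (Ok.s0 448 (Ok.s1 80 (Ok.lf S125_140_216_364_ok (bl c5))
  (Ok.lf S125_140_216_364_ok (bl (br c5))))
  (Ok.lf S125_140_216_364_ok (br (br c5)))))
  (And.intro (Ok.s3 111 (Ok.s2 416 (Ok.s1 112 (Ok.lf S82_111_216_364_ok c1)
  (Ok.lf S82_111_216_364_ok c2))
  (Ok.s0 448 (Ok.lf S82_111_216_364_ok c3)
  (Ok.lf S82_111_216_364_ok c9)))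
  (Ok.s3 125 (Ok.s0 448 (Ok.s2 416 (Ok.lf S111_125_216_364_ok (bl (br c6)))
  (Ok.lf S111_125_216_364_ok (bl c6)))
  (Ok.lf S111_125_216_364_ok (br (br c6))))
  (Ok.s0 448 (Ok.lf S125_140_216_364_ok c4)
  (Ok.lf S125_140_216_364_ok (br c0)))))
  (Ok.s2 464 (Ok.s1 80 (Ok.s3 96 (Ok.lf S82_96_216_364_ok (br c7))
  (Ok.lf S96_111_216_364_ok (bl c7)))
  (Ok.lf S82_111_216_364_ok (br c8)))
  (Ok.lf S82_111_216_364_ok (bl c8)))))

end Vale.Agent.P098.Ck
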