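import Vale.Agent.P098.CkGd
import Vale.Agent.P098.CkOk
import Vale.Agent.P098.Sh.A2
import Vale.Agent.P098.Sh.A4
import Vale.Agent.P098.Sh.A5
import Vale.Agent.P098.Sh.A6

namespace Vale.Agent.P098.Ck

theorem r663 :
    Ok Gd mult 384 512 64 96 448 480 111 140 216 364 ∧
    Ok Gd mult 384 512 96 128 448 480 82 140 216 364 ∧
    Ok Gd mult 384 512 64 128 480 512 82 140 216 364 ∧
    Ok Gd mult 384 512 64 128 384 448 82 111 364 512 ∧
    Ok Gd mult 384 512 64 96 384 448 111 140 364 512 :=
  have c0 : (band (go 16 Gd mult S82_111_364_512 (Tr.lf 13978732680 103119945 0) 384 512 96 128 384 416)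
  (go 16 Gd mult S82_111_364_512 (Tr.lf 9137457282 95255750 0) 448 512 64 96 384 448)) = true := by decide +kernel
  have c1 : (go 16 Gd mult S82_111_364_512 (Tr.lf 13978732680 94854345 0) 384 512 96 128 416 448) = true := by decide +kernel
  have c2 : (band (go 16 Gd mult S111_125_216_364 (Tr.lf 13987235976 98929737 0) 384 512 64 96 448 464)
  (go 16 Gd mult S111_125_216_364 (Tr.lf 13977797764 94858057 0) 384 512 64 96 464 480)) = true := by decide +kernel
  have c3 : (go 16 Gd mult S125_140_216_364 (Tr.lf 13987497096 98929737 0) 384 512 64 96 448 464) = true := by decide +kernel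
  have c4 : (go 16 Gd mult S125_140_216_364 (Tr.lf 13987497096 94866505 0) 384 512 64 96 464 480) = true := by decide +kernel
  have c5 : (go 16 Gd mult S111_140_364_512 (Tr.lf 13978863748 94862536 0) 384 448 64 96 384 416) = true := by decide +kernel
  have c6 : (go 16 Gd mult S111_140_364_512 (Tr.lf 13987252356 99323080 0) 384 448 64 96 416 448) = true := by decide +kernel
  have c7 : (go 16 Gd mult S111_140_364_512 (Tr.lf 9145976964 95263942 0) 448 512 64 96 384 448) = true := by decide +kernel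
  have c8 : (band (go 16 Gd mult S82_111_364_512 (Tr.lf 13978732676 94989512 0) 384 448 64 96 384 416)
  (go 16 Gd mult S82_111_364_512 (Tr.lf 13978732676 99314888 0) 384 448 64 96 416 448)) = true := by decide +kernel
  have c9 : (band (go 16 Gd mult S111_140_216_364 (Tr.lf 4851008644 103517255 0) 384 512 64 128 480 512)
  (go 16 Gd mult S82_111_216_364 (Tr.lf 547505284 112168006 52813028283030446276608) 384 512 64 128 480 512)) = true := by decide +kernel
  have c10 : (band (go 16 Gd mult S111_140_216_364 (Tr.lf 9145828420 94866376 0) 384 512 96 128 448 480)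
  (go 16 Gd mult S82_111_216_364 (Tr.lf 4841357858 99322822 0) 384 512 96 128 448 480)) = true := by decide +kernel
  (And.intro (Ok.s3 125 (Ok.s2 464 (Ok.lf S111_125_216_364_ok (bl c2))
  (Ok.lf S111_125_216_364_ok (br c2)))
  (Ok.s2 464 (Ok.lf S125_140_216_364_ok c3)
  (Ok.lf S125_140_216_364_ok c4)))
  (And.intro (Ok.s3 111 (Ok.lf S82_111_216_364_ok (br c10))
  (Ok.lf S111_140_216_364_ok (bl c10)))
  (And.intro (Ok.s3 111 (Ok.lf S82_111_216_364_ok (br c9))
  (Ok.lf S111_140_216_364_ok (bl c9)))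
  (And.intro (Ok.s1 96 (Ok.s0 448 (Ok.s2 416 (Ok.lf S82_111_364_512_ok (bl c8))
  (Ok.lf S82_111_364_512_ok (br c8)))
  (Ok.lf S82_111_364_512_ok (br c0)))
  (Ok.s2 416 (Ok.lf S82_111_364_512_ok (bl c0))
  (Ok.lf S82_111_364_512_ok c1)))
  (Ok.s0 448 (Ok.s2 416 (Ok.lf S111_140_364_512_ok c5)
  (Ok.lf S111_140_364_512_ok c6))
  (Ok.lf S111_140_364_512_ok c7))))))

end Vale.Agent.P098.Ck
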