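import Vale.Agent.P098.CkGd
import Vale.Agent.P098.CkOk
import Vale.Agent.P098.Sh.A14
import Vale.Agent.P098.Sh.A15
import Vale.Agent.P098.Sh.A17
import Vale.Agent.P098.Sh.A20
import Vale.Agent.P098.Sh.A21
import Vale.Agent.P098.Sh.A8

namespace Vale.Agent.P098.Ck

theorem r668 :
    Ok Gd mult 384 512 64 96 448 480 169 198 216 364 ∧
    Ok Gd mult 384 512 96 128 448 480 169 198 216 364 ∧
    Ok Gd mult 384 512 64 128 480 496 140 198 216 364 ∧
    Ok Gd mult 384 512 64 128 496 504 140 198 216 364 :=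
  have c0 : (go 16 Gd mult S169_183_216_290 (Tr.lf 13450365064 86346825 0) 384 512 64 96 448 480) = true := by decide +kernel
  have c1 : (go 16 Gd mult S169_183_290_364 (Tr.lf 9145960584 94997575 0) 384 512 64 96 448 480) = true := by decide +kernel
  have c2 : (band (go 16 Gd mult S183_198_216_290 (Tr.lf 13449316488 86604617 0) 384 512 64 96 448 480)
  (go 16 Gd mult S183_198_216_290 (Tr.lf 13449315396 90536905 0) 384 512 96 128 464 480)) = true := by decide +kernel
  have c3 : (band (go 16 Gd mult S183_198_290_364 (Tr.lf 9145960584 99449927 0) 384 512 64 96 448 480)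
  (go 16 Gd mult S183_198_290_364 (Tr.lf 8608040068 82537415 0) 384 512 64 96 480 496)) = true := by decide +kernel
  have c4 : (go 16 Gd mult S140_169_216_364 (Tr.lf 9691497604 103259080 0) 384 512 64 96 480 496) = true := by decide +kernel
  have c5 : (band (go 16 Gd mult S169_183_216_290 (Tr.lf 13987235972 98925769 0) 384 512 96 128 448 480)
  (go 16 Gd mult S183_198_290_364 (Tr.lf 13987235972 98925769 0) 384 512 96 128 448 480)) = true := by decide +kernel
  have c6 : (go 16 Gd mult S169_183_290_364 (Tr.lf 9145960580 99187911 0) 384 512 96 128 448 480) = true := by decide +kernel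
  have c7 : (band (go 16 Gd mult S183_198_216_290 (Tr.lf 13449315464 90803017 0) 384 512 96 128 448 464)
  (go 16 Gd mult S183_198_216_290 (Tr.lf 13449315464 78080969 0) 384 512 64 96 480 496)) = true := by decide +kernel
  have c8 : (go 16 Gd mult S169_183_216_364 (Tr.lf 13987497092 90664137 0) 384 512 64 96 480 496) = true := by decide +kernel
  have c9 : (band (go 16 Gd mult S169_198_216_364 (Tr.lf 1161331076 99585096 0) 384 512 64 128 496 504)
  (go 16 Gd mult S140_169_216_364 (Tr.lf 1092911490 99322951 0) 384 512 64 128 496 504)) = true := by decide +kernel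
  have c10 : (band (go 16 Gd mult S169_198_216_364 (Tr.lf 547635780 107973702 0) 384 512 96 128 480 496)
  (go 16 Gd mult S140_169_216_364 (Tr.lf 547504418 107973702 0) 384 512 96 128 480 496)) = true := by decide +kernel
  (And.intro (Ok.s3 183 (Ok.s4 290 (Ok.lf S169_183_216_290_ok c0)
  (Ok.lf S169_183_290_364_ok c1))
  (Ok.s4 290 (Ok.lf S183_198_216_290_ok (bl c2))
  (Ok.lf S183_198_290_364_ok (bl c3))))
  (And.intro (Ok.s3 183 (Ok.s4 290 (Ok.lf S169_183_216_290_ok (bl c5))
  (Ok.lf S169_183_290_364_ok c6))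
  (Ok.s4 290 (Ok.s2 464 (Ok.lf S183_198_216_290_ok (bl c7))
  (Ok.lf S183_198_216_290_ok (br c2)))
  (Ok.lf S183_198_290_364_ok (br c5))))
  (And.intro (Ok.s3 169 (Ok.s1 96 (Ok.lf S140_169_216_364_ok c4)
  (Ok.lf S140_169_216_364_ok (br c10)))
  (Ok.s1 96 (Ok.s3 183 (Ok.lf S169_183_216_364_ok c8)
  (Ok.s4 290 (Ok.lf S183_198_216_290_ok (br c7))
  (Ok.lf S183_198_290_364_ok (br c3))))
  (Ok.lf S169_198_216_364_ok (bl c10))))
  (Ok.s3 169 (Ok.lf S140_169_216_364_ok (br c9))
  (Ok.lf S169_198_216_364_ok (bl c9))))))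

end Vale.Agent.P098.Ck
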