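import Vale.Agent.P098.CkGd
import Vale.Agent.P098.CkOk
import Vale.Agent.P098.Sh.A10
import Vale.Agent.P098.Sh.A12
import Vale.Agent.P098.Sh.A16
import Vale.Agent.P098.Sh.A19
import Vale.Agent.P098.Sh.A22
import Vale.Agent.P098.Sh.A8

namespace Vale.Agent.P098.Ck

theorem r672 :
    Ok Gd mult 384 512 96 128 416 448 140 169 512 660 ∧
    Ok Gd mult 384 512 64 128 384 448 169 198 512 660 ∧
    Ok Gd mult 384 512 64 128 448 480 140 169 512 660 :=
  have c0 : (band (go 16 Gd mult S154_169_512_660 (Tr.lf 9146222724 103390279 0) 384 512 96 128 416 448)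
  (go 16 Gd mult S169_183_512_586 (Tr.lf 8608040068 95259463 0) 384 512 96 128 416 448)) = true := by decide +kernel
  have c1 : (go 16 Gd mult S140_169_512_660 (Tr.lf 9146239044 95128647 0) 384 512 80 96 448 480) = true := by decide +kernel
  have c2 : (go 16 Gd mult S140_169_512_660 (Tr.lf 9145975944 95124679 0) 384 512 96 128 448 464) = true := by decide +kernel
  have c3 : (band (go 16 Gd mult S140_154_512_660 (Tr.lf 9145960580 103390279 0) 384 512 96 128 416 448)
  (band (go 16 Gd mult S183_198_512_660 (Tr.lf 8608302212 95259718 0) 384 512 96 128 416 448)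
  (go 16 Gd mult S169_183_586_660 (Tr.lf 8599651396 95251526 0) 384 512 96 128 416 448))) = true := by decide +kernel
  have c4 : (go 16 Gd mult S169_198_512_660 (Tr.lf 4304962628 103648325 0) 384 512 64 80 416 448) = true := by decide +kernel
  have c5 : (band (go 16 Gd mult S169_183_512_660 (Tr.lf 8609350788 99581254 0) 384 512 96 128 384 416)
  (band (go 16 Gd mult S183_198_512_660 (Tr.lf 8599913540 103508807 0) 384 512 96 128 384 416)
  (go 16 Gd mult S169_183_512_660 (Tr.lf 8608302148 99326918 0) 384 512 80 96 416 448))) = true := by decide +kernel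
  have c6 : (go 16 Gd mult S183_198_512_660 (Tr.lf 4313334852 103906246 0) 384 512 80 96 416 448) = true := by decide +kernel
  have c7 : (band (go 16 Gd mult S154_169_512_660 (Tr.lf 9145960516 103513414 0) 384 512 64 80 448 480)
  (go 16 Gd mult S140_154_512_660 (Tr.lf 8599644228 86858567 0) 384 512 64 80 448 480)) = true := by decide +kernel
  have c8 : (go 16 Gd mult S169_198_512_660 (Tr.lf 4304684100 107834565 0) 384 512 64 96 384 416) = true := by decide +kernel
  have c9 : (go 16 Gd mult S140_169_512_660 (Tr.lf 9145827906 94866376 0) 384 512 96 128 464 480) = true := by decide +kernel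
  (And.intro (Ok.s3 154 (Ok.lf S140_154_512_660_ok (bl c3))
  (Ok.lf S154_169_512_660_ok (bl c0)))
  (And.intro (Ok.s1 96 (Ok.s2 416 (Ok.lf S169_198_512_660_ok c8)
  (Ok.s1 80 (Ok.lf S169_198_512_660_ok c4)
  (Ok.s3 183 (Ok.lf S169_183_512_660_ok (br (br c5)))
  (Ok.lf S183_198_512_660_ok c6))))
  (Ok.s2 416 (Ok.s3 183 (Ok.lf S169_183_512_660_ok (bl c5))
  (Ok.lf S183_198_512_660_ok (bl (br c5))))
  (Ok.s3 183 (Ok.s4 586 (Ok.lf S169_183_512_586_ok (br c0))
  (Ok.lf S169_183_586_660_ok (br (br c3))))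
  (Ok.lf S183_198_512_660_ok (bl (br c3))))))
  (Ok.s1 96 (Ok.s1 80 (Ok.s3 154 (Ok.lf S140_154_512_660_ok (br c7))
  (Ok.lf S154_169_512_660_ok (bl c7)))
  (Ok.lf S140_169_512_660_ok c1))
  (Ok.s2 464 (Ok.lf S140_169_512_660_ok c2)
  (Ok.lf S140_169_512_660_ok c9)))))

end Vale.Agent.P098.Ck
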