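import Vale.Agent.P098.CkGd
import Vale.Agent.P098.CkOk
import Vale.Agent.P098.Sh.A10
import Vale.Agent.P098.Sh.A16
import Vale.Agent.P098.Sh.A19
import Vale.Agent.P098.Sh.A22

namespace Vale.Agent.P098.Ck

theorem r673 :
    Ok Gd mult 384 512 64 128 448 480 169 198 512 660 ∧
    Ok Gd mult 384 512 64 128 480 512 140 198 512 660 ∧
    Ok Gd mult 384 512 64 128 384 448 140 169 660 808 :=
  have c0 : (go 16 Gd mult S169_183_512_660 (Tr.lf 8608303236 94997319 0) 384 512 64 96 448 480) = true := by decide +kernel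
  have c1 : (band (go 16 Gd mult S169_198_512_660 (Tr.lf 4313351300 95390662 0) 384 512 64 96 480 496)
  (go 16 Gd mult S140_169_512_660 (Tr.lf 4304700484 95124422 0) 384 512 64 96 480 496)) = true := by decide +kernel
  have c2 : (go 16 Gd mult S140_169_660_808 (Tr.lf 13440944260 94862280 0) 384 512 64 96 416 448) = true := by decide +kernel
  have c3 : (go 16 Gd mult S140_169_660_808 (Tr.lf 13979124808 103640264 0) 384 512 96 112 384 416) = true := by decide +kernel
  have c4 : (go 16 Gd mult S140_169_660_808 (Tr.lf 13979124808 99192008 0) 384 512 112 128 384 416) = true := by decide +kernel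
  have c5 : (band (go 16 Gd mult S183_198_512_660 (Tr.lf 4313334916 103906246 0) 384 512 64 96 448 480)
  (go 16 Gd mult S183_198_512_660 (Tr.lf 4313335876 95394758 0) 384 512 96 128 448 480)) = true := by decide +kernel
  have c6 : (go 16 Gd mult S169_183_512_660 (Tr.lf 8608303172 86735815 0) 384 512 96 128 448 480) = true := by decide +kernel
  have c7 : (band (go 16 Gd mult S140_169_660_808 (Tr.lf 9145975940 103513159 0) 384 512 64 96 384 416)
  (go 16 Gd mult S140_169_660_808 (Tr.lf 13440944196 90664008 0) 384 512 96 112 416 448)) = true := by decide +kernel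
  have c8 : (go 16 Gd mult S140_169_660_808 (Tr.lf 13440944196 94731081 0) 384 512 112 128 416 448) = true := by decide +kernel
  have c9 : (band (go 16 Gd mult S169_198_512_660 (Tr.lf 8667780 103787460 0) 384 512 64 128 496 512)
  (go 16 Gd mult S140_169_512_660 (Tr.lf 4850860610 99322951 0) 384 512 64 128 496 512)) = true := by decide +kernel
  have c10 : (band (go 16 Gd mult S169_198_512_660 (Tr.lf 4849812002 107846598 0) 384 512 96 128 480 496)
  (go 16 Gd mult S140_169_512_660 (Tr.lf 4841414946 107580358 0) 384 512 96 128 480 496)) = true := by decide +kernel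
  (And.intro (Ok.s1 96 (Ok.s3 183 (Ok.lf S169_183_512_660_ok c0)
  (Ok.lf S183_198_512_660_ok (bl c5)))
  (Ok.s3 183 (Ok.lf S169_183_512_660_ok c6)
  (Ok.lf S183_198_512_660_ok (br c5))))
  (And.intro (Ok.s2 496 (Ok.s3 169 (Ok.s1 96 (Ok.lf S140_169_512_660_ok (br c1))
  (Ok.lf S140_169_512_660_ok (br c10)))
  (Ok.s1 96 (Ok.lf S169_198_512_660_ok (bl c1))
  (Ok.lf S169_198_512_660_ok (bl c10))))
  (Ok.s3 169 (Ok.lf S140_169_512_660_ok (br c9))
  (Ok.lf S169_198_512_660_ok (bl c9))))
  (Ok.s1 96 (Ok.s2 416 (Ok.lf S140_169_660_808_ok (bl c7))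
  (Ok.lf S140_169_660_808_ok c2))
  (Ok.s2 416 (Ok.s1 112 (Ok.lf S140_169_660_808_ok c3)
  (Ok.lf S140_169_660_808_ok c4))
  (Ok.s1 112 (Ok.lf S140_169_660_808_ok (br c7))
  (Ok.lf S140_169_660_808_ok c8))))))

end Vale.Agent.P098.Ck
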