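import Vale.Agent.P098.CkGd
import Vale.Agent.P098.CkOk
import Vale.Agent.P098.Sh.A23
import Vale.Agent.P098.Sh.A25
import Vale.Agent.P098.Sh.A30
import Vale.Agent.P098.Sh.A31

namespace Vale.Agent.P098.Ck

theorem r700 :
    Ok Gd mult 384 512 128 192 256 320 198 227 290 364 ∧
    Ok Gd mult 384 512 128 192 320 384 198 227 216 364 :=
  have c0 : (go 16 Gd mult S198_212_216_290 (Tr.lf 13986448520 95386569 0) 384 512 128 160 352 384) = true := by decide +kernel
  have c1 : (band (go 16 Gd mult S198_212_290_364 (Tr.lf 13449316488 103386057 0) 384 512 128 160 320 384)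
  (go 16 Gd mult S198_212_290_364 (Tr.lf 13449316420 99581001 0) 384 512 160 192 256 320)) = true := by decide +kernel
  have c2 : (band (go 16 Gd mult S198_212_216_290 (Tr.lf 13449577608 107707465 0) 384 512 160 192 320 352)
  (go 16 Gd mult S212_227_253_290 (Tr.lf 13449315400 107707465 0) 384 512 160 192 320 352)) = true := by decide +kernel
  have c3 : (go 16 Gd mult S198_212_216_290 (Tr.lf 13986448520 111901769 0) 384 512 160 192 352 384) = true := by decide +kernel
  have c4 : (go 16 Gd mult S212_227_216_290 (Tr.lf 13449577608 103517129 0) 384 512 128 160 320 352) = true := by decide +kernel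
  have c5 : (go 16 Gd mult S212_227_216_290 (Tr.lf 13449577608 103644105 0) 384 512 128 160 352 384) = true := by decide +kernel
  have c6 : (go 16 Gd mult S212_227_216_290 (Tr.lf 13449577608 103513161 0) 384 512 160 192 352 384) = true := by decide +kernel
  have c7 : (band (go 16 Gd mult S212_227_290_364 (Tr.lf 13449316488 99449929 0) 384 512 128 192 320 384)
  (go 16 Gd mult S212_227_290_364 (Tr.lf 13448267844 103508937 0) 384 512 160 192 256 320)) = true := by decide +kernel
  have c8 : (go 16 Gd mult S198_227_290_364 (Tr.lf 9145976900 103906631 0) 384 512 128 160 256 320) = true := by decide +kernel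
  have c9 : (band (go 16 Gd mult S198_212_216_290 (Tr.lf 13449577544 99449801 0) 384 512 128 144 320 352)
  (go 16 Gd mult S198_212_216_290 (Tr.lf 13986448456 103517129 0) 384 512 144 160 320 352)) = true := by decide +kernel
  have c10 : (go 16 Gd mult S198_212_290_364 (Tr.lf 13449316424 103513161 0) 384 512 160 192 320 384) = true := by decide +kernel
  have c11 : (go 16 Gd mult S212_227_216_253 (Tr.lf 13449315464 107707465 0) 384 512 160 192 320 352) = true := by decide +kernel
  (And.intro (Ok.s1 160 (Ok.lf S198_227_290_364_ok c8)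
  (Ok.s3 212 (Ok.lf S198_212_290_364_ok (br c1))
  (Ok.lf S212_227_290_364_ok (br c7))))
  (Ok.s3 212 (Ok.s1 160 (Ok.s4 290 (Ok.s2 352 (Ok.s1 144 (Ok.lf S198_212_216_290_ok (bl c9))
  (Ok.lf S198_212_216_290_ok (br c9)))
  (Ok.lf S198_212_216_290_ok c0))
  (Ok.lf S198_212_290_364_ok (bl c1)))
  (Ok.s4 290 (Ok.s2 352 (Ok.lf S198_212_216_290_ok (bl c2))
  (Ok.lf S198_212_216_290_ok c3))
  (Ok.lf S198_212_290_364_ok c10)))
  (Ok.s4 290 (Ok.s1 160 (Ok.s2 352 (Ok.lf S212_227_216_290_ok c4)
  (Ok.lf S212_227_216_290_ok c5))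
  (Ok.s2 352 (Ok.s4 253 (Ok.lf S212_227_216_253_ok c11)
  (Ok.lf S212_227_253_290_ok (br c2)))
  (Ok.lf S212_227_216_290_ok c6)))
  (Ok.lf S212_227_290_364_ok (bl c7)))))

end Vale.Agent.P098.Ck
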