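import Vale.Agent.P098.CkGd
import Vale.Agent.P098.CkOk
import Vale.Agent.P098.Sh.A53
import Vale.Agent.P098.Sh.A54
import Vale.Agent.P098.Sh.A56
import Vale.Agent.P098.Sh.A57
import Vale.Agent.P098.Sh.A58
import Vale.Agent.P098.Sh.A59

namespace Vale.Agent.P098.Ck

theorem r713 :
    Ok Gd mult 384 512 128 192 448 512 372 430 512 660 ∧
    Ok Gd mult 384 512 128 192 384 512 372 430 660 808 ∧
    Ok Gd mult 384 512 128 192 384 448 430 488 216 364 ∧
    Ok Gd mult 384 512 128 192 448 480 430 488 216 364 :=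
  have c0 : (band (go 16 Gd mult S372_401_512_660 (Tr.lf 4851009668 99589191 0) 384 512 128 192 448 512)
  (go 16 Gd mult S372_386_660_808 (Tr.lf 4850985092 95394887 0) 384 512 128 192 448 512)) = true := by decide +kernel
  have c1 : (band (go 16 Gd mult S401_430_660_808 (Tr.lf 9683896452 95132617 0) 384 512 128 160 384 448)
  (go 16 Gd mult S430_459_216_364 (Tr.lf 9675360388 95124425 0) 384 512 128 160 384 448)) = true := by decide +kernel
  have c2 : (band (go 16 Gd mult S401_430_660_808 (Tr.lf 5388928136 86744009 0) 384 512 128 192 448 480)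
  (band (go 16 Gd mult S430_459_216_364 (Tr.lf 5380392068 91057097 0) 384 512 128 192 448 480)
  (go 16 Gd mult S459_488_216_364 (Tr.lf 5371937924 91056969 0) 384 512 128 192 448 480))) = true := by decide +kernel
  have c3 : (go 16 Gd mult S401_430_512_660 (Tr.lf 5388797064 86744009 0) 384 512 128 192 448 480) = true := by decide +kernel
  have c4 : (band (go 16 Gd mult S401_430_660_808 (Tr.lf 9683765320 95259721 0) 384 512 160 192 384 448)
  (go 16 Gd mult S372_401_660_808 (Tr.lf 9683896388 95259721 0) 384 512 160 192 384 448)) = true := by decide +kernel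
  have c5 : (band (go 16 Gd mult S372_401_660_808 (Tr.lf 5388929092 86744009 0) 384 512 128 160 384 448)
  (band (go 16 Gd mult S459_488_216_364 (Tr.lf 5371938948 78339017 0) 384 512 128 160 384 448)
  (go 16 Gd mult S459_488_216_364 (Tr.lf 13961873544 90913738 0) 384 512 160 192 384 448))) = true := by decide +kernel
  have c6 : (go 16 Gd mult S386_401_660_808 (Tr.lf 5388912772 82549705 0) 384 512 128 192 448 512) = true := by decide +kernel
  have c7 : (band (go 16 Gd mult S401_430_660_808 (Tr.lf 5380408452 90803272 165622837287204196934746112) 384 512 128 192 480 512)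
  (go 16 Gd mult S401_430_512_660 (Tr.lf 5380392068 90803272 281679715970208597706539008) 384 512 128 192 480 512)) = true := by decide +kernel
  have c8 : (go 16 Gd mult S430_459_216_364 (Tr.lf 9675360328 95259593 0) 384 512 160 192 384 448) = true := by decide +kernel
  (And.intro (Ok.s3 401 (Ok.lf S372_401_512_660_ok (bl c0))
  (Ok.s2 480 (Ok.lf S401_430_512_660_ok c3)
  (Ok.lf S401_430_512_660_ok (br c7))))
  (And.intro (Ok.s3 401 (Ok.s2 448 (Ok.s1 160 (Ok.lf S372_401_660_808_ok (bl c5))
  (Ok.lf S372_401_660_808_ok (br c4)))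
  (Ok.s3 386 (Ok.lf S372_386_660_808_ok (br c0))
  (Ok.lf S386_401_660_808_ok c6)))
  (Ok.s2 448 (Ok.s1 160 (Ok.lf S401_430_660_808_ok (bl c1))
  (Ok.lf S401_430_660_808_ok (bl c4)))
  (Ok.s2 480 (Ok.lf S401_430_660_808_ok (bl c2))
  (Ok.lf S401_430_660_808_ok (bl c7)))))
  (And.intro (Ok.s3 459 (Ok.s1 160 (Ok.lf S430_459_216_364_ok (br c1))
  (Ok.lf S430_459_216_364_ok c8))
  (Ok.s1 160 (Ok.lf S459_488_216_364_ok (bl (br c5)))
  (Ok.lf S459_488_216_364_ok (br (br c5)))))
  (Ok.s3 459 (Ok.lf S430_459_216_364_ok (bl (br c2)))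
  (Ok.lf S459_488_216_364_ok (br (br c2)))))))

end Vale.Agent.P098.Ck
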