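import Vale.Agent.P098.CkGd
import Vale.Agent.P098.CkOk
import Vale.Agent.P098.Sh.A12
import Vale.Agent.P098.Sh.A15
import Vale.Agent.P098.Sh.A18
import Vale.Agent.P098.Sh.A21

namespace Vale.Agent.P098.Ck

theorem r75 :
    Ok Gd mult 0 128 128 192 448 512 154 169 364 512 ∧
    Ok Gd mult 0 128 128 192 384 512 169 198 364 512 :=
  have c0 : (go 16 Gd mult S154_169_364_512 (Tr.lf 13440927880 90926152 1246412333690529892603527168) 0 128 128 192 448 480) = true := by decide +kernel
  have c1 : (go 16 Gd mult S154_169_364_512 (Tr.lf 9137571976 99445831 2802309123808245416969895936) 0 128 128 192 480 512) = true := by decide +kernel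
  have c2 : (band (go 16 Gd mult S169_198_364_512 (Tr.lf 13440944260 103513032 889769403236367072583745536) 64 128 160 192 448 480)
  (go 16 Gd mult S169_198_364_512 (Tr.lf 13440943172 99192007 1248820371661911937471479808) 0 64 160 192 448 480)) = true := by decide +kernel
  have c3 : (band (go 16 Gd mult S169_198_364_438 (Tr.lf 13440812168 86469577 0) 0 128 128 160 416 448)
  (band (go 16 Gd mult S169_198_364_438 (Tr.lf 13440813188 94862408 0) 0 64 128 160 448 512)
  (go 16 Gd mult S169_198_438_512 (Tr.lf 9136392258 95255622 0) 0 64 128 160 448 512))) = true := by decide +kernel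
  have c4 : (band (go 16 Gd mult S169_198_364_438 (Tr.lf 13977684100 103115848 2653592174054111038480056320) 64 128 128 160 480 512)
  (go 16 Gd mult S169_198_364_438 (Tr.lf 13977683076 103386056 0) 64 128 128 160 448 480)) = true := by decide +kernel
  have c5 : (go 16 Gd mult S169_198_438_512 (Tr.lf 13440813128 90536905 0) 0 128 128 160 384 448) = true := by decide +kernel
  have c6 : (go 16 Gd mult S169_198_438_512 (Tr.lf 13440944196 90926152 0) 64 128 128 160 448 512) = true := by decide +kernel
  have c7 : (go 16 Gd mult S169_198_364_512 (Tr.lf 9145976900 103525447 171667466385277342808276992) 0 64 160 192 384 448) = true := by decide +kernel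
  have c8 : (band (go 16 Gd mult S183_198_364_512 (Tr.lf 13440927876 90930248 0) 64 128 160 192 384 448)
  (go 16 Gd mult S169_183_364_512 (Tr.lf 13440919620 94993480 0) 64 128 160 192 384 448)) = true := by decide +kernel
  have c9 : (go 16 Gd mult S169_198_364_512 (Tr.lf 9136522308 112024391 13657261565944676002119548957) 0 128 160 192 480 512) = true := by decide +kernel
  have c10 : (go 16 Gd mult S169_198_364_438 (Tr.lf 9136325188 95251399 0) 0 128 128 160 384 416) = true := by decide +kernel
  (And.intro (Ok.s2 480 (Ok.lf S154_169_364_512_ok c0)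
  (Ok.lf S154_169_364_512_ok c1))
  (Ok.s1 160 (Ok.s4 438 (Ok.s2 448 (Ok.s2 416 (Ok.lf S169_198_364_438_ok c10)
  (Ok.lf S169_198_364_438_ok (bl c3)))
  (Ok.s0 64 (Ok.lf S169_198_364_438_ok (bl (br c3)))
  (Ok.s2 480 (Ok.lf S169_198_364_438_ok (br c4))
  (Ok.lf S169_198_364_438_ok (bl c4)))))
  (Ok.s2 448 (Ok.lf S169_198_438_512_ok c5)
  (Ok.s0 64 (Ok.lf S169_198_438_512_ok (br (br c3)))
  (Ok.lf S169_198_438_512_ok c6))))
  (Ok.s2 448 (Ok.s0 64 (Ok.lf S169_198_364_512_ok c7)
  (Ok.s3 183 (Ok.lf S169_183_364_512_ok (br c8))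
  (Ok.lf S183_198_364_512_ok (bl c8))))
  (Ok.s2 480 (Ok.s0 64 (Ok.lf S169_198_364_512_ok (br c2))
  (Ok.lf S169_198_364_512_ok (bl c2)))
  (Ok.lf S169_198_364_512_ok c9)))))

end Vale.Agent.P098.Ck
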