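import Vale.Agent.P098.CkGd
import Vale.Agent.P098.CkOk
import Vale.Agent.P098.Sh.A54
import Vale.Agent.P098.Sh.A55
import Vale.Agent.P098.Sh.A58
import Vale.Agent.P098.Sh.A59

namespace Vale.Agent.P098.Ck

theorem r767 :
    Ok Gd mult 384 512 384 448 128 256 372 430 216 808 ∧
    Ok Gd mult 384 512 384 448 128 256 430 488 216 808 :=
  have c0 : (band (go 16 Gd mult S372_430_512_660 (Tr.lf 9126879780 107973575 79104849645656272424192966523) 384 512 384 448 128 256)
  (band (go 16 Gd mult S372_430_660_808 (Tr.lf 9126879780 104037319 79104849645656272424192966523) 384 512 384 448 128 256)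
  (band (go 16 Gd mult S372_430_216_364 (Tr.lf 9126879778 104037319 79104849645656272424192966523) 384 512 384 448 128 256)
  (band (go 16 Gd mult S372_430_364_512 (Tr.lf 9126879778 104037319 79104849645656272424192966523) 384 512 384 448 128 256)
  (band (go 16 Gd mult S430_488_216_364 (Tr.lf 9126879778 103910343 79104849645656272424192966523) 384 512 384 448 128 256)
  (band (go 16 Gd mult S430_488_364_512 (Tr.lf 9126879778 103910343 79104849645656272424192966523) 384 512 384 448 128 256)
  (band (go 16 Gd mult S430_488_512_660 (Tr.lf 9126879778 103910343 79104849645656272424192966523) 384 512 384 448 128 256)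
  (go 16 Gd mult S430_488_660_808 (Tr.lf 9126879778 103910343 79104849645656272424192966523) 384 512 384 448 128 256)))))))) = true := by decide +kernel
  (And.intro (Ok.s4 512 (Ok.s4 364 (Ok.lf S372_430_216_364_ok (bl (br (br c0))))
  (Ok.lf S372_430_364_512_ok (bl (br (br (br c0))))))
  (Ok.s4 660 (Ok.lf S372_430_512_660_ok (bl c0))
  (Ok.lf S372_430_660_808_ok (bl (br c0)))))
  (Ok.s4 512 (Ok.s4 364 (Ok.lf S430_488_216_364_ok (bl (br (br (br (br c0))))))
  (Ok.lf S430_488_364_512_ok (bl (br (br (br (br (br c0))))))))
  (Ok.s4 660 (Ok.lf S430_488_512_660_ok (bl (br (br (br (br (br (br c0))))))))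
  (Ok.lf S430_488_660_808_ok (br (br (br (br (br (br (br c0)))))))))))

end Vale.Agent.P098.Ck
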