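import Vale.Agent.P098.CkGd
import Vale.Agent.P098.CkOk
import Vale.Agent.P098.Sh.A23
import Vale.Agent.P098.Sh.A25
import Vale.Agent.P098.Sh.A30
import Vale.Agent.P098.Sh.A31

namespace Vale.Agent.P098.Ck

theorem r77 :
    Ok Gd mult 64 128 128 160 384 448 198 227 216 290 ∧
    Ok Gd mult 64 128 160 192 384 448 198 227 216 290 ∧
    Ok Gd mult 0 128 128 192 384 448 198 227 290 364 ∧
    Ok Gd mult 0 128 128 160 448 512 198 212 216 364 :=
  have c0 : (go 16 Gd mult S212_227_216_290 (Tr.lf 13449332868 99069000 0) 64 128 160 192 384 448) = true := by decide +kernel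
  have c1 : (go 16 Gd mult S198_212_216_364 (Tr.lf 13441190020 90668104 0) 0 64 128 160 448 480) = true := by decide +kernel
  have c2 : (go 16 Gd mult S198_212_216_364 (Tr.lf 13978060932 99318728 3178265979766860100302536704) 0 64 128 160 480 512) = true := by decide +kernel
  have c3 : (band (go 16 Gd mult S198_212_216_290 (Tr.lf 13986187396 99195721 0) 64 128 128 160 416 448)
  (go 16 Gd mult S198_212_216_290 (Tr.lf 18281154692 94866122 0) 64 128 160 192 416 448)) = true := by decide +kernel
  have c4 : (go 16 Gd mult S198_227_290_364 (Tr.lf 13439895620 90794952 0) 0 64 160 192 384 448) = true := by decide +kernel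
  have c5 : (band (go 16 Gd mult S198_212_290_364 (Tr.lf 13986187396 103254985 0) 64 128 128 160 384 448)
  (band (go 16 Gd mult S212_227_216_290 (Tr.lf 13440927812 90794953 0) 64 128 128 160 384 448)
  (go 16 Gd mult S212_227_290_364 (Tr.lf 13439748164 90794697 0) 64 128 128 160 384 448))) = true := by decide +kernel
  have c6 : (band (go 16 Gd mult S198_212_290_364 (Tr.lf 13986187396 103521352 0) 64 128 160 192 384 448)
  (go 16 Gd mult S212_227_290_364 (Tr.lf 13449316484 90811464 0) 64 128 160 192 384 448)) = true := by decide +kernel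
  have c7 : (band (go 16 Gd mult S198_212_216_290 (Tr.lf 13986187396 103394248 0) 64 128 128 160 448 480)
  (go 16 Gd mult S198_212_290_364 (Tr.lf 13986187396 103386184 0) 64 128 128 160 448 480)) = true := by decide +kernel
  have c8 : (go 16 Gd mult S198_212_216_364 (Tr.sp 2 496 (Tr.lf 13986448516 103390407 3314874597383313197044334592) Tr.skip) 64 128 128 160 480 512) = true := by decide +kernel
  have c9 : (go 16 Gd mult S198_212_216_290 (Tr.lf 18281153668 94862154 0) 64 128 160 192 384 416) = true := by decide +kernel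
  have c10 : (go 16 Gd mult S198_227_290_364 (Tr.lf 9144797250 99187783 0) 0 64 128 160 384 448) = true := by decide +kernel
  have c11 : (go 16 Gd mult S198_212_216_290 (Tr.lf 9144771105 103517127 0) 64 128 128 160 384 416) = true := by decide +kernel
  (And.intro (Ok.s3 212 (Ok.s2 416 (Ok.lf S198_212_216_290_ok c11)
  (Ok.lf S198_212_216_290_ok (bl c3)))
  (Ok.lf S212_227_216_290_ok (bl (br c5))))
  (And.intro (Ok.s3 212 (Ok.s2 416 (Ok.lf S198_212_216_290_ok c9)
  (Ok.lf S198_212_216_290_ok (br c3)))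
  (Ok.lf S212_227_216_290_ok c0))
  (And.intro (Ok.s0 64 (Ok.s1 160 (Ok.lf S198_227_290_364_ok c10)
  (Ok.lf S198_227_290_364_ok c4))
  (Ok.s1 160 (Ok.s3 212 (Ok.lf S198_212_290_364_ok (bl c5))
  (Ok.lf S212_227_290_364_ok (br (br c5))))
  (Ok.s3 212 (Ok.lf S198_212_290_364_ok (bl c6))
  (Ok.lf S212_227_290_364_ok (br c6)))))
  (Ok.s0 64 (Ok.s2 480 (Ok.lf S198_212_216_364_ok c1)
  (Ok.lf S198_212_216_364_ok c2))
  (Ok.s2 480 (Ok.s4 290 (Ok.lf S198_212_216_290_ok (bl c7))
  (Ok.lf S198_212_290_364_ok (br c7)))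
  (Ok.lf S198_212_216_364_ok c8))))))

end Vale.Agent.P098.Ck
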